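import Mathlib

/-! Measure isomorphisms between finite atomless measures on standard Borel spaces,
via quantile transforms. -/

set_option autoImplicit false
open MeasureTheory Set
open scoped ENNReal

namespace Crest.Agent.MM

/-- The quantile transform of a finite measure on the line (junk `0` outside `(0,m)`). -/
noncomputable def quantile (η : Measure ℝ) (u : ℝ) : ℝ :=
  if u ∈ Ioo (0 : ℝ) (η univ).toReal then sInf {t : ℝ | ENNReal.ofReal u ≤ η (Iic t)} else 0

variable {η : Measure ℝ} [IsFiniteMeasure η]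

lemma q_set_nonempty {u : ℝ} (hu : u ∈ Ioo (0 : ℝ) (η univ).toReal) :
    {t : ℝ | ENNReal.ofReal u ≤ η (Iic t)}.Nonempty := by
  have hlim : Filter.Tendsto (fun t : ℝ => η (Iic t)) Filter.atTop (nhds (η univ)) :=
    tendsto_measure_Iic_atTop η
  have hlt : ENNReal.ofReal u < η univ := by
    rw [ENNReal.ofReal_lt_iff_lt_toReal hu.1.le (measure_ne_top η _)]
    exact hu.2
  obtain ⟨t, ht⟩ := (hlim.eventually (lt_mem_nhds hlt)).exists
  exact ⟨t, ht.le⟩

lemma q_set_bddBelow {u : ℝ} (hu : u ∈ Ioo (0 : ℝ) (η univ).toReal) :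
    BddBelow {t : ℝ | ENNReal.ofReal u ≤ η (Iic t)} := by
  have hlim : Filter.Tendsto (fun t : ℝ => η (Iic t)) Filter.atBot (nhds 0) := by
    have h := tendsto_measure_iInter_atBot (μ := η) (s := fun t : ℝ => Iic t)
      (fun t => measurableSet_Iic.nullMeasurableSet)
      (fun a b hab => Iic_subset_Iic.mpr hab) ⟨0, measure_ne_top η _⟩
    have he : (⋂ t : ℝ, Iic t) = ∅ := by
      ext x
      simp only [mem_iInter, mem_Iic, mem_empty_iff_false, iff_false]
      intro h
      have := h (x - 1)
      linarith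
    rw [he, measure_empty] at h
    exact h
  have hpos : (0 : ℝ≥0∞) < ENNReal.ofReal u := ENNReal.ofReal_pos.mpr hu.1
  obtain ⟨t0, ht0⟩ := (hlim.eventually (gt_mem_nhds hpos)).exists
  refine ⟨t0, fun t ht => ?_⟩
  by_contra hlt
  push Not at hlt
  have hmono : η (Iic t) ≤ η (Iic t0) := measure_mono (Iic_subset_Iic.mpr hlt.le)
  exact absurd (lt_of_le_of_lt (le_trans ht hmono) ht0) (lt_irrefl _)

/-- right continuity: the infimum belongs to the set. -/
lemma q_mem {u : ℝ} (hu : u ∈ Ioo (0 : ℝ) (η univ).toReal) :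
    ENNReal.ofReal u ≤ η (Iic (quantile η u)) := by
  have hq : quantile η u = sInf {t : ℝ | ENNReal.ofReal u ≤ η (Iic t)} := if_pos hu
  set a := quantile η u with ha
  -- Iic a is the decreasing intersection of Iic (a + 1/(n+1))
  have hinter : Iic a = ⋂ n : ℕ, Iic (a + 1 / ((n : ℝ) + 1)) := by
    ext t
    simp only [mem_Iic, mem_iInter]
    constructor
    · intro h n
      have : (0 : ℝ) < 1 / ((n : ℝ) + 1) := by positivity
      linarith
    · intro h
      by_contra hlt
      push Not at hlt
      obtain ⟨n, hn⟩ := exists_nat_one_div_lt (sub_pos.mpr hlt)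
      have := h n
      linarith
  have hanti : Antitone (fun n : ℕ => Iic (a + 1 / ((n : ℝ) + 1))) := by
    intro n m hnm
    apply Iic_subset_Iic.mpr
    have : (1 : ℝ) / ((m : ℝ) + 1) ≤ 1 / ((n : ℝ) + 1) := by
      apply one_div_le_one_div_of_le (by positivity)
      have : (n : ℝ) ≤ m := by exact_mod_cast hnm
      linarith
    linarith
  have hlim : Filter.Tendsto (fun n : ℕ => η (Iic (a + 1 / ((n : ℝ) + 1)))) Filter.atTop
      (nhds (η (⋂ n : ℕ, Iic (a + 1 / ((n : ℝ) + 1))))) :=
    tendsto_measure_iInter_atTop (fun n => measurableSet_Iic.nullMeasurableSet) hanti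
      ⟨0, measure_ne_top η _⟩
  rw [← hinter] at hlim
  refine ge_of_tendsto' hlim (fun n => ?_)
  have hpos : (0 : ℝ) < 1 / ((n : ℝ) + 1) := by positivity
  obtain ⟨t, ht, hlt⟩ := exists_lt_of_csInf_lt (q_set_nonempty hu)
    (show sInf {t : ℝ | ENNReal.ofReal u ≤ η (Iic t)} < a + 1 / ((n : ℝ) + 1) by
      rw [← hq]; linarith)
  exact le_trans ht (measure_mono (Iic_subset_Iic.mpr hlt.le))

lemma quantile_le_iff {u : ℝ} (hu : u ∈ Ioo (0 : ℝ) (η univ).toReal) (t : ℝ) :
    quantile η u ≤ t ↔ ENNReal.ofReal u ≤ η (Iic t) := by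
  constructor
  · intro h
    exact le_trans (q_mem hu) (measure_mono (Iic_subset_Iic.mpr h))
  · intro h
    rw [quantile, if_pos hu]
    exact csInf_le (q_set_bddBelow hu) h

lemma measurable_quantile : Measurable (quantile η) := by
  refine measurable_of_Iic (fun t => ?_)
  have : quantile η ⁻¹' Iic t =
      (Ioo (0 : ℝ) (η univ).toReal ∩ {u | ENNReal.ofReal u ≤ η (Iic t)}) ∪
        ((Ioo (0 : ℝ) (η univ).toReal)ᶜ ∩ {_u | (0 : ℝ) ≤ t}) := by
    ext u
    by_cases hu : u ∈ Ioo (0 : ℝ) (η univ).toReal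
    · simp [quantile_le_iff hu, hu]
    · simp only [mem_preimage, mem_Iic, mem_union, mem_inter_iff, Set.mem_ofPred_eq, mem_compl_iff, hu,
        not_false_eq_true, true_and, false_and, false_or]
      rw [quantile, if_neg hu]
  rw [this]
  refine MeasurableSet.union (measurableSet_Ioo.inter ?_) (measurableSet_Ioo.compl.inter ?_)
  · exact measurableSet_le ENNReal.measurable_ofReal measurable_const
  · exact MeasurableSet.const _

/-- The quantile transform pushes Lebesgue measure on `(0,m)` to `η`. -/
lemma map_quantile :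
    (volume.restrict (Ioo (0 : ℝ) (η univ).toReal)).map (quantile η) = η := by
  refine Measure.ext_of_Iic _ _ (fun t => ?_)
  rw [Measure.map_apply measurable_quantile measurableSet_Iic,
    Measure.restrict_apply (measurable_quantile measurableSet_Iic)]
  have hset : quantile η ⁻¹' Iic t ∩ Ioo (0 : ℝ) (η univ).toReal =
      Ioo (0 : ℝ) (η univ).toReal ∩ Iic (η (Iic t)).toReal := by
    ext u
    simp only [mem_inter_iff, mem_preimage, mem_Iic]
    constructor
    · rintro ⟨h1, h2⟩
      refine ⟨h2, ?_⟩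
      have := (quantile_le_iff h2 t).mp h1
      exact (ENNReal.ofReal_le_iff_le_toReal (measure_ne_top η _)).mp this
    · rintro ⟨h1, h2⟩
      refine ⟨?_, h1⟩
      exact (quantile_le_iff h1 t).mpr ((ENNReal.ofReal_le_iff_le_toReal (measure_ne_top η _)).mpr h2)
  rw [hset]
  have hF : (η (Iic t)).toReal ≤ (η univ).toReal :=
    ENNReal.toReal_mono (measure_ne_top η _) (measure_mono (subset_univ _))
  have hF0 : 0 ≤ (η (Iic t)).toReal := ENNReal.toReal_nonneg
  have hae : (Ioo (0 : ℝ) (η univ).toReal ∩ Iic (η (Iic t)).toReal : Set ℝ) =ᵐ[volume]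
      Ioc 0 (η (Iic t)).toReal := by
    rcases eq_or_lt_of_le hF with h | h
    · have e : Ioo (0 : ℝ) (η univ).toReal ∩ Iic (η (Iic t)).toReal =
          Ioo (0 : ℝ) (η (Iic t)).toReal := by
        rw [h]
        ext u
        simp only [mem_inter_iff, mem_Ioo, mem_Iic]
        constructor
        · rintro ⟨a, _⟩
          exact a
        · intro a
          exact ⟨a, a.2.le⟩
      rw [e]
      exact Ioo_ae_eq_Ioc
    · have : Ioo (0 : ℝ) (η univ).toReal ∩ Iic (η (Iic t)).toReal = Ioc 0 (η (Iic t)).toReal := by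
        ext u
        simp only [mem_inter_iff, mem_Ioo, mem_Iic, mem_Ioc]
        constructor
        · rintro ⟨⟨a, _⟩, c⟩
          exact ⟨a, c⟩
        · rintro ⟨a, c⟩
          exact ⟨⟨a, lt_of_le_of_lt c h⟩, c⟩
      rw [this]
  rw [measure_congr hae, Real.volume_Ioc, sub_zero, ENNReal.ofReal_toReal (measure_ne_top η _)]

/-- The distribution function. -/
noncomputable def distF (η : Measure ℝ) (t : ℝ) : ℝ := (η (Iic t)).toReal

lemma measurable_distF : Measurable (distF η) := by
  refine Monotone.measurable (fun a b hab => ?_)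
  exact ENNReal.toReal_mono (measure_ne_top η _) (measure_mono (Iic_subset_Iic.mpr hab))

lemma distF_quantile [NullSingletonClass η] {u : ℝ} (hu : u ∈ Ioo (0 : ℝ) (η univ).toReal) :
    distF η (quantile η u) = u := by
  apply le_antisymm
  · -- left limit + no atoms
    set a := quantile η u with ha
    by_contra hlt
    push Not at hlt
    have h1 : ENNReal.ofReal u < η (Iic a) := by
      rw [ENNReal.ofReal_lt_iff_lt_toReal hu.1.le (measure_ne_top η _)]
      exact hlt
    have h2 : η (Iio a) = η (Iic a) := measure_congr Iio_ae_eq_Iic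
    rw [← h2] at h1
    have hU : Iio a = ⋃ n : ℕ, Iic (a - 1 / ((n : ℝ) + 1)) := by
      ext t
      simp only [mem_Iio, mem_iUnion, mem_Iic]
      constructor
      · intro h
        obtain ⟨n, hn⟩ := exists_nat_one_div_lt (sub_pos.mpr h)
        exact ⟨n, by linarith⟩
      · rintro ⟨n, hn⟩
        have : (0 : ℝ) < 1 / ((n : ℝ) + 1) := by positivity
        linarith
    have hmono : Monotone (fun n : ℕ => Iic (a - 1 / ((n : ℝ) + 1))) := by
      intro n m hnm
      apply Iic_subset_Iic.mpr
      have : (1 : ℝ) / ((m : ℝ) + 1) ≤ 1 / ((n : ℝ) + 1) := by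
        apply one_div_le_one_div_of_le (by positivity)
        have : (n : ℝ) ≤ m := by exact_mod_cast hnm
        linarith
      linarith
    have hlim : Filter.Tendsto (fun n : ℕ => η (Iic (a - 1 / ((n : ℝ) + 1)))) Filter.atTop
        (nhds (η (⋃ n : ℕ, Iic (a - 1 / ((n : ℝ) + 1))))) :=
      tendsto_measure_iUnion_atTop hmono
    rw [← hU] at hlim
    obtain ⟨n, hn⟩ := (hlim.eventually (lt_mem_nhds h1)).exists
    have hle : a ≤ a - 1 / ((n : ℝ) + 1) := (quantile_le_iff hu _).mpr hn.le
    have : (0 : ℝ) < 1 / ((n : ℝ) + 1) := by positivity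
    linarith
  · exact (ENNReal.ofReal_le_iff_le_toReal (measure_ne_top η _)).mp (q_mem hu)

lemma map_distF [NullSingletonClass η] :
    η.map (distF η) = volume.restrict (Ioo (0 : ℝ) (η univ).toReal) := by
  have : (distF η ∘ quantile η) =ᵐ[volume.restrict (Ioo (0 : ℝ) (η univ).toReal)] id := by
    filter_upwards [ae_restrict_mem measurableSet_Ioo] with u hu
    exact distF_quantile hu
  calc η.map (distF η)
      = ((volume.restrict (Ioo (0 : ℝ) (η univ).toReal)).map (quantile η)).map (distF η) := by
        rw [map_quantile]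
    _ = volume.restrict (Ioo (0 : ℝ) (η univ).toReal) := by
        rw [Measure.map_map measurable_distF measurable_quantile, Measure.map_congr this,
          Measure.map_id]

end Crest.Agent.MM

namespace Crest.Agent.MM

variable {X : Type*} [MeasurableSpace X] [StandardBorelSpace X]

/-- Every finite measure on a standard Borel space is the image of Lebesgue measure on `(0,m)`;
if it has no atoms, it also maps onto it. -/
lemma exists_maps (η : Measure X) [IsFiniteMeasure η] [NullSingletonClass η] [Nonempty X] :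
    ∃ (G : X → ℝ) (H : ℝ → X), Measurable G ∧ Measurable H ∧
      η.map G = volume.restrict (Ioo (0 : ℝ) (η univ).toReal) ∧
      (volume.restrict (Ioo (0 : ℝ) (η univ).toReal)).map H = η := by
  obtain ⟨ι, hι⟩ := exists_measurableEmbedding_real X
  obtain ⟨g, hg, hgι⟩ := hι.exists_measurable_extend (g := (id : X → X)) measurable_id
    (fun _ => inferInstance)
  set η' : Measure ℝ := η.map ι with hη'
  have : IsFiniteMeasure η' := Measure.isFiniteMeasure_map η ι
  have huniv : η' univ = η univ := by
    rw [hη', Measure.map_apply hι.measurable MeasurableSet.univ, preimage_univ]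
  have : NullSingletonClass η' := by
    refine ⟨fun t => ?_⟩
    rw [hη', Measure.map_apply hι.measurable (measurableSet_singleton t)]
    apply Set.Subsingleton.measure_zero
    intro a ha b hb
    exact hι.injective (by simpa using ha.trans hb.symm)
  refine ⟨distF η' ∘ ι, g ∘ quantile η', measurable_distF.comp hι.measurable,
    hg.comp measurable_quantile, ?_, ?_⟩
  · rw [← Measure.map_map measurable_distF hι.measurable, ← hη', map_distF, huniv]
  · rw [← Measure.map_map hg measurable_quantile, ← huniv, map_quantile, hη',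
      Measure.map_map hg hι.measurable, hgι, Measure.map_id]

/-- Two finite atomless measures of the same mass: a measurable map pushes one to the other. -/
lemma exists_pushforward (η₁ η₂ : Measure X) [IsFiniteMeasure η₁] [IsFiniteMeasure η₂]
    [NullSingletonClass η₁] [NullSingletonClass η₂] [Nonempty X] (h : η₁ univ = η₂ univ) :
    ∃ T : X → X, Measurable T ∧ η₁.map T = η₂ := by
  obtain ⟨G₁, _, hG₁, _, hm₁, _⟩ := exists_maps η₁
  obtain ⟨_, H₂, _, hH₂, _, hm₂⟩ := exists_maps η₂
  refine ⟨H₂ ∘ G₁, hH₂.comp hG₁, ?_⟩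
  rw [← Measure.map_map hH₂ hG₁, hm₁, h, hm₂]

/-- Halving a measurable set. -/
lemma exists_half (η : Measure X) [IsFiniteMeasure η] [NullSingletonClass η] [Nonempty X]
    {Q : Set X} (hQ : MeasurableSet Q) :
    ∃ Q' ⊆ Q, MeasurableSet Q' ∧ η Q' = η Q / 2 := by
  obtain ⟨G, _, hG, _, hm, _⟩ := exists_maps (η.restrict Q)
  set m := ((η.restrict Q) univ).toReal with hmdef
  refine ⟨Q ∩ G ⁻¹' Iic (m / 2), inter_subset_left,
    hQ.inter (hG measurableSet_Iic), ?_⟩
  have h1 : (η.restrict Q).map G (Iic (m / 2)) = η (G ⁻¹' Iic (m / 2) ∩ Q) := by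
    rw [Measure.map_apply hG measurableSet_Iic, Measure.restrict_apply (hG measurableSet_Iic)]
  have hm0 : 0 ≤ m := ENNReal.toReal_nonneg
  have h2 : (volume.restrict (Ioo (0 : ℝ) m)) (Iic (m / 2)) = ENNReal.ofReal (m / 2) := by
    rw [Measure.restrict_apply measurableSet_Iic]
    have : (Iic (m / 2) ∩ Ioo (0 : ℝ) m : Set ℝ) =ᵐ[volume] Ioc 0 (m / 2) := by
      rcases eq_or_lt_of_le hm0 with h | h
      · have e1 : Iic (m / 2) ∩ Ioo (0 : ℝ) m = ∅ := by
          rw [← h]; simp
        have e2 : Ioc (0 : ℝ) (m / 2) = ∅ := by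
          rw [← h]; simp
        rw [e1, e2]
      · have : Iic (m / 2) ∩ Ioo (0 : ℝ) m = Ioc 0 (m / 2) := by
          ext u
          simp only [mem_inter_iff, mem_Iic, mem_Ioo, mem_Ioc]
          constructor
          · rintro ⟨a, b, _⟩
            exact ⟨b, a⟩
          · rintro ⟨a, b⟩
            exact ⟨b, a, by linarith⟩
        rw [this]
    rw [measure_congr this, Real.volume_Ioc, sub_zero]
  rw [hm, h2] at h1
  rw [inter_comm, ← h1, ENNReal.ofReal_div_of_pos (by norm_num : (0 : ℝ) < 2)]
  have hmQ : ENNReal.ofReal m = η Q := by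
    rw [hmdef, ENNReal.ofReal_toReal (measure_ne_top _ _)]
    simp
  rw [hmQ]
  simp

end Crest.Agent.MM
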