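import Mathlib
import Crest.Agent.Lib.MM.Iso

/-! Gluing measure-preserving maps from finitely many blocks. -/

set_option autoImplicit false
open MeasureTheory Set
open scoped ENNReal

namespace Crest.Agent.MM

variable {X : Type*} [MeasurableSpace X]

open Classical in
/-- Piecewise glueing along a family of sets. -/
noncomputable def gluedMap {I : Type*} (A : I → Set X) (τ : I → X → X) (x : X) : X :=
  if h : ∃ i, x ∈ A i then τ h.choose x else x

lemma gluedMap_eq {I : Type*} {A : I → Set X} (hd : Pairwise (Function.onFun Disjoint A))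
    (τ : I → X → X) {i : I} {x : X} (hx : x ∈ A i) : gluedMap A τ x = τ i x := by
  have h : ∃ i, x ∈ A i := ⟨i, hx⟩
  rw [gluedMap, dif_pos h]
  by_cases hij : h.choose = i
  · rw [hij]
  · exact absurd hx (Set.disjoint_left.mp (hd hij) h.choose_spec)

lemma measurable_gluedMap {I : Type*} [Countable I] {A : I → Set X}
    (hA : ∀ i, MeasurableSet (A i)) (hd : Pairwise (Function.onFun Disjoint A))
    {τ : I → X → X} (hτ : ∀ i, Measurable (τ i)) : Measurable (gluedMap A τ) := by
  intro W hW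
  have : gluedMap A τ ⁻¹' W = (⋃ i, A i ∩ τ i ⁻¹' W) ∪ ((⋃ i, A i)ᶜ ∩ W) := by
    ext x
    simp only [mem_preimage, mem_union, mem_iUnion, mem_inter_iff, mem_compl_iff, not_exists]
    constructor
    · intro h
      by_cases hx : ∃ i, x ∈ A i
      · obtain ⟨i, hi⟩ := hx
        left
        refine ⟨i, hi, ?_⟩
        rwa [gluedMap_eq hd τ hi] at h
      · right
        have hx' : ∀ i, x ∉ A i := by
          intro i hi
          exact hx ⟨i, hi⟩
        refine ⟨hx', ?_⟩
        rwa [gluedMap, dif_neg hx] at h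
    · rintro (⟨i, hi, hW'⟩ | ⟨hx, hW'⟩)
      · rwa [gluedMap_eq hd τ hi]
      · rw [gluedMap, dif_neg]
        · exact hW'
        · rintro ⟨i, hi⟩
          exact hx i hi
  rw [this]
  refine MeasurableSet.union (MeasurableSet.iUnion fun i => (hA i).inter (hτ i hW)) ?_
  exact (MeasurableSet.iUnion hA).compl.inter hW

/-- If the blocks are permuted measure-preservingly, the glued map preserves `μ`. -/
lemma map_gluedMap {I : Type*} [Countable I] (μ : Measure X) {A : I → Set X}
    (hA : ∀ i, MeasurableSet (A i)) (hd : Pairwise (Function.onFun Disjoint A))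
    (hc : μ (⋃ i, A i)ᶜ = 0) {τ : I → X → X} (hτ : ∀ i, Measurable (τ i)) (σ : Equiv.Perm I)
    (hmap : ∀ i, (μ.restrict (A i)).map (τ i) = μ.restrict (A (σ i))) :
    μ.map (gluedMap A τ) = μ := by
  have hμ : μ = Measure.sum fun i => μ.restrict (A i) := by
    rw [← Measure.restrict_iUnion hd hA]
    exact (Measure.restrict_eq_self_of_ae_mem (by
      rw [ae_iff]; exact hc)).symm
  have hm := measurable_gluedMap hA hd hτ
  have h1 : ∀ i, (μ.restrict (A i)).map (gluedMap A τ) = μ.restrict (A (σ i)) := by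
    intro i
    rw [← hmap i]
    apply Measure.map_congr
    filter_upwards [ae_restrict_mem (hA i)] with x hx
    exact gluedMap_eq hd τ hx
  calc μ.map (gluedMap A τ) = (Measure.sum fun i => μ.restrict (A i)).map (gluedMap A τ) := by
        rw [← hμ]
    _ = Measure.sum fun i => (μ.restrict (A i)).map (gluedMap A τ) := by
        rw [Measure.map_sum hm.aemeasurable]
    _ = Measure.sum fun i => μ.restrict (A (σ i)) := by
        congr 1
        funext i
        exact h1 i
    _ = Measure.sum fun i => μ.restrict (A i) := by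
        exact Measure.sum_comp_equiv σ (fun i => μ.restrict (A i))
    _ = μ := hμ.symm

/-- Almost every point of a block is sent to the target block. -/
lemma ae_mem_target {μ : Measure X} {A B : Set X} (hB : MeasurableSet B) {τ : X → X}
    (hτ : Measurable τ) (hA : MeasurableSet A)
    (hmap : (μ.restrict A).map τ = μ.restrict B) :
    ∀ᵐ x ∂μ, x ∈ A → τ x ∈ B := by
  have h0 : (μ.restrict A) (τ ⁻¹' Bᶜ) = 0 := by
    rw [← Measure.map_apply hτ hB.compl, hmap, Measure.restrict_apply hB.compl]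
    simp
  have h1 : ∀ᵐ x ∂(μ.restrict A), τ x ∈ B := by
    rw [ae_iff]
    exact h0
  exact (ae_restrict_iff' hA).mp h1

variable [StandardBorelSpace X] [Nonempty X]

/-- Blocks in threes with equal masses: there are measure-preserving maps cycling the three
members of each triple. -/
lemma block_maps {J : Type*} [Countable J] (μ : Measure X) [IsFiniteMeasure μ]
    [NullSingletonClass μ] (S : J → Fin 3 → Set X) (hS : ∀ j i, MeasurableSet (S j i))
    (hd : Pairwise (Function.onFun Disjoint (fun q : J × Fin 3 => S q.1 q.2)))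
    (hmass : ∀ j i i', μ (S j i) = μ (S j i'))
    (hc : μ (⋃ q : J × Fin 3, S q.1 q.2)ᶜ = 0) :
    ∃ T₂ T₃ : X → X, Measurable T₂ ∧ Measurable T₃ ∧ μ.map T₂ = μ ∧ μ.map T₃ = μ ∧
      ∀ᵐ x ∂μ, ∃ j i, x ∈ S j i ∧ T₂ x ∈ S j (i + 1) ∧ T₃ x ∈ S j (i + 2) := by
  have hpush : ∀ (j : J) (i i' : Fin 3), ∃ T : X → X, Measurable T ∧
      (μ.restrict (S j i)).map T = μ.restrict (S j i') := by
    intro j i i'
    apply exists_pushforward
    simp only [Measure.restrict_apply MeasurableSet.univ, univ_inter]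
    exact hmass j i i'
  choose τ hτm hτ using hpush
  let A : J × Fin 3 → Set X := fun q => S q.1 q.2
  have hAm : ∀ q, MeasurableSet (A q) := fun q => hS q.1 q.2
  -- the two permutations
  let σ₁ : Equiv.Perm (J × Fin 3) :=
    (Equiv.refl J).prodCongr (Equiv.addRight (1 : Fin 3))
  let σ₂ : Equiv.Perm (J × Fin 3) :=
    (Equiv.refl J).prodCongr (Equiv.addRight (2 : Fin 3))
  let τ₁ : J × Fin 3 → X → X := fun q => τ q.1 q.2 (q.2 + 1)
  let τ₂ : J × Fin 3 → X → X := fun q => τ q.1 q.2 (q.2 + 2)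
  refine ⟨gluedMap A τ₁, gluedMap A τ₂, measurable_gluedMap hAm hd (fun q => hτm _ _ _),
    measurable_gluedMap hAm hd (fun q => hτm _ _ _),
    map_gluedMap μ hAm hd hc (fun q => hτm _ _ _) σ₁ (fun q => hτ _ _ _),
    map_gluedMap μ hAm hd hc (fun q => hτm _ _ _) σ₂ (fun q => hτ _ _ _), ?_⟩
  have h1 : ∀ᵐ x ∂μ, ∀ q : J × Fin 3, x ∈ A q → τ₁ q x ∈ A (σ₁ q) := by
    rw [ae_all_iff]
    intro q
    exact ae_mem_target (hAm _) (hτm _ _ _) (hAm _) (hτ _ _ _)
  have h2 : ∀ᵐ x ∂μ, ∀ q : J × Fin 3, x ∈ A q → τ₂ q x ∈ A (σ₂ q) := by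
    rw [ae_all_iff]
    intro q
    exact ae_mem_target (hAm _) (hτm _ _ _) (hAm _) (hτ _ _ _)
  have h3 : ∀ᵐ x ∂μ, x ∈ ⋃ q : J × Fin 3, A q := by
    rw [ae_iff]
    exact hc
  filter_upwards [h1, h2, h3] with x hx1 hx2 hx3
  obtain ⟨q, hq⟩ := mem_iUnion.mp hx3
  refine ⟨q.1, q.2, hq, ?_, ?_⟩
  · rw [gluedMap_eq hd τ₁ hq]
    exact hx1 q hq
  · rw [gluedMap_eq hd τ₂ hq]
    exact hx2 q hq

end Crest.Agent.MM
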