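import Mathlib
import Crest.Prelude.Def_MultiMarginal
import Crest.Agent.Lib.MM.Block

/-! Abstract part of the non-Monge example: a measure `ν` on a centre `K0`, arms `y, z` and the
images of the arms under an isometric involution `R`, with a potential `U`. -/

set_option autoImplicit false
open MeasureTheory Set
open scoped ENNReal
open Crest.AnalysisR.OT

namespace Crest.Agent.MM

variable {E : Type*} [NormedAddCommGroup E] [MeasurableSpace E] [BorelSpace E]
  [SecondCountableTopology E] [CompleteSpace E]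

omit [MeasurableSpace E] [BorelSpace E] [SecondCountableTopology E] [CompleteSpace E] in
lemma pairCost_comm (s : ℝ) (x y : E) : pairCost s x y = pairCost s y x := by
  simp only [pairCost, norm_sub_rev]

omit [MeasurableSpace E] [BorelSpace E] [SecondCountableTopology E] [CompleteSpace E] in
lemma cost_swap (s : ℝ) (a b c : E) : tripleCost s (a, b, c) = tripleCost s (b, a, c) := by
  simp only [tripleCost]
  rw [pairCost_comm s a b, add_right_comm]

omit [MeasurableSpace E] [BorelSpace E] [SecondCountableTopology E] [CompleteSpace E] in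
lemma cost_cyc (s : ℝ) (a b c : E) : tripleCost s (a, b, c) = tripleCost s (b, c, a) := by
  simp only [tripleCost]
  rw [pairCost_comm s a b, pairCost_comm s a c]
  ac_rfl

lemma measurable_pairCost (s : ℝ) : Measurable (fun p : E × E => pairCost s p.1 p.2) := by
  simp only [pairCost]
  exact ((measurable_fst.sub measurable_snd).norm.ennreal_ofReal).pow_const (-s)

lemma measurable_tripleCost (s : ℝ) : Measurable (tripleCost s : E × E × E → ℝ≥0∞) := by
  unfold tripleCost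
  have h1 : Measurable (fun p : E × E × E => pairCost s p.1 p.2.1) :=
    (measurable_pairCost s).comp (measurable_fst.prodMk (measurable_fst.comp measurable_snd))
  have h2 : Measurable (fun p : E × E × E => pairCost s p.1 p.2.2) :=
    (measurable_pairCost s).comp (measurable_fst.prodMk (measurable_snd.comp measurable_snd))
  have h3 : Measurable (fun p : E × E × E => pairCost s p.2.1 p.2.2) :=
    (measurable_pairCost s).comp
      ((measurable_fst.comp measurable_snd).prodMk (measurable_snd.comp measurable_snd))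
  exact (h1.add h2).add h3

/-- `(a,b,c)` is a rearrangement of `(p,q,r)`. -/
def IsPerm (a b c p q r : E) : Prop :=
  (a = p ∧ b = q ∧ c = r) ∨ (a = p ∧ b = r ∧ c = q) ∨ (a = q ∧ b = p ∧ c = r) ∨
    (a = q ∧ b = r ∧ c = p) ∨ (a = r ∧ b = p ∧ c = q) ∨ (a = r ∧ b = q ∧ c = p)

/-- The support of the example. -/
def Om (y z R : E → E) (K0 : Set E) : Set E :=
  K0 ∪ y '' K0 ∪ z '' K0 ∪ (R ∘ y) '' K0 ∪ (R ∘ z) '' K0

/-- The marginal of the example. -/
noncomputable def muOf (ν : Measure E) (y z R : E → E) : Measure E :=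
  (6 * ν univ)⁻¹ • (ν + ν + ν.map y + ν.map z + ν.map (R ∘ y) + ν.map (R ∘ z))

/-- The properties of the example needed for the transport part. -/
structure Sys (s : ℝ) (ν : Measure E) (y z R : E → E) (K0 : Set E) (U : E → ℝ≥0∞)
    (lab : E → ℕ) : Prop where
  finν : IsFiniteMeasure ν
  nullν : NullSingletonClass ν
  posν : ν univ ≠ 0
  mK0 : MeasurableSet K0
  concν : ν K0ᶜ = 0
  my : Measurable y
  mz : Measurable z
  Rinv : ∀ x, R (R x) = x
  Riso : ∀ a b, ‖R a - R b‖ = ‖a - b‖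
  Rν : ν.map R = ν
  RK0 : ∀ x ∈ K0, R x ∈ K0
  cy : ContinuousOn y K0
  cz : ContinuousOn z K0
  iy : InjOn y K0
  iz : InjOn z K0
  lab0 : ∀ t ∈ K0, lab t = 0
  lab1 : ∀ t ∈ K0, lab (y t) = 1
  lab2 : ∀ t ∈ K0, lab (z t) = 2
  lab3 : ∀ t ∈ K0, lab (R (y t)) = 3
  lab4 : ∀ t ∈ K0, lab (R (z t)) = 4
  mU : Measurable U
  Ubd : ∃ C : ℝ≥0∞, C ≠ ⊤ ∧ ∀ x, U x ≤ C
  UR : ∀ x, U (R x) = U x
  ineq : ∀ a ∈ Om y z R K0, ∀ b ∈ Om y z R K0, ∀ c ∈ Om y z R K0,
    U a + U b + U c ≤ tripleCost s (a, b, c)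
  eqn : ∀ t ∈ K0, tripleCost s (t, y t, z t) = U t + U (y t) + U (z t)
  cls : ∀ a ∈ Om y z R K0, ∀ b ∈ Om y z R K0, ∀ c ∈ Om y z R K0,
    tripleCost s (a, b, c) ≤ U a + U b + U c →
      ∃ t ∈ K0, IsPerm a b c t (y t) (z t) ∨ IsPerm a b c (R t) (R (y t)) (R (z t))
  near : ∀ ε : ℝ≥0∞, ε ≠ 0 → ∃ τ : ℝ, 0 < τ ∧ ∀ t ∈ K0, ∀ t' ∈ K0, ∀ t'' ∈ K0,
    dist t t' ≤ τ → dist t t'' ≤ τ → dist t' t'' ≤ τ →
      tripleCost s (t, y t', z t'') ≤ U t + U (y t') + U (z t'') + ε

section Basic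

variable {s : ℝ} {ν : Measure E} {y z R : E → E} {K0 : Set E} {U : E → ℝ≥0∞} {lab : E → ℕ}

omit [MeasurableSpace E] [BorelSpace E] [SecondCountableTopology E] [CompleteSpace E] in
lemma cost_R {s : ℝ} {R : E → E} (hR : ∀ a b, ‖R a - R b‖ = ‖a - b‖) (a b c : E) :
    tripleCost s (R a, R b, R c) = tripleCost s (a, b, c) := by
  simp only [tripleCost, pairCost, hR]

lemma Sys.isometryR (h : Sys s ν y z R K0 U lab) : Isometry R := by
  apply Isometry.of_dist_eq
  intro a b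
  rw [dist_eq_norm, dist_eq_norm, h.Riso]

lemma Sys.contR (h : Sys s ν y z R K0 U lab) : Continuous R := h.isometryR.continuous

lemma Sys.mR (h : Sys s ν y z R K0 U lab) : Measurable R := h.contR.measurable

lemma Sys.injR (h : Sys s ν y z R K0 U lab) : Function.Injective R :=
  Function.LeftInverse.injective h.Rinv

lemma Sys.vanish (h : Sys s ν y z R K0 U lab) {W : Set E} {f : E → E}
    (hf : ∀ t ∈ K0, f t ∉ W) : ν (f ⁻¹' W) = 0 := by
  refine measure_mono_null (fun t ht hK => hf t hK ht) h.concν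

lemma Sys.mu_apply (h : Sys s ν y z R K0 U lab) {W : Set E} (hW : MeasurableSet W) :
    muOf ν y z R W = (6 * ν univ)⁻¹ * (ν W + ν W + ν (y ⁻¹' W) + ν (z ⁻¹' W) +
      ν ((R ∘ y) ⁻¹' W) + ν ((R ∘ z) ⁻¹' W)) := by
  have hRy : Measurable (R ∘ y) := h.mR.comp h.my
  have hRz : Measurable (R ∘ z) := h.mR.comp h.mz
  simp only [muOf, Measure.smul_apply, Measure.add_apply, smul_eq_mul,
    Measure.map_apply h.my hW, Measure.map_apply h.mz hW, Measure.map_apply hRy hW,
    Measure.map_apply hRz hW]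

/-- `K0` carries twice the mass. -/
lemma Sys.mu_center (h : Sys s ν y z R K0 U lab) {Q : Set E} (hQ : MeasurableSet Q)
    (hQK : Q ⊆ K0) : muOf ν y z R Q = (6 * ν univ)⁻¹ * (ν Q + ν Q) := by
  rw [h.mu_apply hQ]
  have h1 : ν (y ⁻¹' Q) = 0 := h.vanish fun t ht hmem => by
    have a := h.lab1 t ht
    have b := h.lab0 _ (hQK hmem)
    omega
  have h2 : ν (z ⁻¹' Q) = 0 := h.vanish fun t ht hmem => by
    have a := h.lab2 t ht
    have b := h.lab0 _ (hQK hmem)
    omega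
  have h3 : ν ((R ∘ y) ⁻¹' Q) = 0 := h.vanish fun t ht hmem => by
    have a := h.lab3 t ht
    have b := h.lab0 _ (hQK hmem)
    simp only [Function.comp] at b
    omega
  have h4 : ν ((R ∘ z) ⁻¹' Q) = 0 := h.vanish fun t ht hmem => by
    have a := h.lab4 t ht
    have b := h.lab0 _ (hQK hmem)
    simp only [Function.comp] at b
    omega
  rw [h1, h2, h3, h4]
  simp

lemma Sys.preimage_image (h : Sys s ν y z R K0 U lab) {f : E → E} (hf : InjOn f K0)
    {Q : Set E} (hQK : Q ⊆ K0) (hQ : MeasurableSet Q) (hfm : Measurable f)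
    (hW : MeasurableSet (f '' Q)) : ν (f ⁻¹' (f '' Q)) = ν Q := by
  apply le_antisymm
  · have hsub : f ⁻¹' (f '' Q) ⊆ Q ∪ K0ᶜ := by
      intro t ht
      by_cases htK : t ∈ K0
      · left
        obtain ⟨u, hu, hue⟩ := ht
        rw [← hf (hQK hu) htK hue]
        exact hu
      · right
        exact htK
    calc ν (f ⁻¹' (f '' Q)) ≤ ν (Q ∪ K0ᶜ) := measure_mono hsub
      _ ≤ ν Q + ν K0ᶜ := measure_union_le _ _
      _ = ν Q := by rw [h.concν, add_zero]
  · exact measure_mono (subset_preimage_image f Q)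

lemma Sys.meas_img (h : Sys s ν y z R K0 U lab) {f : E → E} (hf : InjOn f K0)
    (hc : ContinuousOn f K0) {Q : Set E} (hQK : Q ⊆ K0) (hQ : MeasurableSet Q) :
    MeasurableSet (f '' Q) :=
  hQ.image_of_continuousOn_injOn (hc.mono hQK) (hf.mono hQK)

lemma Sys.cRy (h : Sys s ν y z R K0 U lab) : ContinuousOn (R ∘ y) K0 :=
  h.contR.comp_continuousOn h.cy

lemma Sys.cRz (h : Sys s ν y z R K0 U lab) : ContinuousOn (R ∘ z) K0 :=
  h.contR.comp_continuousOn h.cz

lemma Sys.iRy (h : Sys s ν y z R K0 U lab) : InjOn (R ∘ y) K0 :=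
  fun _ ha _ hb hab => h.iy ha hb (h.injR hab)

lemma Sys.iRz (h : Sys s ν y z R K0 U lab) : InjOn (R ∘ z) K0 :=
  fun _ ha _ hb hab => h.iz ha hb (h.injR hab)

/-- Every arm piece has mass `ν Q / N`. -/
lemma Sys.mu_y (h : Sys s ν y z R K0 U lab) {Q : Set E} (hQ : MeasurableSet Q)
    (hQK : Q ⊆ K0) : muOf ν y z R (y '' Q) = (6 * ν univ)⁻¹ * ν Q := by
  have hW := h.meas_img h.iy h.cy hQK hQ
  rw [h.mu_apply hW]
  have e0 : ν (y '' Q) = 0 := by
    have : y '' Q ⊆ K0ᶜ := by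
      rintro _ ⟨t, ht, rfl⟩ hK
      have a := h.lab1 t (hQK ht)
      have b := h.lab0 _ hK
      omega
    exact measure_mono_null this h.concν
  have e1 : ν (y ⁻¹' (y '' Q)) = ν Q := h.preimage_image h.iy hQK hQ h.my hW
  have e2 : ν (z ⁻¹' (y '' Q)) = 0 := h.vanish fun t ht hmem => by
    obtain ⟨u, hu, hue⟩ := hmem
    have a := h.lab2 t ht
    have b := h.lab1 u (hQK hu)
    rw [hue] at b
    omega
  have e3 : ν ((R ∘ y) ⁻¹' (y '' Q)) = 0 := h.vanish fun t ht hmem => by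
    obtain ⟨u, hu, hue⟩ := hmem
    have a := h.lab3 t ht
    have b := h.lab1 u (hQK hu)
    rw [hue] at b
    simp only [Function.comp] at b
    omega
  have e4 : ν ((R ∘ z) ⁻¹' (y '' Q)) = 0 := h.vanish fun t ht hmem => by
    obtain ⟨u, hu, hue⟩ := hmem
    have a := h.lab4 t ht
    have b := h.lab1 u (hQK hu)
    rw [hue] at b
    simp only [Function.comp] at b
    omega
  rw [e0, e1, e2, e3, e4]
  simp

lemma Sys.mu_z (h : Sys s ν y z R K0 U lab) {Q : Set E} (hQ : MeasurableSet Q)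
    (hQK : Q ⊆ K0) : muOf ν y z R (z '' Q) = (6 * ν univ)⁻¹ * ν Q := by
  have hW := h.meas_img h.iz h.cz hQK hQ
  rw [h.mu_apply hW]
  have e0 : ν (z '' Q) = 0 := by
    have : z '' Q ⊆ K0ᶜ := by
      rintro _ ⟨t, ht, rfl⟩ hK
      have a := h.lab2 t (hQK ht)
      have b := h.lab0 _ hK
      omega
    exact measure_mono_null this h.concν
  have e1 : ν (z ⁻¹' (z '' Q)) = ν Q := h.preimage_image h.iz hQK hQ h.mz hW
  have e2 : ν (y ⁻¹' (z '' Q)) = 0 := h.vanish fun t ht hmem => by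
    obtain ⟨u, hu, hue⟩ := hmem
    have a := h.lab1 t ht
    have b := h.lab2 u (hQK hu)
    rw [hue] at b
    omega
  have e3 : ν ((R ∘ y) ⁻¹' (z '' Q)) = 0 := h.vanish fun t ht hmem => by
    obtain ⟨u, hu, hue⟩ := hmem
    have a := h.lab3 t ht
    have b := h.lab2 u (hQK hu)
    rw [hue] at b
    simp only [Function.comp] at b
    omega
  have e4 : ν ((R ∘ z) ⁻¹' (z '' Q)) = 0 := h.vanish fun t ht hmem => by
    obtain ⟨u, hu, hue⟩ := hmem
    have a := h.lab4 t ht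
    have b := h.lab2 u (hQK hu)
    rw [hue] at b
    simp only [Function.comp] at b
    omega
  rw [e0, e1, e2, e3, e4]
  simp

lemma Sys.mu_Ry (h : Sys s ν y z R K0 U lab) {Q : Set E} (hQ : MeasurableSet Q)
    (hQK : Q ⊆ K0) : muOf ν y z R ((R ∘ y) '' Q) = (6 * ν univ)⁻¹ * ν Q := by
  have hW := h.meas_img h.iRy h.cRy hQK hQ
  rw [h.mu_apply hW]
  have e0 : ν ((R ∘ y) '' Q) = 0 := by
    have : (R ∘ y) '' Q ⊆ K0ᶜ := by
      rintro _ ⟨t, ht, rfl⟩ hK
      have a := h.lab3 t (hQK ht)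
      have b := h.lab0 _ hK
      simp only [Function.comp] at b
      omega
    exact measure_mono_null this h.concν
  have e1 : ν ((R ∘ y) ⁻¹' ((R ∘ y) '' Q)) = ν Q :=
    h.preimage_image h.iRy hQK hQ (h.mR.comp h.my) hW
  have e2 : ν (y ⁻¹' ((R ∘ y) '' Q)) = 0 := h.vanish fun t ht hmem => by
    obtain ⟨u, hu, hue⟩ := hmem
    have a := h.lab1 t ht
    have b := h.lab3 u (hQK hu)
    simp only [Function.comp] at hue
    rw [hue] at b
    omega
  have e3 : ν (z ⁻¹' ((R ∘ y) '' Q)) = 0 := h.vanish fun t ht hmem => by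
    obtain ⟨u, hu, hue⟩ := hmem
    have a := h.lab2 t ht
    have b := h.lab3 u (hQK hu)
    simp only [Function.comp] at hue
    rw [hue] at b
    omega
  have e4 : ν ((R ∘ z) ⁻¹' ((R ∘ y) '' Q)) = 0 := h.vanish fun t ht hmem => by
    obtain ⟨u, hu, hue⟩ := hmem
    have a := h.lab4 t ht
    have b := h.lab3 u (hQK hu)
    simp only [Function.comp] at hue
    rw [hue] at b
    simp only [Function.comp] at *
    omega
  rw [e0, e1, e2, e3, e4]
  simp

lemma Sys.mu_Rz (h : Sys s ν y z R K0 U lab) {Q : Set E} (hQ : MeasurableSet Q)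
    (hQK : Q ⊆ K0) : muOf ν y z R ((R ∘ z) '' Q) = (6 * ν univ)⁻¹ * ν Q := by
  have hW := h.meas_img h.iRz h.cRz hQK hQ
  rw [h.mu_apply hW]
  have e0 : ν ((R ∘ z) '' Q) = 0 := by
    have : (R ∘ z) '' Q ⊆ K0ᶜ := by
      rintro _ ⟨t, ht, rfl⟩ hK
      have a := h.lab4 t (hQK ht)
      have b := h.lab0 _ hK
      simp only [Function.comp] at b
      omega
    exact measure_mono_null this h.concν
  have e1 : ν ((R ∘ z) ⁻¹' ((R ∘ z) '' Q)) = ν Q :=
    h.preimage_image h.iRz hQK hQ (h.mR.comp h.mz) hW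
  have e2 : ν (y ⁻¹' ((R ∘ z) '' Q)) = 0 := h.vanish fun t ht hmem => by
    obtain ⟨u, hu, hue⟩ := hmem
    have a := h.lab1 t ht
    have b := h.lab4 u (hQK hu)
    simp only [Function.comp] at hue
    rw [hue] at b
    omega
  have e3 : ν (z ⁻¹' ((R ∘ z) '' Q)) = 0 := h.vanish fun t ht hmem => by
    obtain ⟨u, hu, hue⟩ := hmem
    have a := h.lab2 t ht
    have b := h.lab4 u (hQK hu)
    simp only [Function.comp] at hue
    rw [hue] at b
    omega
  have e4 : ν ((R ∘ y) ⁻¹' ((R ∘ z) '' Q)) = 0 := h.vanish fun t ht hmem => by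
    obtain ⟨u, hu, hue⟩ := hmem
    have a := h.lab3 t ht
    have b := h.lab4 u (hQK hu)
    simp only [Function.comp] at hue
    rw [hue] at b
    simp only [Function.comp] at *
    omega
  rw [e0, e1, e2, e3, e4]
  simp

lemma Sys.mOm (h : Sys s ν y z R K0 U lab) : MeasurableSet (Om y z R K0) := by
  have h0 := h.mK0
  exact ((((h0.union (h.meas_img h.iy h.cy subset_rfl h0)).union
    (h.meas_img h.iz h.cz subset_rfl h0)).union
    (h.meas_img h.iRy h.cRy subset_rfl h0)).union (h.meas_img h.iRz h.cRz subset_rfl h0))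

lemma Sys.mu_Om (h : Sys s ν y z R K0 U lab) : muOf ν y z R (Om y z R K0)ᶜ = 0 := by
  rw [h.mu_apply h.mOm.compl]
  have e0 : ν (Om y z R K0)ᶜ = 0 := measure_mono_null
    (compl_subset_compl.mpr (fun t ht => by
      simp only [Om]; exact Or.inl (Or.inl (Or.inl (Or.inl ht))))) h.concν
  have e1 : ν (y ⁻¹' (Om y z R K0)ᶜ) = 0 := h.vanish fun t ht hmem => hmem (by
    simp only [Om]; exact Or.inl (Or.inl (Or.inl (Or.inr ⟨t, ht, rfl⟩))))
  have e2 : ν (z ⁻¹' (Om y z R K0)ᶜ) = 0 := h.vanish fun t ht hmem => hmem (by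
    simp only [Om]; exact Or.inl (Or.inl (Or.inr ⟨t, ht, rfl⟩)))
  have e3 : ν ((R ∘ y) ⁻¹' (Om y z R K0)ᶜ) = 0 := h.vanish fun t ht hmem => hmem (by
    simp only [Om]; exact Or.inl (Or.inr ⟨t, ht, rfl⟩))
  have e4 : ν ((R ∘ z) ⁻¹' (Om y z R K0)ᶜ) = 0 := h.vanish fun t ht hmem => hmem (by
    simp only [Om]; exact Or.inr ⟨t, ht, rfl⟩)
  rw [e0, e1, e2, e3, e4]
  simp

lemma Sys.univ_ne_top (h : Sys s ν y z R K0 U lab) : ν univ ≠ ⊤ := by
  have := h.finν
  exact measure_ne_top ν _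

lemma Sys.mu_univ (h : Sys s ν y z R K0 U lab) : muOf ν y z R univ = 1 := by
  rw [h.mu_apply MeasurableSet.univ]
  simp only [preimage_univ]
  have hne := h.univ_ne_top
  have h0 := h.posν
  have : ν univ + ν univ + ν univ + ν univ + ν univ + ν univ = 6 * ν univ := by
    ring
  rw [this]
  exact ENNReal.inv_mul_cancel (by simpa using h0) (ENNReal.mul_ne_top (by simp) hne)

lemma Sys.mu_finite (h : Sys s ν y z R K0 U lab) : IsFiniteMeasure (muOf ν y z R) :=
  ⟨by rw [h.mu_univ]; exact ENNReal.one_lt_top⟩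

lemma Sys.mu_ac (h : Sys s ν y z R K0 U lab) : NullSingletonClass (muOf ν y z R) := by
  refine ⟨fun x => ?_⟩
  have := h.nullν
  rw [h.mu_apply (measurableSet_singleton x)]
  have hsub : ∀ {f : E → E}, InjOn f K0 → ν (f ⁻¹' {x}) = 0 := by
    intro f hf
    have hss : f ⁻¹' {x} ∩ K0 ⊆ {u | ∃ _ : f u = x, u ∈ K0} := by
      rintro u ⟨h1, h2⟩
      exact ⟨h1, h2⟩
    have hsing : (f ⁻¹' {x} ∩ K0).Subsingleton := by
      rintro a ⟨ha, haK⟩ b ⟨hb, hbK⟩
      exact hf haK hbK (by simpa using ha.trans hb.symm)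
    have h1 : ν (f ⁻¹' {x} ∩ K0) = 0 := hsing.measure_zero ν
    have h2 : f ⁻¹' {x} ⊆ (f ⁻¹' {x} ∩ K0) ∪ K0ᶜ := by
      intro t ht
      by_cases htK : t ∈ K0
      · exact Or.inl ⟨ht, htK⟩
      · exact Or.inr htK
    refine measure_mono_null h2 (measure_union_null h1 h.concν)
  rw [hsub h.iy, hsub h.iz, hsub h.iRy, hsub h.iRz, measure_singleton]
  simp

end Basic

end Crest.Agent.MM
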