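import Mathlib
import Crest.Agent.Lib.MM.Abstract

/-! The optimal plan and the non-existence of Monge solutions. -/

set_option autoImplicit false
open MeasureTheory Set
open scoped ENNReal
open Crest.AnalysisR.OT

namespace Crest.Agent.MM

variable {E : Type*} [NormedAddCommGroup E] [MeasurableSpace E] [BorelSpace E]
  [SecondCountableTopology E] [CompleteSpace E]

/-- The optimal plan: the six cyclically arranged images of `ν`. -/
noncomputable def planOf (ν : Measure E) (y z R : E → E) : Measure (E × E × E) :=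
  (6 * ν univ)⁻¹ • (ν.map (fun t => (t, y t, z t)) + ν.map (fun t => (y t, z t, t)) +
    ν.map (fun t => (z t, t, y t)) + ν.map (fun t => (R t, R (y t), R (z t))) +
    ν.map (fun t => (R (y t), R (z t), R t)) + ν.map (fun t => (R (z t), R t, R (y t))))

section

variable {s : ℝ} {ν : Measure E} {y z R : E → E} {K0 : Set E} {U : E → ℝ≥0∞} {lab : E → ℕ}

lemma Sys.mT (h : Sys s ν y z R K0 U lab) :
    Measurable (fun t => (t, y t, z t)) ∧ Measurable (fun t => (y t, z t, t)) ∧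
    Measurable (fun t => (z t, t, y t)) ∧ Measurable (fun t => (R t, R (y t), R (z t))) ∧
    Measurable (fun t => (R (y t), R (z t), R t)) ∧ Measurable (fun t => (R (z t), R t, R (y t))) := by
  have hy := h.my
  have hz := h.mz
  have hR := h.mR
  have hRy := hR.comp hy
  have hRz := hR.comp hz
  refine ⟨measurable_id.prodMk (hy.prodMk hz), hy.prodMk (hz.prodMk measurable_id),
    hz.prodMk (measurable_id.prodMk hy), hR.prodMk (hRy.prodMk hRz),
    hRy.prodMk (hRz.prodMk hR), hRz.prodMk (hR.prodMk hRy)⟩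

lemma Sys.lintegral_plan (h : Sys s ν y z R K0 U lab) {f : E × E × E → ℝ≥0∞} (hf : Measurable f) :
    ∫⁻ p, f p ∂(planOf ν y z R) = (6 * ν univ)⁻¹ * (∫⁻ t, f (t, y t, z t) ∂ν +
      ∫⁻ t, f (y t, z t, t) ∂ν + ∫⁻ t, f (z t, t, y t) ∂ν + ∫⁻ t, f (R t, R (y t), R (z t)) ∂ν +
      ∫⁻ t, f (R (y t), R (z t), R t) ∂ν + ∫⁻ t, f (R (z t), R t, R (y t)) ∂ν) := by
  obtain ⟨h1, h2, h3, h4, h5, h6⟩ := h.mT
  simp only [planOf, lintegral_smul_measure, lintegral_add_measure, smul_eq_mul]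
  rw [lintegral_map hf h1, lintegral_map hf h2, lintegral_map hf h3, lintegral_map hf h4,
    lintegral_map hf h5, lintegral_map hf h6]

lemma Sys.plan_map (h : Sys s ν y z R K0 U lab) {g : E × E × E → E} (hg : Measurable g) :
    (planOf ν y z R).map g = (6 * ν univ)⁻¹ • (ν.map (fun t => g (t, y t, z t)) +
      ν.map (fun t => g (y t, z t, t)) + ν.map (fun t => g (z t, t, y t)) +
      ν.map (fun t => g (R t, R (y t), R (z t))) + ν.map (fun t => g (R (y t), R (z t), R t)) +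
      ν.map (fun t => g (R (z t), R t, R (y t)))) := by
  obtain ⟨h1, h2, h3, h4, h5, h6⟩ := h.mT
  simp only [planOf]
  rw [Measure.map_smul, Measure.map_add _ _ hg, Measure.map_add _ _ hg, Measure.map_add _ _ hg,
    Measure.map_add _ _ hg, Measure.map_add _ _ hg, Measure.map_map hg h1, Measure.map_map hg h2,
    Measure.map_map hg h3, Measure.map_map hg h4, Measure.map_map hg h5, Measure.map_map hg h6]
  rfl

lemma Sys.plan_coupling (h : Sys s ν y z R K0 U lab) :
    IsCoupling₃ (muOf ν y z R) (planOf ν y z R) := by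
  have hR := h.Rν
  have hid : ν.map (fun t => t) = ν := Measure.map_id
  have e1 : ν.map (fun t => R (y t)) = ν.map (R ∘ y) := rfl
  have e2 : ν.map (fun t => R (z t)) = ν.map (R ∘ z) := rfl
  have e3 : ν.map (fun t => R t) = ν := hR
  have ey : ν.map (fun t => y t) = ν.map y := rfl
  have ez : ν.map (fun t => z t) = ν.map z := rfl
  refine ⟨?_, ?_, ?_⟩
  · rw [h.plan_map measurable_fst]
    simp only [muOf]
    rw [hid, ey, ez, e3, e1, e2]
    congr 1
    abel
  · rw [h.plan_map (g := fun p => p.2.1) (measurable_fst.comp measurable_snd)]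
    simp only [muOf]
    rw [hid, ey, ez, e3, e1, e2]
    congr 1
    abel
  · rw [h.plan_map (g := fun p => p.2.2) (measurable_snd.comp measurable_snd)]
    simp only [muOf]
    rw [hid, ey, ez, e3, e1, e2]
    congr 1
    abel

/-- The sum of potentials integrates the same against every coupling. -/
lemma Sys.lintegral_sumU (h : Sys s ν y z R K0 U lab) {π : Measure (E × E × E)}
    (hπ : IsCoupling₃ (muOf ν y z R) π) :
    ∫⁻ p, (U p.1 + U p.2.1 + U p.2.2) ∂π = 3 * ∫⁻ x, U x ∂(muOf ν y z R) := by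
  have hU := h.mU
  have m1 : Measurable (fun p : E × E × E => p.1) := measurable_fst
  have m2 : Measurable (fun p : E × E × E => p.2.1) := measurable_fst.comp measurable_snd
  have m3 : Measurable (fun p : E × E × E => p.2.2) := measurable_snd.comp measurable_snd
  obtain ⟨h1, h2, h3⟩ := hπ
  have mU1 : Measurable (fun p : E × E × E => U p.1) := hU.comp m1
  have mU2 : Measurable (fun p : E × E × E => U p.2.1) := hU.comp m2
  have mU12 : Measurable (fun p : E × E × E => U p.1 + U p.2.1) := mU1.add mU2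
  rw [lintegral_add_left mU12, lintegral_add_left mU1]
  have e1 : ∫⁻ p, U p.1 ∂π = ∫⁻ x, U x ∂(muOf ν y z R) := by
    rw [← h1, lintegral_map hU m1]
  have e2 : ∫⁻ p, U p.2.1 ∂π = ∫⁻ x, U x ∂(muOf ν y z R) := by
    rw [← h2, lintegral_map hU m2]
  have e3 : ∫⁻ p, U p.2.2 ∂π = ∫⁻ x, U x ∂(muOf ν y z R) := by
    rw [← h3, lintegral_map hU m3]
  rw [e1, e2, e3]
  ring

lemma Sys.lintegralU_ne_top (h : Sys s ν y z R K0 U lab) :
    ∫⁻ x, U x ∂(muOf ν y z R) ≠ ⊤ := by
  obtain ⟨C, hC, hle⟩ := h.Ubd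
  have := h.mu_finite
  have : ∫⁻ x, U x ∂(muOf ν y z R) ≤ ∫⁻ _, C ∂(muOf ν y z R) := lintegral_mono hle
  rw [lintegral_const, h.mu_univ, mul_one] at this
  exact ne_top_of_le_ne_top hC this

/-- Optimal cost equals the integral of the potentials. -/
lemma Sys.plan_cost (h : Sys s ν y z R K0 U lab) :
    ∫⁻ p, tripleCost s p ∂(planOf ν y z R) = 3 * ∫⁻ x, U x ∂(muOf ν y z R) := by
  rw [← h.lintegral_sumU h.plan_coupling]
  have hU := h.mU
  have m1 : Measurable (fun p : E × E × E => p.1) := measurable_fst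
  have m2 : Measurable (fun p : E × E × E => p.2.1) := measurable_fst.comp measurable_snd
  have m3 : Measurable (fun p : E × E × E => p.2.2) := measurable_snd.comp measurable_snd
  have mU1 : Measurable (fun p : E × E × E => U p.1) := hU.comp m1
  have mU2 : Measurable (fun p : E × E × E => U p.2.1) := hU.comp m2
  have mU3 : Measurable (fun p : E × E × E => U p.2.2) := hU.comp m3
  have mU123 : Measurable (fun p : E × E × E => U p.1 + U p.2.1 + U p.2.2) := (mU1.add mU2).add mU3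
  rw [h.lintegral_plan (measurable_tripleCost s), h.lintegral_plan mU123]
  have hae : ∀ᵐ t ∂ν, t ∈ K0 := by
    rw [ae_iff]
    exact h.concν
  have key : ∀ {t : E}, t ∈ K0 → tripleCost s (t, y t, z t) = U t + U (y t) + U (z t) := h.eqn _
  have e1 : ∫⁻ t, tripleCost s (t, y t, z t) ∂ν = ∫⁻ t, (U t + U (y t) + U (z t)) ∂ν :=
    lintegral_congr_ae (by filter_upwards [hae] with t ht using key ht)
  have e2 : ∫⁻ t, tripleCost s (y t, z t, t) ∂ν = ∫⁻ t, (U (y t) + U (z t) + U t) ∂ν :=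
    lintegral_congr_ae (by
      filter_upwards [hae] with t ht
      rw [← cost_cyc, key ht]
      ac_rfl)
  have e3 : ∫⁻ t, tripleCost s (z t, t, y t) ∂ν = ∫⁻ t, (U (z t) + U t + U (y t)) ∂ν :=
    lintegral_congr_ae (by
      filter_upwards [hae] with t ht
      rw [← cost_cyc, ← cost_cyc, key ht]
      ac_rfl)
  have e4 : ∫⁻ t, tripleCost s (R t, R (y t), R (z t)) ∂ν =
      ∫⁻ t, (U (R t) + U (R (y t)) + U (R (z t))) ∂ν :=
    lintegral_congr_ae (by
      filter_upwards [hae] with t ht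
      rw [cost_R h.Riso, key ht, h.UR, h.UR, h.UR])
  have e5 : ∫⁻ t, tripleCost s (R (y t), R (z t), R t) ∂ν =
      ∫⁻ t, (U (R (y t)) + U (R (z t)) + U (R t)) ∂ν :=
    lintegral_congr_ae (by
      filter_upwards [hae] with t ht
      rw [cost_R h.Riso, ← cost_cyc, key ht, h.UR, h.UR, h.UR]
      ac_rfl)
  have e6 : ∫⁻ t, tripleCost s (R (z t), R t, R (y t)) ∂ν =
      ∫⁻ t, (U (R (z t)) + U (R t) + U (R (y t))) ∂ν :=
    lintegral_congr_ae (by
      filter_upwards [hae] with t ht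
      rw [cost_R h.Riso, ← cost_cyc, ← cost_cyc, key ht, h.UR, h.UR, h.UR]
      ac_rfl)
  rw [e1, e2, e3, e4, e5, e6]

/-- Every coupling costs at least the integral of the potentials. -/
lemma Sys.coupling_lower (h : Sys s ν y z R K0 U lab) {π : Measure (E × E × E)}
    (hπ : IsCoupling₃ (muOf ν y z R) π) :
    3 * ∫⁻ x, U x ∂(muOf ν y z R) ≤ ∫⁻ p, tripleCost s p ∂π := by
  rw [← h.lintegral_sumU hπ]
  have m1 : Measurable (fun p : E × E × E => p.1) := measurable_fst
  have m2 : Measurable (fun p : E × E × E => p.2.1) := measurable_fst.comp measurable_snd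
  have m3 : Measurable (fun p : E × E × E => p.2.2) := measurable_snd.comp measurable_snd
  have hΩ : ∀ᵐ x ∂(muOf ν y z R), x ∈ Om y z R K0 := by
    rw [ae_iff]
    exact h.mu_Om
  obtain ⟨h1, h2, h3⟩ := hπ
  have a1 : ∀ᵐ p ∂π, p.1 ∈ Om y z R K0 := by
    rw [← h1] at hΩ
    exact ae_of_ae_map m1.aemeasurable hΩ
  have a2 : ∀ᵐ p ∂π, p.2.1 ∈ Om y z R K0 := by
    rw [← h2] at hΩ
    exact ae_of_ae_map m2.aemeasurable hΩ
  have a3 : ∀ᵐ p ∂π, p.2.2 ∈ Om y z R K0 := by
    rw [← h3] at hΩ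
    exact ae_of_ae_map m3.aemeasurable hΩ
  refine lintegral_mono_ae ?_
  filter_upwards [a1, a2, a3] with p hp1 hp2 hp3
  exact h.ineq _ hp1 _ hp2 _ hp3

/-- The pointwise bookkeeping in a contact triple. -/
lemma Sys.point_logic (h : Sys s ν y z R K0 U lab) {E' : Set E} (hE' : E' ⊆ K0) {x b c : E}
    (hc : ∃ t ∈ K0, IsPerm x b c t (y t) (z t) ∨ IsPerm x b c (R t) (R (y t)) (R (z t))) :
    (¬ (b ∈ y '' E' ∧ c ∈ y '' E')) ∧
      ((b ∈ y '' E' ∨ c ∈ y '' E') ↔ ((x ∈ E' ∧ (b ∈ y '' K0 ∨ c ∈ y '' K0)) ∨ x ∈ z '' E')) := by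
  obtain ⟨t, ht, hperm⟩ := hc
  have l0 := h.lab0 t ht
  have l1 := h.lab1 t ht
  have l2 := h.lab2 t ht
  have l3 := h.lab3 t ht
  have l4 := h.lab4 t ht
  have lR : lab (R t) = 0 := h.lab0 _ (h.RK0 t ht)
  -- membership in images determines labels
  have mem1 : ∀ {w : E}, w ∈ y '' E' → lab w = 1 := by
    rintro _ ⟨u, hu, rfl⟩
    exact h.lab1 u (hE' hu)
  have mem1' : ∀ {w : E}, w ∈ y '' K0 → lab w = 1 := by
    rintro _ ⟨u, hu, rfl⟩
    exact h.lab1 u hu
  have mem2 : ∀ {w : E}, w ∈ z '' E' → lab w = 2 := by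
    rintro _ ⟨u, hu, rfl⟩
    exact h.lab2 u (hE' hu)
  have mem0 : ∀ {w : E}, w ∈ E' → lab w = 0 := fun hw => h.lab0 _ (hE' hw)
  have yE : y t ∈ y '' E' ↔ t ∈ E' := by
    constructor
    · rintro ⟨u, hu, hue⟩
      rw [← h.iy (hE' hu) ht hue]
      exact hu
    · intro h'
      exact ⟨t, h', rfl⟩
  have zE : z t ∈ z '' E' ↔ t ∈ E' := by
    constructor
    · rintro ⟨u, hu, hue⟩
      rw [← h.iz (hE' hu) ht hue]
      exact hu
    · intro h'
      exact ⟨t, h', rfl⟩
  have yK : y t ∈ y '' K0 := ⟨t, ht, rfl⟩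
  rcases hperm with hp | hp
  · rcases hp with ⟨rfl, rfl, rfl⟩ | ⟨rfl, rfl, rfl⟩ | ⟨rfl, rfl, rfl⟩ | ⟨rfl, rfl, rfl⟩ |
      ⟨rfl, rfl, rfl⟩ | ⟨rfl, rfl, rfl⟩
    · -- (t, y t, z t)
      refine ⟨fun hh => ?_, ⟨?_, ?_⟩⟩
      · have := mem1 hh.2
        omega
      · rintro (hh | hh)
        · exact Or.inl ⟨yE.mp hh, Or.inl yK⟩
        · have := mem1 hh
          omega
      · rintro (⟨hh, _⟩ | hh)
        · exact Or.inl (yE.mpr hh)
        · have := mem2 hh
          omega
    · -- (t, z t, y t)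
      refine ⟨fun hh => ?_, ⟨?_, ?_⟩⟩
      · have := mem1 hh.1
        omega
      · rintro (hh | hh)
        · have := mem1 hh
          omega
        · exact Or.inl ⟨yE.mp hh, Or.inr yK⟩
      · rintro (⟨hh, _⟩ | hh)
        · exact Or.inr (yE.mpr hh)
        · have := mem2 hh
          omega
    · -- (y t, t, z t)
      refine ⟨fun hh => ?_, ⟨?_, ?_⟩⟩
      · have := mem1 hh.1
        omega
      · rintro (hh | hh)
        · have := mem1 hh
          omega
        · have := mem1 hh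
          omega
      · rintro (⟨hh, _⟩ | hh)
        · have := mem0 hh
          omega
        · have := mem2 hh
          omega
    · -- (y t, z t, t)
      refine ⟨fun hh => ?_, ⟨?_, ?_⟩⟩
      · have := mem1 hh.1
        omega
      · rintro (hh | hh)
        · have := mem1 hh
          omega
        · have := mem1 hh
          omega
      · rintro (⟨hh, _⟩ | hh)
        · have := mem0 hh
          omega
        · have := mem2 hh
          omega
    · -- (z t, t, y t)
      refine ⟨fun hh => ?_, ⟨?_, ?_⟩⟩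
      · have := mem1 hh.1
        omega
      · rintro (hh | hh)
        · have := mem1 hh
          omega
        · exact Or.inr (zE.mpr (yE.mp hh))
      · rintro (⟨hh, _⟩ | hh)
        · have := mem0 hh
          omega
        · exact Or.inr (yE.mpr (zE.mp hh))
    · -- (z t, y t, t)
      refine ⟨fun hh => ?_, ⟨?_, ?_⟩⟩
      · have := mem1 hh.2
        omega
      · rintro (hh | hh)
        · exact Or.inr (zE.mpr (yE.mp hh))
        · have := mem1 hh
          omega
      · rintro (⟨hh, _⟩ | hh)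
        · have := mem0 hh
          omega
        · exact Or.inl (yE.mpr (zE.mp hh))
  · -- type b: no point of label 1 or 2
    have key : lab x ≠ 1 ∧ lab x ≠ 2 ∧ lab b ≠ 1 ∧ lab c ≠ 1 := by
      rcases hp with ⟨rfl, rfl, rfl⟩ | ⟨rfl, rfl, rfl⟩ | ⟨rfl, rfl, rfl⟩ | ⟨rfl, rfl, rfl⟩ |
        ⟨rfl, rfl, rfl⟩ | ⟨rfl, rfl, rfl⟩ <;> omega
    obtain ⟨k1, k2, k3, k4⟩ := key
    refine ⟨fun hh => k3 (mem1 hh.1), ⟨?_, ?_⟩⟩
    · rintro (hh | hh)
      · exact absurd (mem1 hh) k3
      · exact absurd (mem1 hh) k4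
    · rintro (⟨_, hh | hh⟩ | hh)
      · exact absurd (mem1' hh) k3
      · exact absurd (mem1' hh) k4
      · exact absurd (mem2 hh) k2

/-- No Monge plan is optimal. -/
theorem Sys.monge_strict (h : Sys s ν y z R K0 U lab) {T₂ T₃ : E → E} (hT₂ : Measurable T₂)
    (hT₃ : Measurable T₃) (hp₂ : (muOf ν y z R).map T₂ = muOf ν y z R)
    (hp₃ : (muOf ν y z R).map T₃ = muOf ν y z R) :
    3 * ∫⁻ x, U x ∂(muOf ν y z R) < ∫⁻ x, tripleCost s (x, T₂ x, T₃ x) ∂(muOf ν y z R) := by
  by_contra hcon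
  push Not at hcon
  set μ := muOf ν y z R with hμ
  have hU := h.mU
  have := h.finν
  have hΩ : ∀ᵐ x ∂μ, x ∈ Om y z R K0 := by
    rw [ae_iff]
    exact h.mu_Om
  have hΩ₂ : ∀ᵐ x ∂μ, T₂ x ∈ Om y z R K0 := by
    have h' := hΩ
    rw [← hp₂] at h'
    exact ae_of_ae_map hT₂.aemeasurable h'
  have hΩ₃ : ∀ᵐ x ∂μ, T₃ x ∈ Om y z R K0 := by
    have h' := hΩ
    rw [← hp₃] at h'
    exact ae_of_ae_map hT₃.aemeasurable h'
  have hint : ∫⁻ x, (U x + U (T₂ x) + U (T₃ x)) ∂μ = 3 * ∫⁻ x, U x ∂μ := by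
    have mU2 : Measurable (fun x => U (T₂ x)) := hU.comp hT₂
    have mU12 : Measurable (fun x => U x + U (T₂ x)) := hU.add mU2
    rw [lintegral_add_left mU12, lintegral_add_left hU]
    have e2 : ∫⁻ x, U (T₂ x) ∂μ = ∫⁻ x, U x ∂μ := by
      conv_rhs => rw [← hp₂, lintegral_map hU hT₂]
    have e3 : ∫⁻ x, U (T₃ x) ∂μ = ∫⁻ x, U x ∂μ := by
      conv_rhs => rw [← hp₃, lintegral_map hU hT₃]
    rw [e2, e3]
    ring
  have hfin : ∫⁻ x, (U x + U (T₂ x) + U (T₃ x)) ∂μ ≠ ⊤ := by
    rw [hint]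
    exact ENNReal.mul_ne_top (by simp) h.lintegralU_ne_top
  have hmeasg : Measurable (fun x => tripleCost s (x, T₂ x, T₃ x)) :=
    (measurable_tripleCost s).comp (measurable_id.prodMk (hT₂.prodMk hT₃))
  have hle : (fun x => U x + U (T₂ x) + U (T₃ x)) ≤ᵐ[μ] fun x => tripleCost s (x, T₂ x, T₃ x) := by
    filter_upwards [hΩ, hΩ₂, hΩ₃] with x h1 h2 h3
    exact h.ineq _ h1 _ h2 _ h3
  have heq := ae_eq_of_ae_le_of_lintegral_le hle hfin hmeasg.aemeasurable (by rwa [hint])
  have hcontact : ∀ᵐ x ∂μ, ∃ t ∈ K0, IsPerm x (T₂ x) (T₃ x) t (y t) (z t) ∨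
      IsPerm x (T₂ x) (T₃ x) (R t) (R (y t)) (R (z t)) := by
    filter_upwards [hΩ, hΩ₂, hΩ₃, heq] with x h1 h2 h3 h4
    exact h.cls _ h1 _ h2 _ h3 (le_of_eq h4.symm)
  -- the counting identity
  have hK1 : MeasurableSet (y '' K0) := h.meas_img h.iy h.cy subset_rfl h.mK0
  set D : Set E := K0 ∩ (T₂ ⁻¹' (y '' K0) ∪ T₃ ⁻¹' (y '' K0)) with hD
  have hDm : MeasurableSet D := h.mK0.inter ((hT₂ hK1).union (hT₃ hK1))
  have hc0 : (6 * ν univ)⁻¹ ≠ 0 := by
    simp [ENNReal.mul_eq_top, h.univ_ne_top]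
  have hc1 : (6 * ν univ)⁻¹ ≠ ⊤ := by
    simp [h.posν]
  have count : ∀ E' : Set E, E' ⊆ K0 → MeasurableSet E' → ν E' = ν (E' ∩ D) + ν (E' ∩ D) := by
    intro E' hE'K hE'm
    have hW : MeasurableSet (y '' E') := h.meas_img h.iy h.cy hE'K hE'm
    have hZ : MeasurableSet (z '' E') := h.meas_img h.iz h.cz hE'K hE'm
    set P₂ := T₂ ⁻¹' (y '' E') with hP₂
    set P₃ := T₃ ⁻¹' (y '' E') with hP₃
    have mP₂ : MeasurableSet P₂ := hT₂ hW
    have mP₃ : MeasurableSet P₃ := hT₃ hW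
    have mG : MeasurableSet ((E' ∩ D) ∪ z '' E') := (hE'm.inter hDm).union hZ
    have e2 : μ P₂ = μ (y '' E') := by
      rw [hP₂, ← Measure.map_apply hT₂ hW, hp₂]
    have e3 : μ P₃ = μ (y '' E') := by
      rw [hP₃, ← Measure.map_apply hT₃ hW, hp₃]
    have hnull : μ (P₂ ∩ P₃) = 0 := by
      have : ∀ᵐ x ∂μ, x ∉ P₂ ∩ P₃ := by
        filter_upwards [hcontact] with x hx
        exact (h.point_logic hE'K hx).1
      exact measure_eq_zero_iff_ae_notMem.mpr this
    have hGae : (P₂ ∪ P₃ : Set E) =ᵐ[μ] ((E' ∩ D) ∪ z '' E' : Set E) := by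
      have : ∀ᵐ x ∂μ, (x ∈ P₂ ∪ P₃ ↔ x ∈ (E' ∩ D) ∪ z '' E') := by
        filter_upwards [hcontact] with x hx
        have := (h.point_logic hE'K hx).2
        constructor
        · intro hh
          rcases this.mp hh with ⟨h1, h2⟩ | h1
          · exact Or.inl ⟨h1, hE'K h1, h2⟩
          · exact Or.inr h1
        · rintro (⟨h1, _, h2⟩ | h1)
          · exact this.mpr (Or.inl ⟨h1, h2⟩)
          · exact this.mpr (Or.inr h1)
      exact Filter.eventuallyEq_set.mpr this
    have hsum : μ (y '' E') + μ (y '' E') = μ (E' ∩ D) + μ (z '' E') := by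
      have h1 := measure_union_add_inter (μ := μ) P₂ mP₃
      rw [hnull, add_zero, e2, e3] at h1
      rw [← h1, measure_congr hGae]
      have hdisj : Disjoint (E' ∩ D) (z '' E') := by
        rw [Set.disjoint_left]
        rintro a ⟨ha, _⟩ ⟨u, hu, rfl⟩
        have a1 := h.lab0 _ (hE'K ha)
        have a2 := h.lab2 u (hE'K hu)
        omega
      exact measure_union hdisj hZ
    have m1 : μ (y '' E') = (6 * ν univ)⁻¹ * ν E' := h.mu_y hE'm hE'K
    have m2 : μ (z '' E') = (6 * ν univ)⁻¹ * ν E' := h.mu_z hE'm hE'K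
    have m3 : μ (E' ∩ D) = (6 * ν univ)⁻¹ * (ν (E' ∩ D) + ν (E' ∩ D)) :=
      h.mu_center (hE'm.inter hDm) (inter_subset_left.trans hE'K)
    rw [m1, m2, m3] at hsum
    have hfinE : (6 * ν univ)⁻¹ * ν E' ≠ ⊤ :=
      ENNReal.mul_ne_top hc1 (measure_ne_top ν _)
    have hcancel := (ENNReal.add_left_inj hfinE).mp hsum
    exact (ENNReal.mul_right_inj hc0 hc1).mp hcancel
  -- conclusion
  have hA : ν (K0 \ D) = 0 := by
    have := count (K0 \ D) sdiff_subset (h.mK0.diff hDm)
    have he : (K0 \ D) ∩ D = ∅ := by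
      ext x
      simp
    rwa [he, measure_empty, add_zero] at this
  have hB : ν D = 0 := by
    have := count D inter_subset_left hDm
    rw [inter_self] at this
    have hne : ν D ≠ ⊤ := measure_ne_top ν _
    by_contra hpos
    have h2 : ν D + 0 = ν D + ν D := by simpa using this
    have h3 := (ENNReal.add_right_inj hne).mp h2
    exact hpos h3.symm
  have hK : ν K0 = 0 := by
    have hsub : K0 ⊆ (K0 \ D) ∪ D := by
      intro x hx
      by_cases hxD : x ∈ D
      · exact Or.inr hxD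
      · exact Or.inl ⟨hx, hxD⟩
    exact measure_mono_null hsub (measure_union_null hA hB)
  have huniv : ν univ = 0 := by
    have hsub : (univ : Set E) ⊆ K0 ∪ K0ᶜ := by simp
    exact measure_mono_null hsub (measure_union_null hK h.concν)
  exact h.posν huniv

end

end Crest.Agent.MM
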