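import Mathlib
import Crest.Agent.Lib.MM.Plan

/-! Monge plans approach the minimum. -/

set_option autoImplicit false
open MeasureTheory Set
open scoped ENNReal
open Crest.AnalysisR.OT

namespace Crest.Agent.MM

variable {E : Type*} [NormedAddCommGroup E] [MeasurableSpace E] [BorelSpace E]
  [SecondCountableTopology E] [CompleteSpace E]

section

variable {s : ℝ} {ν : Measure E} {y z R : E → E} {K0 : Set E} {U : E → ℝ≥0∞} {lab : E → ℕ}

/-- labels of the blocks -/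
def blockLab (b : Bool) (i : Fin 3) : ℕ :=
  match b with
  | false => ![0, 1, 2] i
  | true => ![0, 3, 4] i

lemma blockLab_cases (b b' : Bool) (i i' : Fin 3) :
    blockLab b i ≠ blockLab b' i' ∨ (b = b' ∧ i = i') ∨ (i = 0 ∧ i' = 0 ∧ b ≠ b') := by
  revert b b' i i'
  decide

/-- The small cells of the centre. -/
noncomputable def cell (K0 : Set E) (τ : ℝ) : ℕ → Set E :=
  disjointed fun n => K0 ∩ Metric.ball (TopologicalSpace.denseSeq E n) (τ / 2)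

lemma cell_sub (K0 : Set E) (τ : ℝ) (n : ℕ) : cell K0 τ n ⊆ K0 :=
  (disjointed_subset _ n).trans inter_subset_left

lemma cell_meas {K0 : Set E} (hK : MeasurableSet K0) (τ : ℝ) (n : ℕ) :
    MeasurableSet (cell K0 τ n) :=
  MeasurableSet.disjointed (fun n => hK.inter Metric.isOpen_ball.measurableSet) n

lemma cell_disj (K0 : Set E) (τ : ℝ) {n n' : ℕ} {x : E} (h1 : x ∈ cell K0 τ n)
    (h2 : x ∈ cell K0 τ n') : n = n' := by
  by_contra hne
  exact Set.disjoint_left.mp (disjoint_disjointed _ hne) h1 h2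

lemma cell_cover (K0 : Set E) {τ : ℝ} (hτ : 0 < τ) {x : E} (hx : x ∈ K0) :
    ∃ n, x ∈ cell K0 τ n := by
  have h1 : x ∈ ⋃ n, K0 ∩ Metric.ball (TopologicalSpace.denseSeq E n) (τ / 2) := by
    obtain ⟨n, hn⟩ := (TopologicalSpace.denseRange_denseSeq E).exists_dist_lt x (half_pos hτ)
    exact mem_iUnion.mpr ⟨n, hx, by rwa [Metric.mem_ball]⟩
  rw [← iUnion_disjointed] at h1
  exact mem_iUnion.mp h1

lemma cell_dist (K0 : Set E) (τ : ℝ) {n : ℕ} {a b : E} (ha : a ∈ cell K0 τ n)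
    (hb : b ∈ cell K0 τ n) : dist a b ≤ τ := by
  have h1 := (disjointed_subset _ n ha).2
  have h2 := (disjointed_subset _ n hb).2
  rw [Metric.mem_ball] at h1 h2
  have := dist_triangle_right a b (TopologicalSpace.denseSeq E n)
  linarith

lemma Sys.near_block (h : Sys s ν y z R K0 U lab) {ε : ℝ≥0∞} {τ : ℝ}
    (hnear : ∀ t ∈ K0, ∀ t' ∈ K0, ∀ t'' ∈ K0,
      dist t t' ≤ τ → dist t t'' ≤ τ → dist t' t'' ≤ τ →
        tripleCost s (t, y t', z t'') ≤ U t + U (y t') + U (z t'') + ε) {n : ℕ} {t t' t'' : E}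
    (h1 : t ∈ cell K0 τ n) (h2 : R t' ∈ cell K0 τ n) (h3 : R t'' ∈ cell K0 τ n) :
    tripleCost s (t, R (y t'), R (z t'')) ≤ U t + U (R (y t')) + U (R (z t'')) + ε := by
  have ht : R t ∈ K0 := h.RK0 _ (cell_sub _ _ _ h1)
  have ht' : t' ∈ K0 := by
    have := h.RK0 _ (cell_sub _ _ _ h2)
    rwa [h.Rinv] at this
  have ht'' : t'' ∈ K0 := by
    have := h.RK0 _ (cell_sub _ _ _ h3)
    rwa [h.Rinv] at this
  have d : ∀ a b, dist (R a) b = dist a (R b) := by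
    intro a b
    rw [dist_eq_norm, dist_eq_norm]
    have := h.Riso a (R b)
    rw [h.Rinv] at this
    exact this
  have := hnear (R t) ht t' ht' t'' ht'' (by rw [d]; exact cell_dist _ _ h1 h2)
    (by rw [d]; exact cell_dist _ _ h1 h3)
    (by
      have e : dist t' t'' = dist (R t') (R t'') := by
        rw [d, h.Rinv]
      rw [e]
      exact cell_dist _ _ h2 h3)
  rw [h.UR] at this
  have e : tripleCost s (t, R (y t'), R (z t'')) = tripleCost s (R t, y t', z t'') := by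
    conv_lhs => rw [← h.Rinv t]
    rw [cost_R h.Riso]
  rw [e, h.UR, h.UR]
  exact this

theorem Sys.monge_approx (h : Sys s ν y z R K0 U lab) {ε₀ : ℝ≥0∞} (hε₀ : ε₀ ≠ 0) :
    ∃ T₂ T₃ : E → E, Measurable T₂ ∧ Measurable T₃ ∧
      (muOf ν y z R).map T₂ = muOf ν y z R ∧ (muOf ν y z R).map T₃ = muOf ν y z R ∧
      ∫⁻ x, tripleCost s (x, T₂ x, T₃ x) ∂(muOf ν y z R) <
        3 * ∫⁻ x, U x ∂(muOf ν y z R) + ε₀ := by
  have := h.finν
  have := h.nullν
  have hfinμ := h.mu_finite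
  have hnullμ := h.mu_ac
  set μ := muOf ν y z R with hμ
  -- choose a smaller tolerance
  set ε : ℝ≥0∞ := min ε₀ 1 / 2 with hε
  have hmin0 : min ε₀ 1 ≠ 0 := by
    simp [hε₀]
  have hmintop : min ε₀ 1 ≠ ⊤ := ne_top_of_le_ne_top ENNReal.one_ne_top (min_le_right _ _)
  have hε0 : ε ≠ 0 := by
    rw [hε]
    simp [ENNReal.div_eq_zero_iff, hε₀]
  have hεlt : ε < ε₀ :=
    lt_of_lt_of_le (ENNReal.half_lt_self hmin0 hmintop) (min_le_left _ _)
  obtain ⟨τ, hτ, hnear⟩ := h.near ε hε0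
  let Q := cell K0 τ
  have mQ : ∀ n, MeasurableSet (Q n) := cell_meas h.mK0 τ
  have sQ : ∀ n, Q n ⊆ K0 := cell_sub K0 τ
  -- halves
  have hhalf : ∀ n, ∃ Q' ⊆ Q n, MeasurableSet Q' ∧ ν Q' = ν (Q n) / 2 :=
    fun n => exists_half ν (mQ n)
  choose Q₁ hQ₁s hQ₁m hQ₁ν using hhalf
  let Q₂ : ℕ → Set E := fun n => Q n \ Q₁ n
  have hQ₂s : ∀ n, Q₂ n ⊆ Q n := fun n => sdiff_subset
  have hQ₂m : ∀ n, MeasurableSet (Q₂ n) := fun n => (mQ n).diff (hQ₁m n)
  have hQ₂ν : ∀ n, ν (Q₂ n) = ν (Q n) / 2 := by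
    intro n
    have e : ν (Q₂ n) = ν (Q n) - ν (Q₁ n) :=
      measure_diff (hQ₁s n) (hQ₁m n).nullMeasurableSet (measure_ne_top ν _)
    rw [e, hQ₁ν]
    exact ENNReal.sub_half (measure_ne_top ν _)
  -- the R-images of the cells
  let QR : ℕ → Set E := fun n => R ⁻¹' (Q n)
  have hQRm : ∀ n, MeasurableSet (QR n) := fun n => h.mR (mQ n)
  have hQRs : ∀ n, QR n ⊆ K0 := by
    intro n x hx
    have := h.RK0 _ (sQ n hx)
    rwa [h.Rinv] at this
  have hQRν : ∀ n, ν (QR n) = ν (Q n) := by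
    intro n
    rw [← Measure.map_apply h.mR (mQ n), h.Rν]
  -- the blocks
  let S : ℕ × Bool → Fin 3 → Set E := fun j =>
    match j with
    | (n, false) => ![Q₁ n, y '' Q n, z '' Q n]
    | (n, true) => ![Q₂ n, (R ∘ y) '' QR n, (R ∘ z) '' QR n]
  have S00 : ∀ n, S (n, false) 0 = Q₁ n := fun n => rfl
  have S01 : ∀ n, S (n, false) 1 = y '' Q n := fun n => rfl
  have S02 : ∀ n, S (n, false) 2 = z '' Q n := fun n => rfl
  have S10 : ∀ n, S (n, true) 0 = Q₂ n := fun n => rfl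
  have S11 : ∀ n, S (n, true) 1 = (R ∘ y) '' QR n := fun n => rfl
  have S12 : ∀ n, S (n, true) 2 = (R ∘ z) '' QR n := fun n => rfl
  have mS : ∀ j i, MeasurableSet (S j i) := by
    rintro ⟨n, b⟩ i
    cases b <;> fin_cases i
    · exact hQ₁m n
    · exact h.meas_img h.iy h.cy (sQ n) (mQ n)
    · exact h.meas_img h.iz h.cz (sQ n) (mQ n)
    · exact hQ₂m n
    · exact h.meas_img h.iRy h.cRy (hQRs n) (hQRm n)
    · exact h.meas_img h.iRz h.cRz (hQRs n) (hQRm n)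
  -- masses
  have hhalfsum : ∀ n, ν (Q n) / 2 + ν (Q n) / 2 = ν (Q n) := fun n => ENNReal.add_halves _
  have mass : ∀ (n : ℕ) (b : Bool) (i : Fin 3), μ (S (n, b) i) = (6 * ν univ)⁻¹ * ν (Q n) := by
    intro n b i
    cases b <;> fin_cases i
    · change μ (Q₁ n) = _
      rw [hμ, h.mu_center (hQ₁m n) ((hQ₁s n).trans (sQ n)), hQ₁ν, hhalfsum]
    · exact h.mu_y (mQ n) (sQ n)
    · exact h.mu_z (mQ n) (sQ n)
    · change μ (Q₂ n) = _
      rw [hμ, h.mu_center (hQ₂m n) ((hQ₂s n).trans (sQ n)), hQ₂ν, hhalfsum]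
    · change μ ((R ∘ y) '' QR n) = _
      rw [hμ, h.mu_Ry (hQRm n) (hQRs n), hQRν]
    · change μ ((R ∘ z) '' QR n) = _
      rw [hμ, h.mu_Rz (hQRm n) (hQRs n), hQRν]
  -- labels
  have labS : ∀ (n : ℕ) (b : Bool) (i : Fin 3) (x : E), x ∈ S (n, b) i → lab x = blockLab b i := by
    intro n b i x hx
    cases b <;> fin_cases i
    · exact h.lab0 x (sQ n (hQ₁s n hx))
    · obtain ⟨t, ht, rfl⟩ := hx
      exact h.lab1 t (sQ n ht)
    · obtain ⟨t, ht, rfl⟩ := hx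
      exact h.lab2 t (sQ n ht)
    · exact h.lab0 x (sQ n (hQ₂s n hx))
    · obtain ⟨t, ht, rfl⟩ := hx
      exact h.lab3 t (hQRs n ht)
    · obtain ⟨t, ht, rfl⟩ := hx
      exact h.lab4 t (hQRs n ht)
  have uniqS : ∀ (n n' : ℕ) (b : Bool) (i : Fin 3) (x : E), x ∈ S (n, b) i → x ∈ S (n', b) i →
      n = n' := by
    intro n n' b i x hx hx'
    cases b <;> fin_cases i
    · exact cell_disj K0 τ (hQ₁s n hx) (hQ₁s n' hx')
    · obtain ⟨t, ht, rfl⟩ := hx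
      obtain ⟨t', ht', he⟩ := hx'
      have := h.iy (sQ n' ht') (sQ n ht) he
      rw [this] at ht'
      exact cell_disj K0 τ ht ht'
    · obtain ⟨t, ht, rfl⟩ := hx
      obtain ⟨t', ht', he⟩ := hx'
      have := h.iz (sQ n' ht') (sQ n ht) he
      rw [this] at ht'
      exact cell_disj K0 τ ht ht'
    · exact cell_disj K0 τ (hQ₂s n hx) (hQ₂s n' hx')
    · obtain ⟨t, ht, rfl⟩ := hx
      obtain ⟨t', ht', he⟩ := hx'
      have := h.iRy (hQRs n' ht') (hQRs n ht) he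
      rw [this] at ht'
      exact cell_disj K0 τ ht ht'
    · obtain ⟨t, ht, rfl⟩ := hx
      obtain ⟨t', ht', he⟩ := hx'
      have := h.iRz (hQRs n' ht') (hQRs n ht) he
      rw [this] at ht'
      exact cell_disj K0 τ ht ht'
  have hd : Pairwise (Function.onFun Disjoint (fun q : (ℕ × Bool) × Fin 3 => S q.1 q.2)) := by
    rintro ⟨⟨n, b⟩, i⟩ ⟨⟨n', b'⟩, i'⟩ hne
    simp only [Function.onFun]
    rw [Set.disjoint_left]
    intro x hx hx'
    have l1 := labS n b i x hx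
    have l2 := labS n' b' i' x hx'
    rcases blockLab_cases b b' i i' with hc | ⟨rfl, rfl⟩ | ⟨rfl, rfl, hb⟩
    · exact hc (l1.symm.trans l2)
    · have := uniqS n n' b i x hx hx'
      subst this
      exact hne rfl
    · -- both in the centre, different halves
      cases b <;> cases b'
      · exact hb rfl
      · have hx1 : x ∈ Q₁ n := hx
        have hx2 : x ∈ Q₂ n' := hx'
        have e := cell_disj K0 τ (hQ₁s n hx1) (hQ₂s n' hx2)
        subst e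
        exact hx2.2 hx1
      · have hx1 : x ∈ Q₂ n := hx
        have hx2 : x ∈ Q₁ n' := hx'
        have e := cell_disj K0 τ (hQ₂s n hx1) (hQ₁s n' hx2)
        subst e
        exact hx1.2 hx2
      · exact hb rfl
  -- covering
  have hcov : Om y z R K0 ⊆ ⋃ q : (ℕ × Bool) × Fin 3, S q.1 q.2 := by
    intro x hx
    rw [mem_iUnion]
    rcases hx with (((hx | hx) | hx) | hx) | hx
    · obtain ⟨n, hn⟩ := cell_cover K0 hτ hx
      by_cases hq : x ∈ Q₁ n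
      · exact ⟨((n, false), 0), hq⟩
      · exact ⟨((n, true), 0), show x ∈ Q₂ n from ⟨hn, hq⟩⟩
    · obtain ⟨t, ht, rfl⟩ := hx
      obtain ⟨n, hn⟩ := cell_cover K0 hτ ht
      exact ⟨((n, false), 1), ⟨t, hn, rfl⟩⟩
    · obtain ⟨t, ht, rfl⟩ := hx
      obtain ⟨n, hn⟩ := cell_cover K0 hτ ht
      exact ⟨((n, false), 2), ⟨t, hn, rfl⟩⟩
    · obtain ⟨t, ht, rfl⟩ := hx
      obtain ⟨n, hn⟩ := cell_cover K0 hτ (h.RK0 t ht)
      exact ⟨((n, true), 1), ⟨t, hn, rfl⟩⟩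
    · obtain ⟨t, ht, rfl⟩ := hx
      obtain ⟨n, hn⟩ := cell_cover K0 hτ (h.RK0 t ht)
      exact ⟨((n, true), 2), ⟨t, hn, rfl⟩⟩
  have hc : μ (⋃ q : (ℕ × Bool) × Fin 3, S q.1 q.2)ᶜ = 0 :=
    measure_mono_null (compl_subset_compl.mpr hcov) h.mu_Om
  have hmass : ∀ j i i', μ (S j i) = μ (S j i') := by
    rintro ⟨n, b⟩ i i'
    rw [mass, mass]
  obtain ⟨T₂, T₃, hT₂, hT₃, hp₂, hp₃, hae⟩ := block_maps μ S mS hd hmass hc
  refine ⟨T₂, T₃, hT₂, hT₃, hp₂, hp₃, ?_⟩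
  -- cost of a triple from a block
  have hblock : ∀ (j : ℕ × Bool) (a b c : E), a ∈ S j 0 → b ∈ S j 1 → c ∈ S j 2 →
      tripleCost s (a, b, c) ≤ U a + U b + U c + ε := by
    rintro ⟨n, bb⟩ a b c ha hb hc
    cases bb
    · obtain ⟨t', ht', rfl⟩ := hb
      obtain ⟨t'', ht'', rfl⟩ := hc
      have ha' : a ∈ Q n := hQ₁s n ha
      exact hnear a (sQ n ha') t' (sQ n ht') t'' (sQ n ht'') (cell_dist _ _ ha' ht')
        (cell_dist _ _ ha' ht'') (cell_dist _ _ ht' ht'')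
    · obtain ⟨t', ht', rfl⟩ := hb
      obtain ⟨t'', ht'', rfl⟩ := hc
      have ha' : a ∈ Q n := hQ₂s n ha
      exact h.near_block hnear ha' ht' ht''
  have hpt : ∀ᵐ x ∂μ, tripleCost s (x, T₂ x, T₃ x) ≤ U x + U (T₂ x) + U (T₃ x) + ε := by
    filter_upwards [hae] with x hx
    obtain ⟨j, i, h0, h1, h2⟩ := hx
    fin_cases i
    · exact hblock j x (T₂ x) (T₃ x) h0 h1 h2
    · have := hblock j (T₃ x) x (T₂ x) h2 h0 h1
      rw [cost_cyc] at this
      calc tripleCost s (x, T₂ x, T₃ x) ≤ U (T₃ x) + U x + U (T₂ x) + ε := this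
        _ = U x + U (T₂ x) + U (T₃ x) + ε := by ac_rfl
    · have := hblock j (T₂ x) (T₃ x) x h1 h2 h0
      rw [← cost_cyc] at this
      calc tripleCost s (x, T₂ x, T₃ x) ≤ U (T₂ x) + U (T₃ x) + U x + ε := this
        _ = U x + U (T₂ x) + U (T₃ x) + ε := by ac_rfl
  have hU := h.mU
  have mU2 : Measurable (fun x => U (T₂ x)) := hU.comp hT₂
  have mU3 : Measurable (fun x => U (T₃ x)) := hU.comp hT₃
  have hint : ∫⁻ x, (U x + U (T₂ x) + U (T₃ x) + ε) ∂μ = 3 * ∫⁻ x, U x ∂μ + ε := by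
    have mU12 : Measurable (fun x => U x + U (T₂ x)) := hU.add mU2
    have mU123 : Measurable (fun x => U x + U (T₂ x) + U (T₃ x)) := mU12.add mU3
    rw [lintegral_add_left mU123, lintegral_add_left mU12, lintegral_add_left hU,
      lintegral_const, h.mu_univ, mul_one]
    have e2 : ∫⁻ x, U (T₂ x) ∂μ = ∫⁻ x, U x ∂μ := by
      conv_rhs => rw [← hp₂, lintegral_map hU hT₂]
    have e3 : ∫⁻ x, U (T₃ x) ∂μ = ∫⁻ x, U x ∂μ := by
      conv_rhs => rw [← hp₃, lintegral_map hU hT₃]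
    rw [e2, e3]
    ring
  have hfin : 3 * ∫⁻ x, U x ∂μ ≠ ⊤ := ENNReal.mul_ne_top (by simp) h.lintegralU_ne_top
  calc ∫⁻ x, tripleCost s (x, T₂ x, T₃ x) ∂μ
      ≤ ∫⁻ x, (U x + U (T₂ x) + U (T₃ x) + ε) ∂μ := lintegral_mono_ae hpt
    _ = 3 * ∫⁻ x, U x ∂μ + ε := hint
    _ < 3 * ∫⁻ x, U x ∂μ + ε₀ := ENNReal.add_lt_add_left hfin hεlt

/-- The conclusion of the abstract part. -/
theorem Sys.main (h : Sys s ν y z R K0 U lab) :
    ∃ π₀ : Measure (E × E × E),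
      IsCoupling₃ (muOf ν y z R) π₀ ∧ ∫⁻ p, tripleCost s p ∂π₀ < ⊤ ∧
        (∀ π : Measure (E × E × E), IsCoupling₃ (muOf ν y z R) π →
          ∫⁻ p, tripleCost s p ∂π₀ ≤ ∫⁻ p, tripleCost s p ∂π) ∧
        (∀ T₂ T₃ : E → E, Measurable T₂ → Measurable T₃ →
          (muOf ν y z R).map T₂ = muOf ν y z R → (muOf ν y z R).map T₃ = muOf ν y z R →
          ∫⁻ p, tripleCost s p ∂π₀ < ∫⁻ x, tripleCost s (x, T₂ x, T₃ x) ∂(muOf ν y z R)) ∧
        (∀ ε : ℝ≥0∞, 0 < ε → ∃ T₂ T₃ : E → E, Measurable T₂ ∧ Measurable T₃ ∧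
          (muOf ν y z R).map T₂ = muOf ν y z R ∧ (muOf ν y z R).map T₃ = muOf ν y z R ∧
          ∫⁻ x, tripleCost s (x, T₂ x, T₃ x) ∂(muOf ν y z R) <
            ∫⁻ p, tripleCost s p ∂π₀ + ε) := by
  refine ⟨planOf ν y z R, h.plan_coupling, ?_, ?_, ?_, ?_⟩
  · rw [h.plan_cost]
    exact lt_top_iff_ne_top.mpr (ENNReal.mul_ne_top (by simp) h.lintegralU_ne_top)
  · intro π hπ
    rw [h.plan_cost]
    exact h.coupling_lower hπ
  · intro T₂ T₃ hT₂ hT₃ hp₂ hp₃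
    rw [h.plan_cost]
    exact h.monge_strict hT₂ hT₃ hp₂ hp₃
  · intro ε hε
    rw [h.plan_cost]
    exact h.monge_approx hε.ne'

end

end Crest.Agent.MM
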