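import Mathlib
import Crest.Agent.Lib.MM.Abstract

/-! The case analysis on the five regions: the inequality `U a + U b + U c ≤ cost` on triples of
points of the support and the description of its equality cases. -/

set_option autoImplicit false
open MeasureTheory Set
open scoped ENNReal
open Crest.AnalysisR.OT

namespace Crest.Agent.MM

section Bounds

variable {E : Type*} [NormedAddCommGroup E]

lemma pairCost_lower {s d : ℝ} (hs : 0 < s) (hd : 0 < d) {p q : E} (h : ‖p - q‖ ≤ d) :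
    ENNReal.ofReal (d ^ (-s)) ≤ pairCost s p q := by
  unfold pairCost
  rcases eq_or_lt_of_le (norm_nonneg (p - q)) with h0 | h0
  · rw [← h0, ENNReal.ofReal_zero, ENNReal.zero_rpow_of_neg (by linarith : -s < 0)]
    exact le_top
  · rw [ENNReal.ofReal_rpow_of_pos h0]
    apply ENNReal.ofReal_le_ofReal
    exact Real.rpow_le_rpow_of_nonpos h0 h (by linarith)

lemma pairCost_eq {s : ℝ} {p q : E} (h : p ≠ q) :
    pairCost s p q = ENNReal.ofReal (‖p - q‖ ^ (-s)) := by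
  unfold pairCost
  rw [ENNReal.ofReal_rpow_of_pos (norm_pos_iff.mpr (sub_ne_zero.mpr h))]

lemma tripleCost_eq {s : ℝ} {a b c : E} (h1 : a ≠ b) (h2 : a ≠ c) (h3 : b ≠ c) :
    tripleCost s (a, b, c) = ENNReal.ofReal (‖a - b‖ ^ (-s) + ‖a - c‖ ^ (-s) + ‖b - c‖ ^ (-s)) := by
  simp only [tripleCost]
  rw [pairCost_eq h1, pairCost_eq h2, pairCost_eq h3, ENNReal.ofReal_add, ENNReal.ofReal_add]
  · positivity
  · positivity
  · positivity
  · positivity

lemma sum_le_ofReal {A1 A2 A3 : ℝ≥0∞} {x1 x2 x3 : ℝ} (hx1 : 0 ≤ x1) (hx2 : 0 ≤ x2)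
    (hx3 : 0 ≤ x3) (h1 : A1 ≤ ENNReal.ofReal x1) (h2 : A2 ≤ ENNReal.ofReal x2)
    (h3 : A3 ≤ ENNReal.ofReal x3) : A1 + A2 + A3 ≤ ENNReal.ofReal (x1 + x2 + x3) := by
  rw [ENNReal.ofReal_add (by positivity) hx3, ENNReal.ofReal_add hx1 hx2]
  gcongr

lemma strict_of_bounds {s : ℝ} (hs : 0 < s) {a b c : E} {A1 A2 A3 : ℝ≥0∞} {x1 x2 x3 d1 d2 d3 : ℝ}
    (hx1 : 0 ≤ x1) (hx2 : 0 ≤ x2) (hx3 : 0 ≤ x3) (h1 : A1 ≤ ENNReal.ofReal x1)
    (h2 : A2 ≤ ENNReal.ofReal x2) (h3 : A3 ≤ ENNReal.ofReal x3) (hd1 : 0 < d1) (hd2 : 0 < d2)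
    (hd3 : 0 < d3) (n1 : ‖a - b‖ ≤ d1) (n2 : ‖a - c‖ ≤ d2) (n3 : ‖b - c‖ ≤ d3)
    (hX : x1 + x2 + x3 < d1 ^ (-s) + d2 ^ (-s) + d3 ^ (-s)) :
    A1 + A2 + A3 < tripleCost s (a, b, c) := by
  have hsum := sum_le_ofReal hx1 hx2 hx3 h1 h2 h3
  have hp1 := pairCost_lower hs hd1 n1
  have hp2 := pairCost_lower hs hd2 n2
  have hp3 := pairCost_lower hs hd3 n3
  have hlow : ENNReal.ofReal (d1 ^ (-s) + d2 ^ (-s) + d3 ^ (-s)) ≤ tripleCost s (a, b, c) := by
    simp only [tripleCost]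
    rw [ENNReal.ofReal_add (by positivity) (by positivity),
      ENNReal.ofReal_add (by positivity) (by positivity)]
    gcongr
  refine lt_of_le_of_lt hsum (lt_of_lt_of_le ?_ hlow)
  rw [ENNReal.ofReal_lt_ofReal_iff (by positivity)]
  exact hX

lemma strict_pair12 {s : ℝ} (hs : 0 < s) {a b c : E} {A1 A2 A3 : ℝ≥0∞} {x1 x2 x3 d : ℝ}
    (hx1 : 0 ≤ x1) (hx2 : 0 ≤ x2) (hx3 : 0 ≤ x3) (h1 : A1 ≤ ENNReal.ofReal x1)
    (h2 : A2 ≤ ENNReal.ofReal x2) (h3 : A3 ≤ ENNReal.ofReal x3) (hd : 0 < d) (n : ‖a - b‖ ≤ d)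
    (hX : x1 + x2 + x3 < d ^ (-s)) :
    A1 + A2 + A3 < tripleCost s (a, b, c) := by
  have hsum := sum_le_ofReal hx1 hx2 hx3 h1 h2 h3
  have hp := pairCost_lower hs hd n
  have hlow : ENNReal.ofReal (d ^ (-s)) ≤ tripleCost s (a, b, c) := by
    simp only [tripleCost]
    exact hp.trans (le_add_right (le_add_right le_rfl))
  refine lt_of_le_of_lt hsum (lt_of_lt_of_le ?_ hlow)
  rw [ENNReal.ofReal_lt_ofReal_iff (by positivity)]
  exact hX

lemma strict_pair23 {s : ℝ} (hs : 0 < s) {a b c : E} {A1 A2 A3 : ℝ≥0∞} {x1 x2 x3 d : ℝ}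
    (hx1 : 0 ≤ x1) (hx2 : 0 ≤ x2) (hx3 : 0 ≤ x3) (h1 : A1 ≤ ENNReal.ofReal x1)
    (h2 : A2 ≤ ENNReal.ofReal x2) (h3 : A3 ≤ ENNReal.ofReal x3) (hd : 0 < d) (n : ‖b - c‖ ≤ d)
    (hX : x1 + x2 + x3 < d ^ (-s)) :
    A1 + A2 + A3 < tripleCost s (a, b, c) := by
  have hsum := sum_le_ofReal hx1 hx2 hx3 h1 h2 h3
  have hp := pairCost_lower hs hd n
  have hlow : ENNReal.ofReal (d ^ (-s)) ≤ tripleCost s (a, b, c) := by
    simp only [tripleCost]
    exact hp.trans (le_add_left le_rfl)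
  refine lt_of_le_of_lt hsum (lt_of_lt_of_le ?_ hlow)
  rw [ENNReal.ofReal_lt_ofReal_iff (by positivity)]
  exact hX

lemma IsPerm.swap {a b c p q r : E} (h : IsPerm a b c p q r) : IsPerm b a c p q r := by
  unfold IsPerm at *
  tauto

lemma IsPerm.cyc {a b c p q r : E} (h : IsPerm a b c p q r) : IsPerm b c a p q r := by
  unfold IsPerm at *
  tauto

lemma sort_labels {P : ℕ → ℕ → ℕ → Prop} (h1 : ∀ i j k, P i j k → P j i k)
    (h2 : ∀ i j k, P i j k → P j k i) (h : ∀ i j k, i ≤ j → j ≤ k → P i j k) :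
    ∀ i j k, P i j k := by
  intro i j k
  rcases le_total i j with a | a <;> rcases le_total j k with b | b <;> rcases le_total i k with c | c
  · exact h _ _ _ a b
  · exact h _ _ _ a b
  · exact h2 _ _ _ (h1 _ _ _ (h i k j c b))
  · exact h2 _ _ _ (h k i j c a)
  · exact h1 _ _ _ (h j i k a c)
  · exact h2 _ _ _ (h2 _ _ _ (h j k i b c))
  · exact h2 _ _ _ (h2 _ _ _ (h1 _ _ _ (h k j i b a)))
  · exact h2 _ _ _ (h2 _ _ _ (h1 _ _ _ (h k j i b a)))

/-- The statement proved for triples. -/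
def PP (s : ℝ) (K0 : Set E) (y z R : E → E) (U : E → ℝ≥0∞) (a b c : E) : Prop :=
  U a + U b + U c ≤ tripleCost s (a, b, c) ∧
    (tripleCost s (a, b, c) ≤ U a + U b + U c →
      ∃ t ∈ K0, IsPerm a b c t (y t) (z t) ∨ IsPerm a b c (R t) (R (y t)) (R (z t)))

variable {s : ℝ} {K0 : Set E} {y z R : E → E} {U : E → ℝ≥0∞}

lemma PP.swap {a b c : E} (h : PP s K0 y z R U a b c) : PP s K0 y z R U b a c := by
  unfold PP at *
  rw [← cost_swap, add_comm (U b) (U a)]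
  refine ⟨h.1, fun h2 => ?_⟩
  obtain ⟨t, ht, h3⟩ := h.2 h2
  exact ⟨t, ht, h3.imp IsPerm.swap IsPerm.swap⟩

lemma PP.cyc {a b c : E} (h : PP s K0 y z R U a b c) : PP s K0 y z R U b c a := by
  unfold PP at *
  rw [← cost_cyc, show U b + U c + U a = U a + U b + U c by ring]
  refine ⟨h.1, fun h2 => ?_⟩
  obtain ⟨t, ht, h3⟩ := h.2 h2
  exact ⟨t, ht, h3.imp IsPerm.cyc IsPerm.cyc⟩

lemma PP_of_strict {a b c : E} (h : U a + U b + U c < tripleCost s (a, b, c)) :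
    PP s K0 y z R U a b c :=
  ⟨h.le, fun h2 => absurd h2 (not_le.mpr h)⟩

/-- The regions. -/
def Kr (K0 : Set E) (y z R : E → E) : ℕ → Set E
  | 0 => K0
  | 1 => y '' K0
  | 2 => z '' K0
  | 3 => (R ∘ y) '' K0
  | 4 => (R ∘ z) '' K0
  | _ => ∅

/-- The centres of the regions. -/
def Kc (e f : E) : ℕ → E
  | 0 => 0
  | 1 => e
  | 2 => -e
  | 3 => f
  | _ => -f

lemma mem_Kr_of_Om {a : E} (ha : a ∈ Om y z R K0) : ∃ i, a ∈ Kr K0 y z R i := by
  simp only [Om, mem_union] at ha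
  rcases ha with (((h | h) | h) | h) | h
  · exact ⟨0, h⟩
  · exact ⟨1, h⟩
  · exact ⟨2, h⟩
  · exact ⟨3, h⟩
  · exact ⟨4, h⟩

lemma dist_bd {a b ca cb : E} {η D : ℝ} (h1 : ‖a - ca‖ ≤ η) (h2 : ‖b - cb‖ ≤ η)
    (h3 : ‖ca - cb‖ ≤ D) : ‖a - b‖ ≤ D + 2 * η := by
  have : a - b = (a - ca) + (ca - cb) - (b - cb) := by abel
  rw [this]
  have t1 := norm_sub_le ((a - ca) + (ca - cb)) (b - cb)
  have t2 := norm_add_le (a - ca) (ca - cb)
  linarith

lemma dist_low {a b ca cb : E} {η D : ℝ} (h1 : ‖a - ca‖ ≤ η) (h2 : ‖b - cb‖ ≤ η)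
    (h3 : D ≤ ‖ca - cb‖) : D - 2 * η ≤ ‖a - b‖ := by
  have : ca - cb = (ca - a) + (a - b) + (b - cb) := by abel
  have t1 := norm_add_le ((ca - a) + (a - b)) (b - cb)
  have t2 := norm_add_le (ca - a) (a - b)
  rw [← this] at t1
  rw [norm_sub_rev ca a] at t2
  linarith

end Bounds

section Main

variable {E : Type*} [NormedAddCommGroup E] [InnerProductSpace ℝ E]

local notation "⟪" x ", " y "⟫" => @inner ℝ _ _ x y

lemma norm_ef_sub {e f : E} (he : ‖e‖ = 1) (hf : ‖f‖ = 1) (hef : ⟪e, f⟫ = 0) :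
    ‖e - f‖ = Real.sqrt 2 := by
  have h := norm_sub_sq_real e f
  rw [he, hf, hef] at h
  rw [eq_comm, Real.sqrt_eq_iff_mul_self_eq_of_pos]
  · nlinarith
  · rw [norm_pos_iff, sub_ne_zero]
    rintro rfl
    rw [real_inner_self_eq_norm_sq, he] at hef
    norm_num at hef

theorem contact_main {s η πv w κ' : ℝ} (hs : 0 < s) (hη : 0 < η) (hη4 : η ≤ 1 / 4) (hκ : 0 < κ')
    {K0 : Set E} {y z R : E → E} {u : E → ℝ} {e f : E}
    (he : ‖e‖ = 1) (hf : ‖f‖ = 1) (hef : ⟪e, f⟫ = 0)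
    (Riso : ∀ a b, ‖R a - R b‖ = ‖a - b‖) (Rinv : ∀ x, R (R x) = x)
    (R0 : R 0 = 0) (Re : R e = f) (Rne : R (-e) = -f) (RK0 : ∀ t ∈ K0, R t ∈ K0)
    (h0 : ∀ t ∈ K0, ‖t‖ ≤ η) (h1 : ∀ t ∈ K0, ‖y t - e‖ ≤ η) (h2 : ∀ t ∈ K0, ‖z t - (-e)‖ ≤ η)
    (uR : ∀ x, u (R x) = u x)
    (u0 : ∀ t ∈ K0, u t ≤ πv) (u1 : ∀ t ∈ K0, u (y t) ≤ w) (u2 : ∀ t ∈ K0, u (z t) ≤ w)
    (p0 : ∀ t ∈ K0, 0 ≤ u t) (p1 : ∀ t ∈ K0, 0 ≤ u (y t)) (p2 : ∀ t ∈ K0, 0 ≤ u (z t))
    (hπ0 : 0 ≤ πv) (hw : 0 ≤ w)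
    (hrep : 3 * (πv + w) < (2 * η) ^ (-s))
    (hPa : πv + 2 * w < 2 * (1 + 2 * η) ^ (-s) + (Real.sqrt 2 + 2 * η) ^ (-s))
    (hAr : w < ((5 : ℝ) / 2) ^ (-s))
    (hc : ∀ t ∈ K0, ∀ a ∈ K0, ∀ t' ∈ K0,
      u a + u (y t) + u (z t') + κ' * (‖a - t‖ ^ 2 + ‖z t' - z t‖ ^ 2) ≤
        ‖a - y t‖ ^ (-s) + ‖a - z t'‖ ^ (-s) + ‖y t - z t'‖ ^ (-s)) :
    (∀ a ∈ Om y z R K0, ∀ b ∈ Om y z R K0, ∀ c ∈ Om y z R K0,
      ENNReal.ofReal (u a) + ENNReal.ofReal (u b) + ENNReal.ofReal (u c) ≤ tripleCost s (a, b, c)) ∧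
    (∀ a ∈ Om y z R K0, ∀ b ∈ Om y z R K0, ∀ c ∈ Om y z R K0,
      tripleCost s (a, b, c) ≤ ENNReal.ofReal (u a) + ENNReal.ofReal (u b) + ENNReal.ofReal (u c) →
      ∃ t ∈ K0, IsPerm a b c t (y t) (z t) ∨ IsPerm a b c (R t) (R (y t)) (R (z t))) := by
  set U : E → ℝ≥0∞ := fun x => ENNReal.ofReal (u x) with hU
  -- norms of the centres
  have hfe : ⟪f, e⟫ = 0 := by rwa [real_inner_comm]
  have hne : ‖-e‖ = 1 := by rw [norm_neg, he]
  have hnf : ‖-f‖ = 1 := by rw [norm_neg, hf]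
  have hK_sub : ∀ i, ∀ a ∈ Kr K0 y z R i, ‖a - Kc e f i‖ ≤ η := by
    intro i a ha
    match i, ha with
    | 0, ha =>
        simpa [Kc] using h0 a ha
    | 1, ⟨t, ht, hta⟩ =>
        subst hta
        exact h1 t ht
    | 2, ⟨t, ht, hta⟩ =>
        subst hta
        exact h2 t ht
    | 3, ⟨t, ht, hta⟩ =>
        subst hta
        show ‖R (y t) - f‖ ≤ η
        rw [← Re, Riso]
        exact h1 t ht
    | 4, ⟨t, ht, hta⟩ =>
        subst hta
        show ‖R (z t) - (-f)‖ ≤ η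
        rw [← Rne, Riso]
        exact h2 t ht
  have hK_bd0 : ∀ a ∈ K0, U a ≤ ENNReal.ofReal πv := fun a ha =>
    ENNReal.ofReal_le_ofReal (u0 a ha)
  have hK_bdA : ∀ i, 1 ≤ i → ∀ a ∈ Kr K0 y z R i, U a ≤ ENNReal.ofReal w := by
    intro i hi a ha
    apply ENNReal.ofReal_le_ofReal
    match i, hi, ha with
    | 1, _, ⟨t, ht, hta⟩ =>
        subst hta
        exact u1 t ht
    | 2, _, ⟨t, ht, hta⟩ =>
        subst hta
        exact u2 t ht
    | 3, _, ⟨t, ht, hta⟩ =>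
        subst hta
        show u (R (y t)) ≤ w
        rw [uR]
        exact u1 t ht
    | 4, _, ⟨t, ht, hta⟩ =>
        subst hta
        show u (R (z t)) ≤ w
        rw [uR]
        exact u2 t ht
  have hK_bd : ∀ i, ∀ a ∈ Kr K0 y z R i, U a ≤ ENNReal.ofReal (πv + w) := by
    intro i a ha
    rcases Nat.eq_zero_or_pos i with rfl | hi
    · refine (hK_bd0 a ha).trans (ENNReal.ofReal_le_ofReal (by linarith))
    · refine (hK_bdA i hi a ha).trans (ENNReal.ofReal_le_ofReal (by linarith))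
  have hsq2 : Real.sqrt 2 > 0 := Real.sqrt_pos.mpr (by norm_num)
  -- the contact case
  have hcontact : ∀ t ∈ K0, ∀ a ∈ K0, ∀ t' ∈ K0,
      U a + U (y t) + U (z t') ≤ tripleCost s (a, y t, z t') ∧
        (tripleCost s (a, y t, z t') ≤ U a + U (y t) + U (z t') → a = t ∧ z t' = z t) := by
    intro t ht a ha t' ht'
    have ha0 : ‖a - (0 : E)‖ ≤ η := by simpa using h0 a ha
    have d1 : (1 : ℝ) - 2 * η ≤ ‖a - y t‖ :=
      dist_low ha0 (h1 t ht) (by simp [he])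
    have d2 : (1 : ℝ) - 2 * η ≤ ‖a - z t'‖ :=
      dist_low ha0 (h2 t' ht') (by simp [he])
    have d3 : (2 : ℝ) - 2 * η ≤ ‖y t - z t'‖ := by
      refine dist_low (h1 t ht) (h2 t' ht') ?_
      rw [sub_neg_eq_add, ← two_smul ℝ e, norm_smul, he]
      norm_num
    have ne1 : a ≠ y t := by
      rw [← sub_ne_zero, ← norm_pos_iff]
      linarith
    have ne2 : a ≠ z t' := by
      rw [← sub_ne_zero, ← norm_pos_iff]
      linarith
    have ne3 : y t ≠ z t' := by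
      rw [← sub_ne_zero, ← norm_pos_iff]
      linarith
    rw [tripleCost_eq ne1 ne2 ne3]
    have hsum : U a + U (y t) + U (z t') = ENNReal.ofReal (u a + u (y t) + u (z t')) := by
      rw [ENNReal.ofReal_add (add_nonneg (p0 a ha) (p1 t ht)) (p2 t' ht'),
        ENNReal.ofReal_add (p0 a ha) (p1 t ht)]
    rw [hsum]
    have hpos : 0 ≤ u a + u (y t) + u (z t') :=
      add_nonneg (add_nonneg (p0 a ha) (p1 t ht)) (p2 t' ht')
    have hk := hc t ht a ha t' ht'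
    have hnn : 0 ≤ κ' * (‖a - t‖ ^ 2 + ‖z t' - z t‖ ^ 2) := by positivity
    constructor
    · apply ENNReal.ofReal_le_ofReal
      linarith
    · intro hle
      rw [ENNReal.ofReal_le_ofReal_iff hpos] at hle
      have h00 : κ' * (‖a - t‖ ^ 2 + ‖z t' - z t‖ ^ 2) ≤ 0 := by linarith
      have h01 : ‖a - t‖ ^ 2 + ‖z t' - z t‖ ^ 2 ≤ 0 := by
        by_contra hne
        have : 0 < ‖a - t‖ ^ 2 + ‖z t' - z t‖ ^ 2 := not_le.mp hne
        have := mul_pos hκ this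
        linarith
      have h02 : ‖a - t‖ ^ 2 = 0 := by
        have := sq_nonneg ‖a - t‖
        have := sq_nonneg ‖z t' - z t‖
        linarith
      have h03 : ‖z t' - z t‖ ^ 2 = 0 := by
        have := sq_nonneg ‖a - t‖
        have := sq_nonneg ‖z t' - z t‖
        linarith
      constructor
      · have := pow_eq_zero_iff (two_ne_zero) |>.mp h02
        exact sub_eq_zero.mp (norm_eq_zero.mp this)
      · have := pow_eq_zero_iff (two_ne_zero) |>.mp h03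
        exact sub_eq_zero.mp (norm_eq_zero.mp this)
  -- the sorted statement
  have hsorted : ∀ i j k, i ≤ j → j ≤ k →
      ∀ a ∈ Kr K0 y z R i, ∀ b ∈ Kr K0 y z R j, ∀ c ∈ Kr K0 y z R k, PP s K0 y z R U a b c := by
    intro i j k hij hjk a ha b hb c hc'
    have hη2 : 0 < 2 * η := by positivity
    have hx : 0 ≤ πv + w := by positivity
    by_cases hij' : i = j
    · subst hij'
      apply PP_of_strict
      refine strict_pair12 hs hx hx hx (hK_bd _ a ha) (hK_bd _ b hb) (hK_bd _ c hc') hη2 ?_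
        (by linarith)
      have := dist_bd (hK_sub i a ha) (hK_sub i b hb) (D := 0) (by simp)
      linarith
    by_cases hjk' : j = k
    · subst hjk'
      apply PP_of_strict
      refine strict_pair23 hs hx hx hx (hK_bd _ a ha) (hK_bd _ b hb) (hK_bd _ c hc') hη2 ?_
        (by linarith)
      have := dist_bd (hK_sub j b hb) (hK_sub j c hc') (D := 0) (by simp)
      linarith
    have hij2 : i < j := lt_of_le_of_ne hij hij'
    have hjk2 : j < k := lt_of_le_of_ne hjk hjk'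
    by_cases hk4 : 5 ≤ k
    · exfalso
      have : Kr K0 y z R k = ∅ := by
        obtain ⟨m, rfl⟩ := Nat.exists_eq_add_of_le' hk4
        rfl
      rw [this] at hc'
      exact hc'
    have hk5 : k < 5 := not_le.mp hk4
    -- general bounds on arms
    have hn1 : (0 : ℝ) < 1 + 2 * η := by positivity
    have h52 : 2 + 2 * η ≤ 5 / 2 := by linarith
    have hcn : ∀ m, 1 ≤ m → ‖Kc e f m‖ = 1 := by
      intro m hm
      match m, hm with
      | 1, _ => exact he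
      | 2, _ => exact hne
      | 3, _ => exact hf
      | (n + 4), _ => exact hnf
    have hcd : ∀ m n, 1 ≤ m → 1 ≤ n → ‖Kc e f m - Kc e f n‖ ≤ 2 := by
      intro m n hm hn
      have := norm_sub_le (Kc e f m) (Kc e f n)
      rw [hcn m hm, hcn n hn] at this
      linarith
    -- three arms
    have three : ∀ i j k, 1 ≤ i → 1 ≤ j → 1 ≤ k → ∀ a ∈ Kr K0 y z R i, ∀ b ∈ Kr K0 y z R j,
        ∀ c ∈ Kr K0 y z R k, PP s K0 y z R U a b c := by
      intro i j k hi hj hk a ha b hb c hc'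
      apply PP_of_strict
      refine strict_of_bounds hs hw hw hw (hK_bdA i hi a ha) (hK_bdA j hj b hb) (hK_bdA k hk c hc')
        (by norm_num : (0 : ℝ) < 5 / 2) (by norm_num : (0 : ℝ) < 5 / 2)
        (by norm_num : (0 : ℝ) < 5 / 2) ?_ ?_ ?_ (by linarith)
      · exact (dist_bd (hK_sub i a ha) (hK_sub j b hb) (hcd i j hi hj)).trans h52
      · exact (dist_bd (hK_sub i a ha) (hK_sub k c hc') (hcd i k hi hk)).trans h52
      · exact (dist_bd (hK_sub j b hb) (hK_sub k c hc') (hcd j k hj hk)).trans h52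
    -- centre and two non antipodal arms
    have two : ∀ i j, 1 ≤ i → 1 ≤ j → ‖Kc e f i - Kc e f j‖ = Real.sqrt 2 →
        ∀ a ∈ K0, ∀ b ∈ Kr K0 y z R i, ∀ c ∈ Kr K0 y z R j, PP s K0 y z R U a b c := by
      intro i j hi hj hd a ha b hb c hc'
      apply PP_of_strict
      have ha0 : ‖a - (0 : E)‖ ≤ η := by simpa using h0 a ha
      refine strict_of_bounds hs hπ0 hw hw (hK_bd0 a ha) (hK_bdA i hi b hb) (hK_bdA j hj c hc')
        hn1 hn1 (by positivity : 0 < Real.sqrt 2 + 2 * η) ?_ ?_ ?_ (by linarith)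
      · exact dist_bd ha0 (hK_sub i b hb) (by
          rw [zero_sub, norm_neg, hcn i hi])
      · exact dist_bd ha0 (hK_sub j c hc') (by
          rw [zero_sub, norm_neg, hcn j hj])
      · exact dist_bd (hK_sub i b hb) (hK_sub j c hc') hd.le
    have hs1 := norm_ef_sub he hf hef
    interval_cases k <;> interval_cases j <;> interval_cases i <;> first | omega | skip
    · -- (0,1,2)
      obtain ⟨t, ht, rfl⟩ := hb
      obtain ⟨t', ht', rfl⟩ := hc'
      have := hcontact t ht a ha t' ht'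
      refine ⟨this.1, fun hle => ?_⟩
      obtain ⟨h3, h4⟩ := this.2 hle
      exact ⟨t, ht, Or.inl (Or.inl ⟨h3, rfl, h4⟩)⟩
    · -- (0,1,3)
      exact two 1 3 (by norm_num) (by norm_num) hs1 a ha b hb c hc'
    · -- (0,2,3)
      refine two 2 3 (by norm_num) (by norm_num) ?_ a ha b hb c hc'
      show ‖-e - f‖ = _
      have : -e - f = -(e + f) := by abel
      rw [this, norm_neg, ← hs1, ← sub_neg_eq_add]
      have h5 := norm_ef_sub (f := -f) he hnf (by rw [inner_neg_right, hef, neg_zero])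
      rw [h5, hs1]
    · -- (1,2,3)
      exact three 1 2 3 (by norm_num) (by norm_num) (by norm_num) a ha b hb c hc'
    · -- (0,1,4)
      refine two 1 4 (by norm_num) (by norm_num) ?_ a ha b hb c hc'
      show ‖e - -f‖ = _
      exact norm_ef_sub (f := -f) he hnf (by rw [inner_neg_right, hef, neg_zero])
    · -- (0,2,4)
      refine two 2 4 (by norm_num) (by norm_num) ?_ a ha b hb c hc'
      show ‖-e - -f‖ = _
      have : -e - -f = f - e := by abel
      rw [this, norm_sub_rev]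
      exact hs1
    · -- (1,2,4)
      exact three 1 2 4 (by norm_num) (by norm_num) (by norm_num) a ha b hb c hc'
    · -- (0,3,4)
      obtain ⟨t, ht, rfl⟩ := hb
      obtain ⟨t', ht', rfl⟩ := hc'
      have hRa := RK0 a ha
      have := hcontact t ht (R a) hRa t' ht'
      have e1 : tripleCost s (R a, y t, z t') = tripleCost s (a, R (y t), R (z t')) := by
        have := cost_R (s := s) Riso (R a) (y t) (z t')
        rw [Rinv] at this
        exact this.symm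
      have e2 : U (R a) = U a := by simp only [hU, uR]
      have e3 : U (R (y t)) = U (y t) := by simp only [hU, uR]
      have e4 : U (R (z t')) = U (z t') := by simp only [hU, uR]
      rw [e1, e2] at this
      refine ⟨?_, fun hle => ?_⟩
      · show U a + U (R (y t)) + U (R (z t')) ≤ _
        rw [e3, e4]
        exact this.1
      · have hle' : tripleCost s (a, R (y t), R (z t')) ≤ U a + U (y t) + U (z t') := by
          rw [← e3, ← e4]
          exact hle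
        obtain ⟨h3, h4⟩ := this.2 hle'
        refine ⟨t, ht, Or.inr (Or.inl ⟨?_, rfl, ?_⟩)⟩
        · rw [← h3, Rinv]
        · show R (z t') = R (z t)
          rw [h4]
    · -- (1,3,4)
      exact three 1 3 4 (by norm_num) (by norm_num) (by norm_num) a ha b hb c hc'
    · -- (2,3,4)
      exact three 2 3 4 (by norm_num) (by norm_num) (by norm_num) a ha b hb c hc'
  -- remove the sorting
  have hall : ∀ i j k, ∀ a ∈ Kr K0 y z R i, ∀ b ∈ Kr K0 y z R j, ∀ c ∈ Kr K0 y z R k,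
      PP s K0 y z R U a b c := by
    apply sort_labels (P := fun i j k => ∀ a ∈ Kr K0 y z R i, ∀ b ∈ Kr K0 y z R j,
      ∀ c ∈ Kr K0 y z R k, PP s K0 y z R U a b c)
    · intro i j k h a ha b hb c hc'
      exact (h b hb a ha c hc').swap
    · intro i j k h a ha b hb c hc'
      exact (h c hc' a ha b hb).cyc
    · intro i j k hij hjk
      exact hsorted i j k hij hjk
  have hOm : ∀ a ∈ Om y z R K0, ∀ b ∈ Om y z R K0, ∀ c ∈ Om y z R K0, PP s K0 y z R U a b c := by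
    intro a ha b hb c hc'
    obtain ⟨i, hi⟩ := mem_Kr_of_Om ha
    obtain ⟨j, hj⟩ := mem_Kr_of_Om hb
    obtain ⟨k, hk⟩ := mem_Kr_of_Om hc'
    exact hall i j k a hi b hj c hk
  exact ⟨fun a ha b hb c hc' => (hOm a ha b hb c hc').1,
    fun a ha b hb c hc' => (hOm a ha b hb c hc').2⟩

end Main

end Crest.Agent.MM
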