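import Mathlib

/-! Local diffeomorphisms, smoothness of the determinant, and pushforward of densities of the form
`ψ²` under a diffeomorphism. -/

set_option autoImplicit false
open MeasureTheory Set Filter Topology
open scoped ENNReal ContDiff

namespace Crest.Agent.MM

section LocalDiffeo

variable {G : Type*} [NormedAddCommGroup G] [NormedSpace ℝ G] [CompleteSpace G]

/-- Inverse function theorem in the form of a `C^∞` diffeomorphism between open sets. -/
lemma exists_local_diffeo {f : G → G} {a : G} (hf : ∀ᶠ x in 𝓝 a, ContDiffAt ℝ ∞ f x)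
    {f' : G ≃L[ℝ] G} (hf' : HasFDerivAt f (f' : G →L[ℝ] G) a) :
    ∃ (U V : Set G) (g : G → G), IsOpen U ∧ IsOpen V ∧ a ∈ U ∧ f a ∈ V ∧ MapsTo f U V ∧
      MapsTo g V U ∧ (∀ x ∈ U, g (f x) = x) ∧ (∀ v ∈ V, f (g v) = v) ∧
      (∀ v ∈ V, ContDiffAt ℝ ∞ g v) ∧ (∀ x ∈ U, ContDiffAt ℝ ∞ f x) ∧
      (∀ x ∈ U, ∃ L : G ≃L[ℝ] G, HasFDerivAt f (L : G →L[ℝ] G) x) := by
  have h0 : ContDiffAt ℝ ∞ f a := hf.self_of_nhds
  have hn : (∞ : WithTop ℕ∞) ≠ 0 := by simp
  let PH := h0.toOpenPartialHomeomorph f hf' hn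
  have hPH : ∀ x, PH x = f x := fun x => rfl
  have ha : a ∈ PH.source := h0.mem_toOpenPartialHomeomorph_source hf' hn
  have hcont : ContinuousAt (fderiv ℝ f) a :=
    (h0.fderiv_right (m := 0) (by simp)).continuousAt
  have hval : fderiv ℝ f a = (f' : G →L[ℝ] G) := hf'.fderiv
  have hr := ContinuousLinearEquiv.nhds (𝕜 := ℝ) f'
  have ev : ∀ᶠ x in 𝓝 a, fderiv ℝ f x ∈ range ((↑) : (G ≃L[ℝ] G) → G →L[ℝ] G) :=
    hcont.eventually (by rw [hval]; exact hr)
  have good : ∀ᶠ x in 𝓝 a, ContDiffAt ℝ ∞ f x ∧ ∃ L : G ≃L[ℝ] G, HasFDerivAt f (L : G →L[ℝ] G) x := by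
    filter_upwards [hf, ev] with x hx hx2
    refine ⟨hx, ?_⟩
    obtain ⟨L, hL⟩ := hx2
    refine ⟨L, ?_⟩
    rw [hL]
    exact (hx.differentiableAt (by simp)).hasFDerivAt
  let S : Set G := {x | ContDiffAt ℝ ∞ f x ∧ ∃ L : G ≃L[ℝ] G, HasFDerivAt f (L : G →L[ℝ] G) x}
  let W : Set G := interior S ∩ PH.source
  have hWo : IsOpen W := isOpen_interior.inter PH.open_source
  have haW : a ∈ W := ⟨mem_interior_iff_mem_nhds.mpr good, ha⟩
  have hWgood : ∀ x ∈ W, ContDiffAt ℝ ∞ f x ∧ ∃ L : G ≃L[ℝ] G, HasFDerivAt f (L : G →L[ℝ] G) x :=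
    fun x hx => (interior_subset hx.1 : x ∈ S)
  refine ⟨W, PH.target ∩ PH.symm ⁻¹' W, PH.symm, hWo, PH.isOpen_inter_preimage_symm hWo, haW, ?_, ?_,
    ?_, ?_, ?_, ?_, ?_, ?_⟩
  · exact ⟨PH.map_source ha, by
      have : PH.symm (PH a) = a := PH.left_inv ha
      show PH.symm (PH a) ∈ W
      rw [this]
      exact haW⟩
  · intro x hx
    refine ⟨PH.map_source hx.2, ?_⟩
    have : PH.symm (PH x) = x := PH.left_inv hx.2
    show PH.symm (PH x) ∈ W
    rw [this]
    exact hx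
  · intro v hv
    exact hv.2
  · intro x hx
    exact PH.left_inv hx.2
  · intro v hv
    exact PH.right_inv hv.1
  · intro v hv
    obtain ⟨hv1, hv2⟩ := hv
    obtain ⟨hs, L, hL⟩ := hWgood _ hv2
    exact PH.contDiffAt_symm hv1 hL hs
  · intro x hx
    exact (hWgood x hx).1
  · intro x hx
    exact (hWgood x hx).2

end LocalDiffeo

section Det

variable {E : Type*} [NormedAddCommGroup E] [NormedSpace ℝ E] [FiniteDimensional ℝ E]

/-- The determinant is smooth. -/
lemma contDiff_det : ContDiff ℝ ∞ (fun A : E →L[ℝ] E => A.det) := by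
  classical
  let b := Module.finBasis ℝ E
  have hentry : ∀ i j, ContDiff ℝ ∞ (fun A : E →L[ℝ] E =>
      LinearMap.toMatrix b b (A : E →ₗ[ℝ] E) i j) := by
    intro i j
    have : (fun A : E →L[ℝ] E => LinearMap.toMatrix b b (A : E →ₗ[ℝ] E) i j) =
        fun A : E →L[ℝ] E => (LinearMap.toContinuousLinearMap (b.coord i)) (A (b j)) := by
      funext A
      simp [LinearMap.toMatrix_apply]
    rw [this]
    exact ContinuousLinearMap.contDiff _ |>.comp
      (ContinuousLinearMap.contDiff (ContinuousLinearMap.apply ℝ E (b j)))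
  have hdet : (fun A : E →L[ℝ] E => A.det) = fun A : E →L[ℝ] E =>
      ∑ σ : Equiv.Perm _, ((Equiv.Perm.sign σ : ℤ) : ℝ) *
        ∏ i, LinearMap.toMatrix b b (A : E →ₗ[ℝ] E) (σ i) i := by
    funext A
    rw [ContinuousLinearMap.det, ← LinearMap.det_toMatrix b, Matrix.det_apply]
    simp [Units.smul_def, zsmul_eq_mul]
  rw [hdet]
  refine ContDiff.sum fun σ _ => contDiff_const.mul ?_
  exact contDiff_prod fun i _ => hentry (σ i) i

end Det

section Push

variable {E : Type*} [NormedAddCommGroup E] [NormedSpace ℝ E] [FiniteDimensional ℝ E]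
  [MeasurableSpace E] [BorelSpace E] {μ : Measure E} [μ.IsAddHaarMeasure]

/-- Pushforward of a density `ψ²` under a diffeomorphism. -/
lemma pushforward_density {f g : E → E} {U V : Set E} (hU : IsOpen U) (hV : IsOpen V)
    (hfm : Measurable f) (hUV : MapsTo f U V) (hVU : MapsTo g V U) (hgf : ∀ x ∈ U, g (f x) = x)
    (hfg : ∀ v ∈ V, f (g v) = v) (hgs : ∀ v ∈ V, ContDiffAt ℝ ∞ g v)
    (hfs : ∀ x ∈ U, ContDiffAt ℝ ∞ f x) {ψ : E → ℝ} (hψ : ContDiff ℝ ∞ ψ) (hψ0 : ∀ x, 0 ≤ ψ x)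
    (hψc : HasCompactSupport ψ) (hψU : tsupport ψ ⊆ U) :
    ∃ ψ' : E → ℝ, ContDiff ℝ ∞ ψ' ∧ (∀ x, 0 ≤ ψ' x) ∧ HasCompactSupport ψ' ∧
      (∀ v, ψ' v ≠ 0 → v ∈ f '' tsupport ψ) ∧
      (μ.withDensity fun x => ENNReal.ofReal (ψ x ^ 2)).map f =
        μ.withDensity fun x => ENNReal.ofReal (ψ' x ^ 2) := by
  classical
  -- the inverse has invertible derivative
  have hdg : ∀ v ∈ V, HasFDerivAt g (fderiv ℝ g v) v := fun v hv =>
    ((hgs v hv).differentiableAt (by simp)).hasFDerivAt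
  have hdet : ∀ v ∈ V, (fderiv ℝ g v).det ≠ 0 := by
    intro v hv
    have h1 := hdg v hv
    have h2 : HasFDerivAt f (fderiv ℝ f (g v)) (g v) :=
      ((hfs _ (hVU hv)).differentiableAt (by simp)).hasFDerivAt
    have h3 : HasFDerivAt (f ∘ g) ((fderiv ℝ f (g v)).comp (fderiv ℝ g v)) v := h2.comp v h1
    have h4 : (f ∘ g) =ᶠ[𝓝 v] id := by
      filter_upwards [hV.mem_nhds hv] with w hw
      exact hfg w hw
    have h5 : HasFDerivAt (f ∘ g) (ContinuousLinearMap.id ℝ E) v :=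
      (hasFDerivAt_id v).congr_of_eventuallyEq h4
    have h6 := h3.unique h5
    intro h0
    have h7 : ((fderiv ℝ f (g v)).comp (fderiv ℝ g v)).det = 1 := by
      rw [h6]
      simp [ContinuousLinearMap.det]
    have h8 : ((fderiv ℝ f (g v)).comp (fderiv ℝ g v)).det =
        (fderiv ℝ f (g v)).det * (fderiv ℝ g v).det := by
      simp only [ContinuousLinearMap.det]
      exact LinearMap.det_comp ((fderiv ℝ f (g v) : E →L[ℝ] E) : E →ₗ[ℝ] E)
        ((fderiv ℝ g v : E →L[ℝ] E) : E →ₗ[ℝ] E)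
    rw [h8, h0, mul_zero] at h7
    exact zero_ne_one h7
  let J : E → ℝ := fun v => |(fderiv ℝ g v).det|
  have hJpos : ∀ v ∈ V, 0 < J v := fun v hv => abs_pos.mpr (hdet v hv)
  have hJsmooth : ∀ v ∈ V, ContDiffAt ℝ ∞ (fun w => Real.sqrt (J w)) v := by
    intro v hv
    have hd : ContDiffAt ℝ ∞ (fun w => (fderiv ℝ g w).det) v :=
      (contDiff_det (E := E)).contDiffAt.comp v ((hgs v hv).fderiv_right (m := ∞) (by simp))
    have hsq : ContDiffAt ℝ ∞ (fun w => ((fderiv ℝ g w).det) ^ 2) v := hd.pow 2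
    have hne : ((fderiv ℝ g v).det) ^ 2 ≠ 0 := pow_ne_zero 2 (hdet v hv)
    have habs : ContDiffAt ℝ ∞ J v := by
      have e : J = fun w => Real.sqrt (((fderiv ℝ g w).det) ^ 2) := by
        funext w
        rw [Real.sqrt_sq_eq_abs]
      rw [e]
      exact hsq.sqrt hne
    exact habs.sqrt (hJpos v hv).ne'
  let ψ' : E → ℝ := fun v => if v ∈ V then ψ (g v) * Real.sqrt (J v) else 0
  have hC : IsCompact (f '' tsupport ψ) :=
    hψc.isCompact.image_of_continuousOn
      (fun x hx => (hfs x (hψU hx)).continuousAt.continuousWithinAt)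
  have hCV : f '' tsupport ψ ⊆ V := by
    rintro _ ⟨x, hx, rfl⟩
    exact hUV (hψU hx)
  have hsupp : ∀ v, ψ' v ≠ 0 → v ∈ f '' tsupport ψ := by
    intro v hv
    by_cases hvV : v ∈ V
    · have h1 : ψ (g v) * Real.sqrt (J v) ≠ 0 := by
        simpa [ψ', hvV] using hv
      have h2 : ψ (g v) ≠ 0 := left_ne_zero_of_mul h1
      exact ⟨g v, subset_tsupport _ h2, hfg v hvV⟩
    · simp [ψ', hvV] at hv
  refine ⟨ψ', ?_, ?_, ?_, hsupp, ?_⟩
  · rw [contDiff_iff_contDiffAt]
    intro v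
    by_cases hvV : v ∈ V
    · have h1 : ContDiffAt ℝ ∞ (fun w => ψ (g w) * Real.sqrt (J w)) v :=
        (hψ.contDiffAt.comp v (hgs v hvV)).mul (hJsmooth v hvV)
      refine h1.congr_of_eventuallyEq ?_
      filter_upwards [hV.mem_nhds hvV] with w hw
      simp [ψ', hw]
    · have hvC : v ∉ f '' tsupport ψ := fun h => hvV (hCV h)
      have : ψ' =ᶠ[𝓝 v] fun _ => (0 : ℝ) := by
        filter_upwards [hC.isClosed.isOpen_compl.mem_nhds hvC] with w hw
        by_contra hne
        exact hw (hsupp w hne)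
      exact contDiffAt_const.congr_of_eventuallyEq this
  · intro v
    by_cases hvV : v ∈ V
    · simp only [ψ', hvV, if_true]
      exact mul_nonneg (hψ0 _) (Real.sqrt_nonneg _)
    · simp [ψ', hvV]
  · refine HasCompactSupport.of_support_subset_isCompact hC ?_
    intro v hv
    exact hsupp v hv
  · ext A hA
    rw [Measure.map_apply hfm hA, withDensity_apply _ (hfm hA), withDensity_apply _ hA]
    -- restrict both sides
    have hVm : MeasurableSet V := hV.measurableSet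
    have hUm : MeasurableSet U := hU.measurableSet
    have hs : MeasurableSet (V ∩ A) := hVm.inter hA
    have himg : g '' (V ∩ A) = U ∩ f ⁻¹' A := by
      ext x
      constructor
      · rintro ⟨v, ⟨hv, hvA⟩, rfl⟩
        refine ⟨hVU hv, ?_⟩
        show f (g v) ∈ A
        rw [hfg v hv]
        exact hvA
      · rintro ⟨hx, hxA⟩
        exact ⟨f x, ⟨hUV hx, hxA⟩, hgf x hx⟩
    have hinj : InjOn g (V ∩ A) := by
      intro a ha b hb hab
      rw [← hfg a ha.1, ← hfg b hb.1, hab]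
    have hcv := lintegral_image_eq_lintegral_abs_det_fderiv_mul μ hs
      (fun v hv => (hdg v hv.1).hasFDerivWithinAt) hinj (fun x => ENNReal.ofReal (ψ x ^ 2))
    rw [himg] at hcv
    have e1 : ∫⁻ x in f ⁻¹' A, ENNReal.ofReal (ψ x ^ 2) ∂μ =
        ∫⁻ x in U ∩ f ⁻¹' A, ENNReal.ofReal (ψ x ^ 2) ∂μ := by
      rw [← lintegral_indicator (hfm hA), ← lintegral_indicator (hUm.inter (hfm hA))]
      congr 1
      funext x
      by_cases hx : x ∈ U
      · by_cases hxA : x ∈ f ⁻¹' A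
        · simp [indicator, hx, hxA]
        · simp [indicator, hxA]
      · have : ψ x = 0 := by
          by_contra hne
          exact hx (hψU (subset_tsupport _ hne))
        simp [indicator, this]
    have e2 : ∫⁻ x in A, ENNReal.ofReal (ψ' x ^ 2) ∂μ =
        ∫⁻ x in V ∩ A, ENNReal.ofReal (ψ' x ^ 2) ∂μ := by
      rw [← lintegral_indicator hA, ← lintegral_indicator hs]
      congr 1
      funext x
      by_cases hx : x ∈ V
      · by_cases hxA : x ∈ A
        · simp [indicator, hx, hxA]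
        · simp [indicator, hxA]
      · simp [indicator, ψ', hx]
    rw [e1, hcv, e2]
    apply setLIntegral_congr_fun hs
    intro v hv
    have hv1 : v ∈ V := hv.1
    have hJ0 : 0 ≤ J v := (hJpos v hv1).le
    simp only [ψ', hv1, if_true]
    rw [← ENNReal.ofReal_mul (abs_nonneg _)]
    congr 1
    rw [mul_pow, Real.sq_sqrt hJ0]
    ring

end Push

end Crest.Agent.MM
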