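import Mathlib
import Crest.Agent.Lib.MM.Abstract
import Crest.Agent.Lib.MM.PushDensity

/-! The density of the marginal: the disjoint pieces have smooth square roots. -/

set_option autoImplicit false
open MeasureTheory Set Metric Filter Topology
open scoped ENNReal ContDiff
open Crest.AnalysisR.OT

namespace Crest.Agent.MM

section Bump

variable {E : Type*} [NormedAddCommGroup E] [InnerProductSpace ℝ E]

/-- A radial bump function. -/
noncomputable def bumpf (δ : ℝ) (x : E) : ℝ := Real.smoothTransition (δ ^ 2 - ‖x‖ ^ 2)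

lemma bumpf_contDiff (δ : ℝ) : ContDiff ℝ ∞ (bumpf δ : E → ℝ) := by
  have h1 : ContDiff ℝ ∞ (fun x : E => δ ^ 2 - ‖x‖ ^ 2) :=
    contDiff_const.sub (contDiff_norm_sq ℝ)
  exact (Real.smoothTransition.contDiff (n := ⊤)).comp h1

lemma bumpf_nonneg (δ : ℝ) (x : E) : 0 ≤ bumpf δ x := Real.smoothTransition.nonneg _

lemma bumpf_eq_zero {δ : ℝ} (hδ : 0 < δ) {x : E} (hx : x ∉ closedBall (0 : E) δ) : bumpf δ x = 0 := by
  apply Real.smoothTransition.zero_of_nonpos
  rw [mem_closedBall_zero_iff, not_le] at hx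
  nlinarith

lemma bumpf_pos {δ : ℝ} (hδ : 0 < δ) {x : E} (hx : x ∈ ball (0 : E) δ) : 0 < bumpf δ x := by
  apply Real.smoothTransition.pos_of_pos
  rw [mem_ball_zero_iff] at hx
  have := norm_nonneg x
  nlinarith

lemma bumpf_tsupport {δ : ℝ} (hδ : 0 < δ) : tsupport (bumpf δ : E → ℝ) ⊆ closedBall (0 : E) δ := by
  apply closure_minimal _ isClosed_closedBall
  intro x hx
  by_contra hn
  exact hx (bumpf_eq_zero hδ hn)

lemma bumpf_compact [FiniteDimensional ℝ E] {δ : ℝ} (hδ : 0 < δ) :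
    HasCompactSupport (bumpf δ : E → ℝ) :=
  HasCompactSupport.of_support_subset_isCompact (isCompact_closedBall 0 δ)
    (subset_tsupport _ |>.trans (bumpf_tsupport hδ))

end Bump

section Measures

variable {E : Type*} [MeasurableSpace E] {μ : Measure E}

lemma map_R_withDensity {R : E → E} (hR : MeasurePreserving R μ μ) (Rinv : ∀ x, R (R x) = x)
    {f : E → ℝ≥0∞} (hf : Measurable f) :
    (μ.withDensity f).map R = μ.withDensity (f ∘ R) := by
  ext A hA
  rw [Measure.map_apply hR.measurable hA, withDensity_apply _ (hR.measurable hA),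
    withDensity_apply _ hA]
  have := hR.setLIntegral_comp_preimage hA (hf.comp hR.measurable)
  simp only [Function.comp_apply, Rinv] at this
  exact this

end Measures

section Dens

variable {E : Type*} [NormedAddCommGroup E] [NormedSpace ℝ E] [FiniteDimensional ℝ E]
  [MeasurableSpace E] [BorelSpace E] {μ : Measure E}

/-- The density of the marginal. -/
theorem density_main {ν : Measure E} {y z : E → E} {R : E → E} (hRc : ContDiff ℝ ∞ R)
    (hRemb : Topology.IsClosedEmbedding R) (hμR : MeasurePreserving R μ μ) (Rinv : ∀ x, R (R x) = x) (my : Measurable y)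
    (mz : Measurable z) {ψ ψy ψz : E → ℝ}
    (s0 : ContDiff ℝ ∞ ψ) (s1 : ContDiff ℝ ∞ ψy) (s2 : ContDiff ℝ ∞ ψz)
    (n0 : ∀ x, 0 ≤ ψ x) (n1 : ∀ x, 0 ≤ ψy x) (n2 : ∀ x, 0 ≤ ψz x)
    (c0 : HasCompactSupport ψ) (c1 : HasCompactSupport ψy) (c2 : HasCompactSupport ψz)
    (hν : ν = μ.withDensity fun x => ENNReal.ofReal (ψ x ^ 2))
    (hy : ν.map y = μ.withDensity fun x => ENNReal.ofReal (ψy x ^ 2))
    (hz : ν.map z = μ.withDensity fun x => ENNReal.ofReal (ψz x ^ 2))
    (h01 : ∀ x, ψ x * ψy x = 0) (h02 : ∀ x, ψ x * ψz x = 0)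
    (h03 : ∀ x, ψ x * ψy (R x) = 0) (h04 : ∀ x, ψ x * ψz (R x) = 0)
    (h12 : ∀ x, ψy x * ψz x = 0) (h13 : ∀ x, ψy x * ψy (R x) = 0)
    (h14 : ∀ x, ψy x * ψz (R x) = 0) (h23 : ∀ x, ψz x * ψy (R x) = 0)
    (h24 : ∀ x, ψz x * ψz (R x) = 0) (h34 : ∀ x, ψy (R x) * ψz (R x) = 0)
    {c : ℝ} (hc : 0 < c) (hcν : ENNReal.ofReal c = (6 * ν univ)⁻¹) :
    ∃ ρ : E → ℝ, (∀ x, 0 ≤ ρ x) ∧ ContDiff ℝ ∞ ρ ∧ HasCompactSupport ρ ∧
      ContDiff ℝ ∞ (fun x => Real.sqrt (ρ x)) ∧
      μ.withDensity (fun x => ENNReal.ofReal (ρ x)) = muOf ν y z R := by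
  let ψ3 : E → ℝ := fun x => ψy (R x)
  let ψ4 : E → ℝ := fun x => ψz (R x)
  have s3 : ContDiff ℝ ∞ ψ3 := s1.comp hRc
  have s4 : ContDiff ℝ ∞ ψ4 := s2.comp hRc
  have c3 : HasCompactSupport ψ3 := c1.comp_isClosedEmbedding hRemb
  have c4 : HasCompactSupport ψ4 := c2.comp_isClosedEmbedding hRemb
  let T : E → ℝ := fun x => Real.sqrt 2 * ψ x + ψy x + ψz x + ψ3 x + ψ4 x
  have sT : ContDiff ℝ ∞ T := ((((contDiff_const.mul s0).add s1).add s2).add s3).add s4
  have cT : HasCompactSupport T :=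
    ((((c0.mul_left).add c1).add c2).add c3).add c4
  have nT : ∀ x, 0 ≤ T x := fun x => by
    have a0 := n0 x
    have a1 := n1 x
    have a2 := n2 x
    have a3 := n1 (R x)
    have a4 := n2 (R x)
    have : 0 ≤ Real.sqrt 2 * ψ x := by positivity
    simp only [T, ψ3, ψ4]
    linarith
  have hT2 : ∀ x, T x ^ 2 = 2 * ψ x ^ 2 + ψy x ^ 2 + ψz x ^ 2 + ψ3 x ^ 2 + ψ4 x ^ 2 := by
    intro x
    have hq : Real.sqrt 2 ^ 2 = 2 := Real.sq_sqrt (by norm_num)
    simp only [T, ψ3, ψ4]
    linear_combination 2 * Real.sqrt 2 * h01 x + 2 * Real.sqrt 2 * h02 x + 2 * Real.sqrt 2 * h03 x +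
      2 * Real.sqrt 2 * h04 x + 2 * h12 x + 2 * h13 x + 2 * h14 x + 2 * h23 x + 2 * h24 x +
      2 * h34 x + ψ x ^ 2 * hq
  refine ⟨fun x => c * T x ^ 2, fun x => by positivity, contDiff_const.mul (sT.pow 2), ?_, ?_, ?_⟩
  · have : HasCompactSupport (fun x => T x ^ 2) := by
      refine cT.mono ?_
      intro x hx h0
      apply hx
      show T x ^ 2 = 0
      rw [h0]
      norm_num
    exact this.mul_left
  · have : (fun x => Real.sqrt (c * T x ^ 2)) = fun x => Real.sqrt c * T x := by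
      funext x
      rw [Real.sqrt_mul hc.le, Real.sqrt_sq (nT x)]
    rw [this]
    exact contDiff_const.mul sT
  · -- identification with the measure
    have m0 : Measurable (fun x => ENNReal.ofReal (ψ x ^ 2)) :=
      (s0.continuous.pow 2).measurable.ennreal_ofReal
    have m1 : Measurable (fun x => ENNReal.ofReal (ψy x ^ 2)) :=
      (s1.continuous.pow 2).measurable.ennreal_ofReal
    have m2 : Measurable (fun x => ENNReal.ofReal (ψz x ^ 2)) :=
      (s2.continuous.pow 2).measurable.ennreal_ofReal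
    have m3 : Measurable (fun x => ENNReal.ofReal (ψ3 x ^ 2)) :=
      (s3.continuous.pow 2).measurable.ennreal_ofReal
    have m4 : Measurable (fun x => ENNReal.ofReal (ψ4 x ^ 2)) :=
      (s4.continuous.pow 2).measurable.ennreal_ofReal
    have e3 : ν.map (R ∘ y) = μ.withDensity fun x => ENNReal.ofReal (ψ3 x ^ 2) := by
      rw [← Measure.map_map hμR.measurable my, hy, map_R_withDensity hμR Rinv m1]
      rfl
    have e4 : ν.map (R ∘ z) = μ.withDensity fun x => ENNReal.ofReal (ψ4 x ^ 2) := by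
      rw [← Measure.map_map hμR.measurable mz, hz, map_R_withDensity hμR Rinv m2]
      rfl
    unfold muOf
    rw [e3, e4, hy, hz, ← hcν, hν]
    rw [← withDensity_add_left m0, ← withDensity_add_left (m0.add m0),
      ← withDensity_add_left ((m0.add m0).add m1),
      ← withDensity_add_left (((m0.add m0).add m1).add m2),
      ← withDensity_add_left ((((m0.add m0).add m1).add m2).add m3),
      ← withDensity_smul _ (((((m0.add m0).add m1).add m2).add m3).add m4)]
    congr 1
    funext x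
    simp only [Pi.add_apply, Pi.smul_apply, smul_eq_mul]
    rw [hT2 x, ENNReal.ofReal_mul hc.le]
    congr 1
    rw [show 2 * ψ x ^ 2 + ψy x ^ 2 + ψz x ^ 2 + ψ3 x ^ 2 + ψ4 x ^ 2 =
      ψ x ^ 2 + ψ x ^ 2 + ψy x ^ 2 + ψz x ^ 2 + ψ3 x ^ 2 + ψ4 x ^ 2 by ring]
    rw [ENNReal.ofReal_add (by positivity) (by positivity),
      ENNReal.ofReal_add (by positivity) (by positivity),
      ENNReal.ofReal_add (by positivity) (by positivity),
      ENNReal.ofReal_add (by positivity) (by positivity),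
      ENNReal.ofReal_add (by positivity) (by positivity)]

end Dens

end Crest.Agent.MM
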