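import Mathlib

/-! The elementary real inequalities: tangent inequality for `‖v‖^(-s)` and the strict convexity
after adding a large concave quadratic potential. -/

set_option autoImplicit false
open Real

namespace Crest.Agent.MM

variable {E : Type*} [NormedAddCommGroup E] [InnerProductSpace ℝ E]

local notation "⟪" x ", " y "⟫" => @inner ℝ _ _ x y

/-- The gradient of `‖v‖^(-s)`. -/
noncomputable def Fs (s : ℝ) (v : E) : E := (-s * (‖v‖ ^ 2) ^ (-s / 2 - 1)) • v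

lemma Fs_neg (s : ℝ) (v : E) : Fs s (-v) = -Fs s v := by
  simp [Fs]

lemma rpow_tangent {t t0 a : ℝ} (ht : 0 < t) (ht0 : 0 < t0) (ha : 0 < a) :
    t0 ^ (-a) - a * t0 ^ (-a - 1) * (t - t0) ≤ t ^ (-a) := by
  have hq : 0 < t / t0 := div_pos ht ht0
  have h1 : (t / t0) ^ (-a) = exp (-a * log (t / t0)) := by
    rw [rpow_def_of_pos hq]
    ring_nf
  have h2 : 1 + -a * log (t / t0) ≤ exp (-a * log (t / t0)) := by
    have := add_one_le_exp (-a * log (t / t0))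
    linarith
  have h3 : log (t / t0) ≤ t / t0 - 1 := log_le_sub_one_of_pos hq
  have h4 : 1 - a * (t / t0 - 1) ≤ (t / t0) ^ (-a) := by
    rw [h1]
    have : a * log (t / t0) ≤ a * (t / t0 - 1) := mul_le_mul_of_nonneg_left h3 ha.le
    linarith
  have h5 : t ^ (-a) = t0 ^ (-a) * (t / t0) ^ (-a) := by
    rw [← mul_rpow ht0.le hq.le]
    congr 1
    field_simp
  have h6 : t0 ^ (-a - 1) = t0 ^ (-a) / t0 := by
    rw [rpow_sub ht0, rpow_one]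
  have hpos : 0 < t0 ^ (-a) := rpow_pos_of_pos ht0 _
  rw [h5, h6]
  have h7 := mul_le_mul_of_nonneg_left h4 hpos.le
  calc t0 ^ (-a) - a * (t0 ^ (-a) / t0) * (t - t0) = t0 ^ (-a) * (1 - a * (t / t0 - 1)) := by
        field_simp
    _ ≤ _ := h7

lemma norm_rpow_eq (s : ℝ) (v : E) : ‖v‖ ^ (-s) = (‖v‖ ^ 2) ^ (-s / 2) := by
  rw [← rpow_natCast, ← rpow_mul (norm_nonneg v)]
  congr 1
  push_cast
  ring

/-- The tangent inequality. -/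
lemma tangent {s : ℝ} (hs : 0 < s) {v w : E} (hv : v ≠ 0) (hw : w ≠ 0) :
    ‖v‖ ^ (-s) + ⟪Fs s v, w - v⟫ - (s / 2) * (‖v‖ ^ 2) ^ (-s / 2 - 1) * ‖w - v‖ ^ 2 ≤ ‖w‖ ^ (-s) := by
  have ht0 : 0 < ‖v‖ ^ 2 := by positivity
  have ht : 0 < ‖w‖ ^ 2 := by positivity
  have ha : 0 < s / 2 := by positivity
  have h := rpow_tangent ht ht0 ha
  have e1 : -(s / 2) = -s / 2 := by ring
  rw [e1] at h
  have e2 : ‖w‖ ^ 2 = ‖v‖ ^ 2 + 2 * ⟪v, w - v⟫ + ‖w - v‖ ^ 2 := by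
    have := norm_add_sq_real v (w - v)
    rwa [add_sub_cancel] at this
  rw [norm_rpow_eq s v, norm_rpow_eq s w]
  have e3 : ⟪Fs s v, w - v⟫ = -s * (‖v‖ ^ 2) ^ (-s / 2 - 1) * ⟪v, w - v⟫ := by
    simp only [Fs, real_inner_smul_left]
  rw [e3]
  rw [e2] at h ⊢
  have e4 : ‖v‖ ^ 2 + 2 * ⟪v, w - v⟫ + ‖w - v‖ ^ 2 - ‖v‖ ^ 2 = 2 * ⟪v, w - v⟫ + ‖w - v‖ ^ 2 := by
    ring
  rw [e4] at h
  calc _ = (‖v‖ ^ 2) ^ (-s / 2) - s / 2 * (‖v‖ ^ 2) ^ (-s / 2 - 1) * (2 * ⟪v, w - v⟫ + ‖w - v‖ ^ 2) := by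
        ring
    _ ≤ _ := h

/-- The constant in the error term. -/
noncomputable def errL (s : ℝ) : ℝ := (s / 2) * (1 / 4 : ℝ) ^ (-s / 2 - 1)

lemma tangent' {s : ℝ} (hs : 0 < s) {v w : E} (hv : 1 / 2 ≤ ‖v‖) (hw : w ≠ 0) :
    ‖v‖ ^ (-s) + ⟪Fs s v, w - v⟫ - errL s * ‖w - v‖ ^ 2 ≤ ‖w‖ ^ (-s) := by
  have hv0 : v ≠ 0 := by
    rintro rfl
    simp at hv
    linarith
  have h := tangent hs hv0 hw
  have h1 : (‖v‖ ^ 2) ^ (-s / 2 - 1) ≤ (1 / 4 : ℝ) ^ (-s / 2 - 1) := by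
    apply rpow_le_rpow_of_nonpos (by norm_num)
    · nlinarith
    · linarith
  have h2 : (s / 2) * (‖v‖ ^ 2) ^ (-s / 2 - 1) * ‖w - v‖ ^ 2 ≤ errL s * ‖w - v‖ ^ 2 := by
    apply mul_le_mul_of_nonneg_right _ (by positivity)
    exact mul_le_mul_of_nonneg_left h1 (by positivity)
  linarith

/-- Strict convexity after adding the concave potentials: the main inequality at a critical
point.  Here `uP x = p - (B/2)‖x‖²`, `u3 z = v0 + ⟪g, z - z0⟫ - (B/2)‖z - z0‖²`. -/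
lemma contact_ineq {s : ℝ} (hs : 0 < s) {x y z x' z' g z0 : E} {B p v0 : ℝ}
    (hxy : 1 / 2 ≤ ‖x - y‖) (hxz : 1 / 2 ≤ ‖x - z‖) (hzy : 1 / 2 ≤ ‖z - y‖)
    (G1 : Fs s (x - y) + Fs s (x - z) + B • x = 0)
    (G2 : Fs s (z - x) + Fs s (z - y) - g + B • (z - z0) = 0)
    (h1 : x' ≠ y) (h2 : x' ≠ z') (h3 : z' ≠ y) :
    (‖x - y‖ ^ (-s) + ‖x - z‖ ^ (-s) + ‖y - z‖ ^ (-s)) -
        (p - (B / 2) * ‖x‖ ^ 2) - (v0 + ⟪g, z - z0⟫ - (B / 2) * ‖z - z0‖ ^ 2) +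
        (B / 2 - 3 * errL s) * (‖x' - x‖ ^ 2 + ‖z' - z‖ ^ 2) ≤
      (‖x' - y‖ ^ (-s) + ‖x' - z'‖ ^ (-s) + ‖y - z'‖ ^ (-s)) -
        (p - (B / 2) * ‖x'‖ ^ 2) - (v0 + ⟪g, z' - z0⟫ - (B / 2) * ‖z' - z0‖ ^ 2) := by
  set a := x' - x with ha
  set b := z' - z with hb
  have T1 := tangent' (v := x - y) (w := x' - y) hs hxy (sub_ne_zero.mpr h1)
  have T2 := tangent' (v := x - z) (w := x' - z') hs hxz (sub_ne_zero.mpr h2)
  have T3 := tangent' (v := z - y) (w := z' - y) hs hzy (sub_ne_zero.mpr h3)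
  have e1 : x' - y - (x - y) = a := by simp [ha]
  have e2 : x' - z' - (x - z) = a - b := by simp only [ha, hb]; abel
  have e3 : z' - y - (z - y) = b := by simp [hb]
  rw [e1] at T1
  rw [e2] at T2
  rw [e3] at T3
  have r1 : ‖y - z‖ = ‖z - y‖ := norm_sub_rev _ _
  have r2 : ‖y - z'‖ = ‖z' - y‖ := norm_sub_rev _ _
  rw [r1, r2]
  -- the gradient identities
  have odd : Fs s (z - x) = -Fs s (x - z) := by
    rw [← Fs_neg, neg_sub]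
  have g1 : Fs s (x - y) + Fs s (x - z) = -(B • x) := by
    rw [eq_neg_iff_add_eq_zero]
    exact G1
  have g2 : Fs s (z - y) = g - B • (z - z0) + Fs s (x - z) := by
    rw [odd] at G2
    have : Fs s (z - y) - (g - B • (z - z0) + Fs s (x - z)) = 0 := by
      rw [← G2]
      abel
    exact sub_eq_zero.mp this
  have lin : ⟪Fs s (x - y), a⟫ + ⟪Fs s (x - z), a - b⟫ + ⟪Fs s (z - y), b⟫ =
      -(B * ⟪x, a⟫) + ⟪g, b⟫ - B * ⟪z - z0, b⟫ := by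
    have i1 : ⟪Fs s (x - z), a - b⟫ = ⟪Fs s (x - z), a⟫ - ⟪Fs s (x - z), b⟫ :=
      inner_sub_right _ _ _
    have i2 : ⟪Fs s (z - y), b⟫ = ⟪g, b⟫ - B * ⟪z - z0, b⟫ + ⟪Fs s (x - z), b⟫ := by
      rw [g2, inner_add_left, inner_sub_left, real_inner_smul_left]
    have : ⟪Fs s (x - y), a⟫ + ⟪Fs s (x - z), a⟫ = -(B * ⟪x, a⟫) := by
      rw [← inner_add_left, g1, inner_neg_left, real_inner_smul_left]
    rw [i1, i2]
    linarith
  -- expansions of the potentials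
  have n1 : ‖x'‖ ^ 2 = ‖x‖ ^ 2 + 2 * ⟪x, a⟫ + ‖a‖ ^ 2 := by
    have := norm_add_sq_real x a
    rwa [show x + a = x' by simp [ha]] at this
  have n2 : ‖z' - z0‖ ^ 2 = ‖z - z0‖ ^ 2 + 2 * ⟪z - z0, b⟫ + ‖b‖ ^ 2 := by
    have := norm_add_sq_real (z - z0) b
    rwa [show z - z0 + b = z' - z0 by simp only [hb]; abel] at this
  have n3 : ⟪g, z' - z0⟫ = ⟪g, z - z0⟫ + ⟪g, b⟫ := by
    rw [← inner_add_right]
    congr 1
    simp only [hb]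
    abel
  have n4 : ‖a - b‖ ^ 2 ≤ 2 * ‖a‖ ^ 2 + 2 * ‖b‖ ^ 2 := by
    have h1 := norm_sub_sq_real a b
    have h2 := norm_add_sq_real a b
    have h3 : 0 ≤ ‖a + b‖ ^ 2 := by positivity
    linarith
  have hL : 0 ≤ errL s := by
    unfold errL
    positivity
  have n5 : errL s * ‖a - b‖ ^ 2 ≤ errL s * (2 * ‖a‖ ^ 2 + 2 * ‖b‖ ^ 2) :=
    mul_le_mul_of_nonneg_left n4 hL
  rw [n1, n2, n3]
  nlinarith [T1, T2, T3, lin, n5]

end Crest.Agent.MM
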