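import Mathlib
import Crest.Agent.Lib.MM.RealIneq
import Crest.Agent.Lib.MM.PushDensity

/-! The implicit function step: the critical equations define smooth arms near the base
configuration `(0, e, -e)`. -/

set_option autoImplicit false
open MeasureTheory Set Filter Topology
open scoped ENNReal ContDiff

namespace Crest.Agent.MM

variable {E : Type*} [NormedAddCommGroup E] [InnerProductSpace ℝ E]

local notation "⟪" x ", " y "⟫" => @inner ℝ _ _ x y

/-- Derivative of `Fs`. -/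
noncomputable def DF (s : ℝ) (v : E) : E →L[ℝ] E :=
  (s * (s + 2) * (‖v‖ ^ 2) ^ (-s / 2 - 2)) • (innerSL ℝ v).smulRight v -
    (s * (‖v‖ ^ 2) ^ (-s / 2 - 1)) • ContinuousLinearMap.id ℝ E

lemma DF_apply (s : ℝ) (v h : E) : DF s v h =
    (s * (s + 2) * (‖v‖ ^ 2) ^ (-s / 2 - 2) * ⟪v, h⟫) • v - (s * (‖v‖ ^ 2) ^ (-s / 2 - 1)) • h := by
  simp [DF, smul_smul]

lemma hasFDerivAt_Fs (s : ℝ) {v : E} (hv : v ≠ 0) : HasFDerivAt (Fs s) (DF s v) v := by
  have ht : ‖v‖ ^ 2 ≠ 0 := by positivity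
  have h1 : HasFDerivAt (fun x : E => ‖x‖ ^ 2) (2 • innerSL ℝ v) v :=
    (hasStrictFDerivAt_norm_sq v).hasFDerivAt
  have h2 := h1.rpow_const (p := -s / 2 - 1) (Or.inl ht)
  have h3 := h2.const_mul (-s)
  have h4 := h3.smul (hasFDerivAt_id v)
  refine HasFDerivAt.congr_fderiv (f := Fs s) h4 ?_
  ext k
  rw [DF_apply]
  have e2 : -s / 2 - 1 - 1 = -s / 2 - 2 := by ring
  rw [e2]
  simp only [add_apply, smul_apply, ContinuousLinearMap.smulRight_apply,
    ContinuousLinearMap.id_apply, id, innerSL_apply_apply, smul_eq_mul, nsmul_eq_mul]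
  have c1 : -s * ((-s / 2 - 1) * (‖v‖ ^ 2) ^ (-s / 2 - 2) * (((2 : ℕ) : ℝ) * ⟪v, k⟫))
      = s * (s + 2) * (‖v‖ ^ 2) ^ (-s / 2 - 2) * ⟪v, k⟫ := by
    push_cast
    ring
  have c2 : -s * (‖v‖ ^ 2) ^ (-s / 2 - 1) = -(s * (‖v‖ ^ 2) ^ (-s / 2 - 1)) := by ring
  rw [c1, c2, neg_smul, add_comm]
  exact (sub_eq_add_neg _ _).symm

lemma contDiffAt_Fs (s : ℝ) {v : E} (hv : v ≠ 0) : ContDiffAt ℝ ∞ (Fs s) v := by
  have ht : ‖v‖ ^ 2 ≠ 0 := by positivity
  have h1 : ContDiffAt ℝ ∞ (fun x : E => ‖x‖ ^ 2) v := (contDiff_norm_sq ℝ).contDiffAt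
  have h2 : ContDiffAt ℝ ∞ (fun x : E => (‖x‖ ^ 2) ^ (-s / 2 - 1)) v := h1.rpow_const_of_ne ht
  exact (contDiffAt_const.mul h2).smul contDiffAt_id

section Base

variable {s : ℝ} {e : E}

/-- The derivative at a unit vector, in terms of `e`. -/
noncomputable def M1 (s : ℝ) (e : E) : E →L[ℝ] E :=
  (s * (s + 2)) • (innerSL ℝ e).smulRight e - s • ContinuousLinearMap.id ℝ E

lemma M1_apply (h : E) : M1 s e h = (s * (s + 2) * ⟪e, h⟫) • e - s • h := by
  simp [M1, smul_smul]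

/-- `κ = 4^(-s/2-1)`. -/
noncomputable def kap (s : ℝ) : ℝ := (4 : ℝ) ^ (-s / 2 - 1)

lemma kap_pos (s : ℝ) : 0 < kap s := Real.rpow_pos_of_pos (by norm_num) _

lemma kap_le_one (hs : 0 < s) : kap s ≤ 1 := by
  apply Real.rpow_le_one_of_one_le_of_nonpos (by norm_num)
  linarith

lemma DF_unit (he : ‖e‖ = 1) (h : E) : DF s e h = M1 s e h := by
  rw [DF_apply, M1_apply, he]
  simp

lemma DF_neg (v h : E) : DF s (-v) h = DF s v h := by
  simp [DF_apply, inner_neg_left, smul_neg, neg_smul]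

lemma DF_two (he : ‖e‖ = 1) (h : E) : DF s (-e - e) h = kap s • M1 s e h := by
  have hn : ‖-e - e‖ ^ 2 = 4 := by
    have : -e - e = (-2 : ℝ) • e := by
      rw [neg_smul, two_smul, neg_add]
      abel
    rw [this, norm_smul, he]
    norm_num
  have hi : ⟪-e - e, h⟫ = -2 * ⟪e, h⟫ := by
    rw [inner_sub_left, inner_neg_left]
    ring
  have hv : -e - e = (-2 : ℝ) • e := by
    rw [neg_smul, two_smul, neg_add]
    abel
  have e2 : (4 : ℝ) ^ (-s / 2 - 2) = kap s / 4 := by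
    unfold kap
    have : -s / 2 - 2 = (-s / 2 - 1) - 1 := by ring
    rw [this, Real.rpow_sub (by norm_num), Real.rpow_one]
  have e3 : (4 : ℝ) ^ (-s / 2 - 1) = kap s := rfl
  rw [DF_apply, M1_apply, hn, hi, e2, e3, hv, smul_smul, smul_sub, smul_smul, smul_smul]
  congr 2
  · ring
  · ring

lemma M1_inj (hs : 0 < s) (he : ‖e‖ = 1) {h : E} (h0 : M1 s e h = 0) : h = 0 := by
  rw [M1_apply, sub_eq_zero] at h0
  have h1 : ⟪e, (s * (s + 2) * ⟪e, h⟫) • e⟫ = ⟪e, s • h⟫ := by rw [h0]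
  rw [real_inner_smul_right, real_inner_smul_right, real_inner_self_eq_norm_sq, he] at h1
  have h2 : s * (s + 1) * ⟪e, h⟫ = 0 := by nlinarith
  have h3 : s * (s + 1) ≠ 0 := by positivity
  have h4 : ⟪e, h⟫ = 0 := by
    rcases mul_eq_zero.mp h2 with h | h
    · exact absurd h h3
    · exact h
  rw [h4] at h0
  simp only [mul_zero, zero_smul] at h0
  have h5 : s • h = 0 := h0.symm
  rcases smul_eq_zero.mp h5 with h6 | h6
  · exact absurd h6 hs.ne'
  · exact h6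

lemma M1_bound (hs : 0 < s) (he : ‖e‖ = 1) (h : E) : ‖M1 s e h‖ ≤ s * (s + 3) * ‖h‖ := by
  rw [M1_apply]
  have h1 : ‖(s * (s + 2) * ⟪e, h⟫) • e‖ ≤ s * (s + 2) * ‖h‖ := by
    rw [norm_smul, he, mul_one, Real.norm_eq_abs, abs_mul, abs_of_pos (by positivity : 0 < s * (s + 2))]
    apply mul_le_mul_of_nonneg_left _ (by positivity)
    have := abs_real_inner_le_norm e h
    rwa [he, one_mul] at this
  have h2 : ‖s • h‖ = s * ‖h‖ := by
    rw [norm_smul, Real.norm_eq_abs, abs_of_pos hs]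
  calc _ ≤ ‖(s * (s + 2) * ⟪e, h⟫) • e‖ + ‖s • h‖ := norm_sub_le _ _
    _ ≤ _ := by rw [h2]; nlinarith

/-- Conditions on the large constant. -/
structure BigB (s B : ℝ) : Prop where
  pos : 0 < B
  b1 : 3 * (s * (s + 3)) < B
  b2 : 2 * (s * (s + 3)) < kap s * B
  b3 : 3 * errL s < B / 2

/-- The linearized system at the base point has only trivial solutions with one component zero. -/
lemma sys_x (hs : 0 < s) (he : ‖e‖ = 1) {B : ℝ} (hB : BigB s B) {hy hz : E}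
    (A1 : M1 s e (0 - hy) + M1 s e (0 - hz) + B • (0 : E) = 0)
    (A2 : M1 s e (hz - 0) + kap s • M1 s e (hz - hy) + B • hz = 0) : hy = 0 ∧ hz = 0 := by
  have h1 : M1 s e (hy + hz) = 0 := by
    have : M1 s e (hy + hz) = -(M1 s e (0 - hy) + M1 s e (0 - hz) + B • (0 : E)) := by
      simp only [zero_sub, map_neg, map_add, smul_zero, add_zero]
      abel
    rw [this, A1, neg_zero]
  have h2 : hy + hz = 0 := M1_inj hs he h1
  have hy' : hy = -hz := eq_neg_of_add_eq_zero_left h2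
  subst hy'
  have h3 : hz - -hz = (2 : ℝ) • hz := by
    rw [two_smul, sub_neg_eq_add]
  rw [h3, sub_zero, map_smul] at A2
  have hk := kap_pos s
  have hk1 := kap_le_one hs
  have h4 : B • hz = -(M1 s e hz + kap s • (2 : ℝ) • M1 s e hz) := by
    rw [eq_neg_iff_add_eq_zero, add_comm]
    exact A2
  have h5 : B * ‖hz‖ ≤ 3 * (s * (s + 3)) * ‖hz‖ := by
    have e1 : ‖B • hz‖ = B * ‖hz‖ := by
      rw [norm_smul, Real.norm_eq_abs, abs_of_pos hB.pos]
    have e2 : ‖kap s • (2 : ℝ) • M1 s e hz‖ = kap s * (2 * ‖M1 s e hz‖) := by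
      rw [norm_smul, norm_smul, Real.norm_eq_abs, abs_of_pos hk]
      norm_num
    have b := M1_bound hs he hz
    have hnn := norm_nonneg (M1 s e hz)
    calc B * ‖hz‖ = ‖B • hz‖ := e1.symm
      _ = ‖M1 s e hz + kap s • (2 : ℝ) • M1 s e hz‖ := by rw [h4, norm_neg]
      _ ≤ ‖M1 s e hz‖ + kap s * (2 * ‖M1 s e hz‖) := by
          rw [← e2]; exact norm_add_le _ _
      _ ≤ ‖M1 s e hz‖ + 1 * (2 * ‖M1 s e hz‖) := by
          gcongr
      _ = 3 * ‖M1 s e hz‖ := by ring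
      _ ≤ 3 * (s * (s + 3) * ‖hz‖) := by gcongr
      _ = _ := by ring
  have hz0 : hz = 0 := by
    by_contra hne
    have hp : 0 < ‖hz‖ := norm_pos_iff.mpr hne
    have := le_of_mul_le_mul_right h5 hp
    linarith [hB.b1]
  subst hz0
  simp

lemma sys_y (hs : 0 < s) (he : ‖e‖ = 1) {B : ℝ} (hB : BigB s B) {hx hz : E}
    (A1 : M1 s e (hx - 0) + M1 s e (hx - hz) + B • hx = 0)
    (A2 : M1 s e (hz - hx) + kap s • M1 s e (hz - 0) + B • hz = 0) : hx = 0 ∧ hz = 0 := by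
  have hk := kap_pos s
  have hk1 := kap_le_one hs
  set L := s * (s + 3) with hL
  have hL0 : 0 ≤ L := by positivity
  have bd : ∀ w : E, ‖M1 s e w‖ ≤ L * ‖w‖ := fun w => M1_bound hs he w
  have e1 : B * ‖hx‖ ≤ L * (2 * ‖hx‖ + ‖hz‖) := by
    have h4 : B • hx = -(M1 s e (hx - 0) + M1 s e (hx - hz)) := by
      rw [eq_neg_iff_add_eq_zero, add_comm]
      exact A1
    have n1 : ‖B • hx‖ = B * ‖hx‖ := by
      rw [norm_smul, Real.norm_eq_abs, abs_of_pos hB.pos]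
    rw [← n1, h4, norm_neg]
    have b1 := bd (hx - 0)
    have b2 := bd (hx - hz)
    rw [sub_zero] at b1 ⊢
    have t1 := norm_add_le (M1 s e hx) (M1 s e (hx - hz))
    have t2 := norm_sub_le hx hz
    have t3 : L * ‖hx - hz‖ ≤ L * (‖hx‖ + ‖hz‖) := mul_le_mul_of_nonneg_left t2 hL0
    nlinarith
  have e2 : B * ‖hz‖ ≤ L * (‖hx‖ + 2 * ‖hz‖) := by
    have h4 : B • hz = -(M1 s e (hz - hx) + kap s • M1 s e (hz - 0)) := by
      rw [eq_neg_iff_add_eq_zero, add_comm]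
      exact A2
    have n1 : ‖B • hz‖ = B * ‖hz‖ := by
      rw [norm_smul, Real.norm_eq_abs, abs_of_pos hB.pos]
    rw [← n1, h4, norm_neg]
    have b1 := bd (hz - 0)
    have b2 := bd (hz - hx)
    rw [sub_zero] at b1 ⊢
    have t1 := norm_add_le (M1 s e (hz - hx)) (kap s • M1 s e hz)
    have t2 := norm_sub_le hz hx
    have t3 : L * ‖hz - hx‖ ≤ L * (‖hz‖ + ‖hx‖) := mul_le_mul_of_nonneg_left t2 hL0
    have t4 : ‖kap s • M1 s e hz‖ ≤ 1 * ‖M1 s e hz‖ := by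
      rw [norm_smul, Real.norm_eq_abs, abs_of_pos hk]
      exact mul_le_mul_of_nonneg_right hk1 (norm_nonneg _)
    nlinarith
  have hsum : B * (‖hx‖ + ‖hz‖) ≤ 3 * L * (‖hx‖ + ‖hz‖) := by nlinarith
  have hb1 := hB.b1
  have hzero : ‖hx‖ + ‖hz‖ = 0 := by
    by_contra hne
    have hp : 0 < ‖hx‖ + ‖hz‖ :=
      lt_of_le_of_ne (add_nonneg (norm_nonneg _) (norm_nonneg _)) (Ne.symm hne)
    have := le_of_mul_le_mul_right hsum hp
    linarith
  have n1 := norm_nonneg hx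
  have n2 := norm_nonneg hz
  constructor
  · exact norm_eq_zero.mp (by linarith)
  · exact norm_eq_zero.mp (by linarith)

lemma sys_z (hs : 0 < s) (he : ‖e‖ = 1) {B : ℝ} (hB : BigB s B) {hx hy : E}
    (A1 : M1 s e (hx - hy) + M1 s e (hx - 0) + B • hx = 0)
    (A2 : M1 s e (0 - hx) + kap s • M1 s e (0 - hy) + B • (0 : E) = 0) : hx = 0 ∧ hy = 0 := by
  have hk := kap_pos s
  have hk1 := kap_le_one hs
  -- M1 (hx + κ hy) = 0
  have h1 : M1 s e (hx + kap s • hy) = 0 := by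
    have : M1 s e (hx + kap s • hy) = -(M1 s e (0 - hx) + kap s • M1 s e (0 - hy) + B • (0 : E)) := by
      simp only [zero_sub, map_neg, map_add, map_smul, smul_zero, add_zero, smul_neg]
      abel
    rw [this, A2, neg_zero]
  have h2 : hx + kap s • hy = 0 := M1_inj hs he h1
  have hx' : hx = -(kap s • hy) := eq_neg_of_add_eq_zero_left h2
  subst hx'
  -- substitute in the first equation
  have e1 : -(kap s • hy) - hy = -((kap s + 1) • hy) := by
    rw [add_smul, one_smul, neg_add]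
    abel
  rw [e1, sub_zero, map_neg, map_neg, map_smul, map_smul, smul_neg] at A1
  -- (1 + 2κ) M1 hy + κ B hy = 0
  have h3 : (kap s * B) • hy = -((1 + 2 * kap s) • M1 s e hy) := by
    have h30 : (kap s * B) • hy = B • kap s • hy := by
      rw [mul_comm, mul_smul]
    have h31 : (1 + 2 * kap s) • M1 s e hy = (kap s + 1) • M1 s e hy + kap s • M1 s e hy := by
      rw [← add_smul]
      congr 1
      ring
    rw [h30, h31]
    rw [eq_neg_iff_add_eq_zero]
    have h33 : B • kap s • hy + ((kap s + 1) • M1 s e hy + kap s • M1 s e hy) =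
        -(-((kap s + 1) • M1 s e hy) + -(kap s • M1 s e hy) + -(B • kap s • hy)) := by abel
    rw [h33, A1, neg_zero]
  have h4 : kap s * B * ‖hy‖ ≤ 2 * (s * (s + 3)) * ‖hy‖ := by
    have n1 : ‖(kap s * B) • hy‖ = kap s * B * ‖hy‖ := by
      rw [norm_smul, Real.norm_eq_abs, abs_of_pos (mul_pos hk hB.pos)]
    have n2 : ‖(1 + 2 * kap s) • M1 s e hy‖ = (1 + 2 * kap s) * ‖M1 s e hy‖ := by
      rw [norm_smul, Real.norm_eq_abs, abs_of_pos (by positivity)]
    rw [← n1, h3, norm_neg, n2]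
    have b := M1_bound hs he hy
    have hnn := norm_nonneg (M1 s e hy)
    have hn3 : 0 ≤ s * (s + 3) * ‖hy‖ := by positivity
    -- use (1 + 2κ) ≤ 2 after noticing κ ≤ 1/4
    have hk2 : kap s ≤ 1 / 4 := by
      unfold kap
      have : (4 : ℝ) ^ (-s / 2 - 1) ≤ (4 : ℝ) ^ (-1 : ℝ) :=
        Real.rpow_le_rpow_of_exponent_le (by norm_num) (by linarith)
      calc _ ≤ (4 : ℝ) ^ (-1 : ℝ) := this
        _ = 1 / 4 := by
          rw [Real.rpow_neg_one]
          norm_num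
    have hk3 : 1 + 2 * kap s ≤ 2 := by linarith
    calc (1 + 2 * kap s) * ‖M1 s e hy‖ ≤ 2 * ‖M1 s e hy‖ :=
          mul_le_mul_of_nonneg_right hk3 hnn
      _ ≤ 2 * (s * (s + 3) * ‖hy‖) := by gcongr
      _ = _ := by ring
  have hy0 : hy = 0 := by
    by_contra hne
    have hp : 0 < ‖hy‖ := norm_pos_iff.mpr hne
    have := le_of_mul_le_mul_right h4 hp
    linarith [hB.b2]
  subst hy0
  simp

end Base

section Arms

variable [FiniteDimensional ℝ E] {s B : ℝ} {e : E}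

/-- The map whose zero set gives the arms. -/
noncomputable def Theta (s B : ℝ) (e : E) (p : E × E × E) : E × E × E :=
  (p.1, Fs s (p.1 - p.2.1) + Fs s (p.1 - p.2.2) + B • p.1,
    Fs s (p.2.2 - p.1) + Fs s (p.2.2 - p.2.1) - (Fs s (-e - 0) + Fs s (-e - e)) + B • (p.2.2 - (-e)))

lemma contDiffAt_Theta (p : E × E × E) (h1 : p.1 - p.2.1 ≠ 0) (h2 : p.1 - p.2.2 ≠ 0)
    (h3 : p.2.2 - p.2.1 ≠ 0) : ContDiffAt ℝ ∞ (Theta s B e) p := by
  have hX : ContDiffAt ℝ ∞ (fun q : E × E × E => q.1) p := contDiffAt_fst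
  have hY : ContDiffAt ℝ ∞ (fun q : E × E × E => q.2.1) p := contDiffAt_fst.comp p contDiffAt_snd
  have hZ : ContDiffAt ℝ ∞ (fun q : E × E × E => q.2.2) p := contDiffAt_snd.comp p contDiffAt_snd
  have f1 : ContDiffAt ℝ ∞ (fun q : E × E × E => Fs s (q.1 - q.2.1)) p :=
    ContDiffAt.comp (g := Fs s) p (contDiffAt_Fs s h1) (hX.sub hY)
  have f2 : ContDiffAt ℝ ∞ (fun q : E × E × E => Fs s (q.1 - q.2.2)) p :=
    ContDiffAt.comp (g := Fs s) p (contDiffAt_Fs s h2) (hX.sub hZ)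
  have h2' : p.2.2 - p.1 ≠ 0 := fun h => h2 (by
    rw [← neg_sub, h, neg_zero])
  have f3 : ContDiffAt ℝ ∞ (fun q : E × E × E => Fs s (q.2.2 - q.1)) p :=
    ContDiffAt.comp (g := Fs s) p (contDiffAt_Fs s h2') (hZ.sub hX)
  have f4 : ContDiffAt ℝ ∞ (fun q : E × E × E => Fs s (q.2.2 - q.2.1)) p :=
    ContDiffAt.comp (g := Fs s) p (contDiffAt_Fs s h3) (hZ.sub hY)
  refine ContDiffAt.prodMk hX (ContDiffAt.prodMk ?_ ?_)
  · exact (f1.add f2).add (contDiffAt_const.smul hX)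
  · exact ((f3.add f4).sub contDiffAt_const).add (contDiffAt_const.smul (hZ.sub contDiffAt_const))

/-- Coordinate projections. -/
noncomputable def pX : (E × E × E) →L[ℝ] E := ContinuousLinearMap.fst ℝ E (E × E)
noncomputable def pY : (E × E × E) →L[ℝ] E :=
  (ContinuousLinearMap.fst ℝ E E).comp (ContinuousLinearMap.snd ℝ E (E × E))
noncomputable def pZ : (E × E × E) →L[ℝ] E :=
  (ContinuousLinearMap.snd ℝ E E).comp (ContinuousLinearMap.snd ℝ E (E × E))

@[simp] lemma pX_apply (p : E × E × E) : pX p = p.1 := rfl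
@[simp] lemma pY_apply (p : E × E × E) : pY p = p.2.1 := rfl
@[simp] lemma pZ_apply (p : E × E × E) : pZ p = p.2.2 := rfl

/-- Derivative of `Theta`. -/
noncomputable def DTheta (s B : ℝ) (p : E × E × E) : (E × E × E) →L[ℝ] (E × E × E) :=
  (pX : (E × E × E) →L[ℝ] E).prod
    (((DF s (p.1 - p.2.1)).comp (pX - pY) + (DF s (p.1 - p.2.2)).comp (pX - pZ) + B • pX).prod
      ((DF s (p.2.2 - p.1)).comp (pZ - pX) + (DF s (p.2.2 - p.2.1)).comp (pZ - pY) + B • pZ))

lemma hasFDerivAt_Theta (p : E × E × E) (h1 : p.1 - p.2.1 ≠ 0) (h2 : p.1 - p.2.2 ≠ 0)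
    (h3 : p.2.2 - p.2.1 ≠ 0) : HasFDerivAt (Theta s B e) (DTheta s B p) p := by
  have hX : HasFDerivAt (fun q : E × E × E => q.1) (pX : (E × E × E) →L[ℝ] E) p :=
    (pX : (E × E × E) →L[ℝ] E).hasFDerivAt
  have hY : HasFDerivAt (fun q : E × E × E => q.2.1) (pY : (E × E × E) →L[ℝ] E) p :=
    (pY : (E × E × E) →L[ℝ] E).hasFDerivAt
  have hZ : HasFDerivAt (fun q : E × E × E => q.2.2) (pZ : (E × E × E) →L[ℝ] E) p :=
    (pZ : (E × E × E) →L[ℝ] E).hasFDerivAt
  have h2' : p.2.2 - p.1 ≠ 0 := fun h => h2 (by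
    rw [← neg_sub, h, neg_zero])
  have f1 : HasFDerivAt (fun q : E × E × E => Fs s (q.1 - q.2.1))
      ((DF s (p.1 - p.2.1)).comp (pX - pY)) p :=
    HasFDerivAt.comp (g := Fs s) p (hasFDerivAt_Fs s h1) (hX.sub hY)
  have f2 : HasFDerivAt (fun q : E × E × E => Fs s (q.1 - q.2.2))
      ((DF s (p.1 - p.2.2)).comp (pX - pZ)) p :=
    HasFDerivAt.comp (g := Fs s) p (hasFDerivAt_Fs s h2) (hX.sub hZ)
  have f3 : HasFDerivAt (fun q : E × E × E => Fs s (q.2.2 - q.1))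
      ((DF s (p.2.2 - p.1)).comp (pZ - pX)) p :=
    HasFDerivAt.comp (g := Fs s) p (hasFDerivAt_Fs s h2') (hZ.sub hX)
  have f4 : HasFDerivAt (fun q : E × E × E => Fs s (q.2.2 - q.2.1))
      ((DF s (p.2.2 - p.2.1)).comp (pZ - pY)) p :=
    HasFDerivAt.comp (g := Fs s) p (hasFDerivAt_Fs s h3) (hZ.sub hY)
  refine HasFDerivAt.prodMk hX (HasFDerivAt.prodMk ?_ ?_)
  · exact (f1.add f2).add (hX.const_smul B)
  · have g1 : HasFDerivAt (fun q : E × E × E => q.2.2 - (-e)) (pZ : (E × E × E) →L[ℝ] E) p :=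
      hZ.sub_const _
    have g2 := ((f3.add f4).sub_const (Fs s (-e - 0) + Fs s (-e - e))).add (g1.const_smul B)
    exact g2

/-- The base point. -/
def b0 (e : E) : E × E × E := (0, e, -e)

lemma Theta_b0 (he : ‖e‖ = 1) : Theta s B e (b0 e) = 0 := by
  have he0 : e ≠ 0 := by
    intro h
    rw [h, norm_zero] at he
    exact zero_ne_one he
  simp only [Theta, b0]
  refine Prod.ext rfl (Prod.ext ?_ ?_)
  · show Fs s (0 - e) + Fs s (0 - -e) + B • (0 : E) = 0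
    rw [smul_zero, add_zero, zero_sub, zero_sub, neg_neg, Fs_neg]
    simp
  · show Fs s (-e - 0) + Fs s (-e - e) - (Fs s (-e - 0) + Fs s (-e - e)) + B • (-e - -e) = 0
    simp

lemma DTheta_b0_apply (he : ‖e‖ = 1) (q : E × E × E) : DTheta s B (b0 e) q =
    (q.1, M1 s e (q.1 - q.2.1) + M1 s e (q.1 - q.2.2) + B • q.1,
      M1 s e (q.2.2 - q.1) + kap s • M1 s e (q.2.2 - q.2.1) + B • q.2.2) := by
  have he' : ‖-e‖ = 1 := by rw [norm_neg, he]
  refine Prod.ext rfl (Prod.ext ?_ ?_)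
  · show DF s (0 - e) (q.1 - q.2.1) + DF s (0 - -e) (q.1 - q.2.2) + B • q.1 = _
    rw [zero_sub, zero_sub, neg_neg, DF_neg, DF_unit he, DF_unit he]
  · show DF s (-e - 0) (q.2.2 - q.1) + DF s (-e - e) (q.2.2 - q.2.1) + B • q.2.2 = _
    rw [sub_zero, DF_neg, DF_unit he, DF_two he]

lemma DTheta_b0_inj (hs : 0 < s) (he : ‖e‖ = 1) (hB : BigB s B) :
    Function.Injective (DTheta s B (b0 e)) := by
  rw [injective_iff_map_eq_zero]
  intro q hq
  rw [DTheta_b0_apply he] at hq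
  obtain ⟨hq1, hq2, hq3⟩ := (Prod.ext_iff.mp hq).1, (Prod.ext_iff.mp (Prod.ext_iff.mp hq).2).1,
    (Prod.ext_iff.mp (Prod.ext_iff.mp hq).2).2
  obtain ⟨x, y, z⟩ := q
  simp only at hq1 hq2 hq3
  change x = 0 at hq1
  subst hq1
  have := sys_x hs he hB hq2 (by simpa using hq3)
  rw [this.1, this.2]
  rfl

/-- The arms given by the implicit function theorem. -/
theorem exists_arms (hs : 0 < s) (he : ‖e‖ = 1) (hB : BigB s B) :
    ∃ (W0 : Set E) (Y Z : E → E), IsOpen W0 ∧ (0 : E) ∈ W0 ∧ Y 0 = e ∧ Z 0 = -e ∧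
      (∀ x ∈ W0, ContDiffAt ℝ ∞ Y x) ∧ (∀ x ∈ W0, ContDiffAt ℝ ∞ Z x) ∧
      (∀ x ∈ W0, Fs s (x - Y x) + Fs s (x - Z x) + B • x = 0) ∧
      (∀ x ∈ W0, Fs s (Z x - x) + Fs s (Z x - Y x) - (Fs s (-e - 0) + Fs s (-e - e)) +
        B • (Z x - (-e)) = 0) ∧
      (∃ L : E ≃L[ℝ] E, HasFDerivAt Y (L : E →L[ℝ] E) 0) ∧
      (∃ L : E ≃L[ℝ] E, HasFDerivAt Z (L : E →L[ℝ] E) 0) := by
  classical
  have he0 : e ≠ 0 := by
    intro h
    rw [h, norm_zero] at he
    exact zero_ne_one he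
  have hb1 : (b0 e).1 - (b0 e).2.1 ≠ 0 := by
    simp [b0, he0]
  have hb2 : (b0 e).1 - (b0 e).2.2 ≠ 0 := by
    simp [b0, he0]
  have hb3 : (b0 e).2.2 - (b0 e).2.1 ≠ 0 := by
    simp only [b0]
    intro h
    have : (-e) = e := sub_eq_zero.mp h
    have h2 : (2 : ℝ) • e = 0 := by
      rw [two_smul]
      nth_rewrite 1 [← this]
      simp
    rcases smul_eq_zero.mp h2 with h3 | h3
    · norm_num at h3
    · exact he0 h3
  -- smoothness nearby
  have hev : ∀ᶠ p in 𝓝 (b0 e), ContDiffAt ℝ ∞ (Theta s B e) p := by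
    have o1 : IsOpen {p : E × E × E | p.1 - p.2.1 ≠ 0} :=
      isOpen_ne_fun (by fun_prop) continuous_const
    have o2 : IsOpen {p : E × E × E | p.1 - p.2.2 ≠ 0} :=
      isOpen_ne_fun (by fun_prop) continuous_const
    have o3 : IsOpen {p : E × E × E | p.2.2 - p.2.1 ≠ 0} :=
      isOpen_ne_fun (by fun_prop) continuous_const
    filter_upwards [o1.mem_nhds hb1, o2.mem_nhds hb2, o3.mem_nhds hb3] with p h1 h2 h3
    exact contDiffAt_Theta p h1 h2 h3
  -- invertible derivative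
  let Dlin : (E × E × E) →ₗ[ℝ] (E × E × E) := (DTheta s B (b0 e)).toLinearMap
  have hDinj : Function.Injective Dlin := DTheta_b0_inj hs he hB
  let Deq : (E × E × E) ≃L[ℝ] (E × E × E) :=
    (LinearEquiv.ofInjectiveEndo Dlin hDinj).toContinuousLinearEquiv
  have hDeq : (Deq : (E × E × E) →L[ℝ] (E × E × E)) = DTheta s B (b0 e) := by
    refine ContinuousLinearMap.ext fun q => ?_
    show (LinearEquiv.ofInjectiveEndo Dlin hDinj) q = _
    rfl
  have hT : HasFDerivAt (Theta s B e) (Deq : (E × E × E) →L[ℝ] (E × E × E)) (b0 e) := by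
    rw [hDeq]
    exact hasFDerivAt_Theta _ hb1 hb2 hb3
  obtain ⟨U, V, G, hU, hV, hbU, hbV, hTUV, hGVU, hGT, hTG, hGsm, -, -⟩ :=
    exists_local_diffeo hev hT
  rw [Theta_b0 he] at hbV
  have hinj : Continuous (fun x : E => ((x, 0, 0) : E × E × E)) := by fun_prop
  have hG0 : G 0 = b0 e := by
    have := hGT _ hbU
    rwa [Theta_b0 he] at this
  have hcomp : ∀ x : E, ((x, 0, 0) : E × E × E) ∈ V → G (x, 0, 0) = (x, (G (x, 0, 0)).2.1, (G (x, 0, 0)).2.2) := by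
    intro x hx
    have h := hTG _ hx
    have h1 : (G (x, 0, 0)).1 = x := (Prod.ext_iff.mp h).1
    exact Prod.ext h1 rfl
  -- derivative of G at 0
  have hG0sm := hGsm 0 hbV
  have hGdiff : HasFDerivAt G (fderiv ℝ G 0) (0 : E × E × E) :=
    (hG0sm.differentiableAt (by simp)).hasFDerivAt
  set A := fderiv ℝ G (0 : E × E × E) with hA
  have hcomp2 : ∀ q, DTheta s B (b0 e) (A q) = q := by
    intro q
    have h1 : HasFDerivAt (Theta s B e ∘ G) ((DTheta s B (b0 e)).comp A) (0 : E × E × E) := by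
      have : HasFDerivAt (Theta s B e) (DTheta s B (b0 e)) (G 0) := by
        rw [hG0]
        exact hasFDerivAt_Theta _ hb1 hb2 hb3
      exact this.comp _ hGdiff
    have h2 : HasFDerivAt (Theta s B e ∘ G) (ContinuousLinearMap.id ℝ (E × E × E)) (0 : E × E × E) := by
      apply (hasFDerivAt_id (0 : E × E × E)).congr_of_eventuallyEq
      filter_upwards [hV.mem_nhds hbV] with v hv
      exact hTG v hv
    have h3 := h1.unique h2
    have := DFunLike.congr_fun h3 q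
    simpa using this
  -- the candidate derivative maps
  let J0 : E →L[ℝ] E × E × E := A.comp (ContinuousLinearMap.inl ℝ E (E × E))
  let J1 : E →L[ℝ] E := (pY : (E × E × E) →L[ℝ] E).comp J0
  let J2 : E →L[ℝ] E := (pZ : (E × E × E) →L[ℝ] E).comp J0
  have hJ : ∀ h : E, (A (h, 0, 0)).1 = h ∧
      M1 s e (h - J1 h) + M1 s e (h - J2 h) + B • h = 0 ∧
      M1 s e (J2 h - h) + kap s • M1 s e (J2 h - J1 h) + B • J2 h = 0 := by
    intro h
    have h0 := hcomp2 (h, 0, 0)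
    rw [DTheta_b0_apply he] at h0
    have h1 : (A (h, 0, 0)).1 = h := (Prod.ext_iff.mp h0).1
    have h2 := (Prod.ext_iff.mp (Prod.ext_iff.mp h0).2).1
    have h3 := (Prod.ext_iff.mp (Prod.ext_iff.mp h0).2).2
    simp only [h1] at h2 h3
    exact ⟨h1, h2, h3⟩
  have hJ1inj : Function.Injective J1 := by
    rw [injective_iff_map_eq_zero]
    intro h h0
    obtain ⟨-, a1, a2⟩ := hJ h
    rw [h0] at a1 a2
    exact (sys_y hs he hB a1 a2).1
  have hJ2inj : Function.Injective J2 := by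
    rw [injective_iff_map_eq_zero]
    intro h h0
    obtain ⟨-, a1, a2⟩ := hJ h
    rw [h0] at a1 a2
    rw [add_comm (M1 s e (h - J1 h))] at a1
    exact (sys_z hs he hB (by rwa [add_comm (M1 s e (h - J1 h))]) (by
      rw [smul_zero, add_zero] at a2 ⊢
      exact a2)).1
  let L1 : E ≃L[ℝ] E :=
    (LinearEquiv.ofInjectiveEndo J1.toLinearMap hJ1inj).toContinuousLinearEquiv
  let L2 : E ≃L[ℝ] E :=
    (LinearEquiv.ofInjectiveEndo J2.toLinearMap hJ2inj).toContinuousLinearEquiv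
  have hL1 : (L1 : E →L[ℝ] E) = J1 := by
    refine ContinuousLinearMap.ext fun q => ?_
    rfl
  have hL2 : (L2 : E →L[ℝ] E) = J2 := by
    refine ContinuousLinearMap.ext fun q => ?_
    rfl
  have hincl : HasFDerivAt (fun x : E => ((x, 0, 0) : E × E × E))
      (ContinuousLinearMap.inl ℝ E (E × E)) 0 :=
    (ContinuousLinearMap.inl ℝ E (E × E)).hasFDerivAt
  have hGinc : HasFDerivAt (fun x : E => G (x, 0, 0)) J0 0 := by
    have : HasFDerivAt G A ((fun x : E => ((x, 0, 0) : E × E × E)) 0) := hGdiff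
    exact this.comp (0 : E) hincl
  refine ⟨(fun x : E => ((x, 0, 0) : E × E × E)) ⁻¹' V, fun x => (G (x, 0, 0)).2.1,
    fun x => (G (x, 0, 0)).2.2, hV.preimage hinj, hbV, ?_, ?_, ?_, ?_, ?_, ?_, ?_, ?_⟩
  · show (G 0).2.1 = e
    rw [hG0]
    rfl
  · show (G 0).2.2 = -e
    rw [hG0]
    rfl
  · intro x hx
    have : ContDiffAt ℝ ∞ (fun x : E => G (x, 0, 0)) x :=
      ContDiffAt.comp x (hGsm _ hx) (contDiffAt_id.prodMk contDiffAt_const)
    exact (contDiffAt_fst.comp x (contDiffAt_snd.comp x this))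
  · intro x hx
    have : ContDiffAt ℝ ∞ (fun x : E => G (x, 0, 0)) x :=
      ContDiffAt.comp x (hGsm _ hx) (contDiffAt_id.prodMk contDiffAt_const)
    exact (contDiffAt_snd.comp x (contDiffAt_snd.comp x this))
  · intro x hx
    have h := hTG _ hx
    have h1 : (G (x, 0, 0)).1 = x := (Prod.ext_iff.mp h).1
    have h2 := (Prod.ext_iff.mp (Prod.ext_iff.mp h).2).1
    simp only [Theta, h1] at h2
    exact h2
  · intro x hx
    have h := hTG _ hx
    have h1 : (G (x, 0, 0)).1 = x := (Prod.ext_iff.mp h).1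
    have h2 := (Prod.ext_iff.mp (Prod.ext_iff.mp h).2).2
    simp only [Theta, h1] at h2
    exact h2
  · refine ⟨L1, ?_⟩
    rw [hL1]
    exact (pY : (E × E × E) →L[ℝ] E).hasFDerivAt.comp (0 : E) hGinc
  · refine ⟨L2, ?_⟩
    rw [hL2]
    exact (pZ : (E × E × E) →L[ℝ] E).hasFDerivAt.comp (0 : E) hGinc

end Arms

end Crest.Agent.MM
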