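import Mathlib
import Crest.Agent.Lib.MM.Contact
import Crest.Agent.Lib.MM.Implicit

/-! Construction of the potential and of the `Sys` structure from the arms. -/

set_option autoImplicit false
open MeasureTheory Set Metric
open scoped ENNReal
open Crest.AnalysisR.OT

namespace Crest.Agent.MM

variable {E : Type*} [NormedAddCommGroup E] [InnerProductSpace ℝ E]

local notation "⟪" x ", " y "⟫" => @inner ℝ _ _ x y

/-- Real cost. -/
noncomputable def cR (s : ℝ) (a b c : E) : ℝ := ‖a - b‖ ^ (-s) + ‖a - c‖ ^ (-s) + ‖b - c‖ ^ (-s)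

/-- Potential on the centre. -/
noncomputable def uP (πv B : ℝ) (x : E) : ℝ := πv - (B / 2) * ‖x‖ ^ 2

/-- Potential on the arm near `-e`. -/
noncomputable def u3 (v B : ℝ) (g e : E) (x : E) : ℝ :=
  v + ⟪g, x - (-e)⟫ - (B / 2) * ‖x - (-e)‖ ^ 2

/-- Potential on the arm near `e`, as a function of the parameter. -/
noncomputable def ut (s πv v B : ℝ) (g e : E) (y z : E → E) (t : E) : ℝ :=
  cR s t (y t) (z t) - uP πv B t - u3 v B g e (z t)

/-- The potential on the arms near `±e`. -/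
noncomputable def wf (s πv v B : ℝ) (g e : E) (y z g1 : E → E) (K0 : Set E) (x : E) : ℝ :=
  (y '' K0).indicator (fun a => ut s πv v B g e y z (g1 a)) x +
    (z '' K0).indicator (u3 v B g e) x

/-- The potential. -/
noncomputable def uu (s πv v B : ℝ) (g e : E) (y z g1 R : E → E) (K0 : Set E) (x : E) : ℝ :=
  K0.indicator (uP πv B) x + wf s πv v B g e y z g1 K0 x + wf s πv v B g e y z g1 K0 (R x)

omit [InnerProductSpace ℝ E] in
lemma far {a ca cb : E} {η : ℝ} (hη : η ≤ 1 / 4) (h1 : ‖a - ca‖ ≤ η) (h2 : ‖a - cb‖ ≤ η)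
    (h3 : 1 / 2 < ‖ca - cb‖) : False := by
  have h4 : ca - cb = (ca - a) + (a - cb) := by abel
  have h5 := norm_add_le (ca - a) (a - cb)
  rw [← h4, norm_sub_rev ca a] at h5
  linarith

lemma indicator_le_of {α : Type*} {K : Set α} {f : α → ℝ} {M : ℝ} (hM : 0 ≤ M)
    (h : ∀ x ∈ K, f x ≤ M) (x : α) : K.indicator f x ≤ M := by
  by_cases hx : x ∈ K
  · rw [indicator_of_mem hx]
    exact h x hx
  · rw [indicator_of_notMem hx]
    exact hM

lemma near_lemma {K0 : Set E} (hK : IsCompact K0) {h : E × E × E → ℝ}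
    (hc : ContinuousOn h (K0 ×ˢ K0 ×ˢ K0)) (h0 : ∀ t ∈ K0, h (t, t, t) = 0) {ε : ℝ} (hε : 0 < ε) :
    ∃ τ : ℝ, 0 < τ ∧ ∀ t ∈ K0, ∀ t' ∈ K0, ∀ t'' ∈ K0, dist t t' ≤ τ → dist t t'' ≤ τ →
      h (t, t', t'') ≤ ε := by
  have hKK : IsCompact (K0 ×ˢ K0 ×ˢ K0) := hK.prod (hK.prod hK)
  have huc := hKK.uniformContinuousOn_of_continuous hc
  rw [Metric.uniformContinuousOn_iff] at huc
  obtain ⟨d, hd, hd2⟩ := huc ε hε
  refine ⟨d / 2, by positivity, ?_⟩
  intro t ht t' ht' t'' ht'' h1 h2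
  have hm1 : (t, t', t'') ∈ K0 ×ˢ K0 ×ˢ K0 := ⟨ht, ht', ht''⟩
  have hm2 : (t, t, t) ∈ K0 ×ˢ K0 ×ˢ K0 := ⟨ht, ht, ht⟩
  have hdist : dist (t, t', t'') (t, t, t) < d := by
    rw [Prod.dist_eq, Prod.dist_eq]
    simp only [dist_self]
    have h3 : dist t' t ≤ d / 2 := by rwa [dist_comm]
    have h4 : dist t'' t ≤ d / 2 := by rwa [dist_comm]
    apply max_lt (by positivity)
    apply max_lt <;> linarith
  have := hd2 _ hm1 _ hm2 hdist
  rw [h0 t ht, Real.dist_eq, sub_zero] at this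
  exact (le_abs_self _).trans this.le

section Build

variable [MeasurableSpace E] [BorelSpace E] [FiniteDimensional ℝ E]

theorem build_sys {ν : Measure E} {s B η δ πv v w : ℝ} {e f g : E} {y z g1 R : E → E}
    (hs : 0 < s) (hB : BigB s B) (hδ : 0 < δ) (hδη : δ ≤ η) (hη4 : η ≤ 1 / 4)
    (he : ‖e‖ = 1) (hf : ‖f‖ = 1) (hef : ⟪e, f⟫ = 0)
    (Riso : ∀ a b, ‖R a - R b‖ = ‖a - b‖) (Rinv : ∀ x, R (R x) = x)
    (R0 : R 0 = 0) (Re : R e = f) (Rne : R (-e) = -f)
    (hw : 0 ≤ w) (hπ : 0 ≤ πv)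
    (hrep : 3 * (πv + w) < (2 * η) ^ (-s))
    (hPa : πv + 2 * w < 2 * (1 + 2 * η) ^ (-s) + (Real.sqrt 2 + 2 * η) ^ (-s))
    (hAr : w < ((5 : ℝ) / 2) ^ (-s))
    (my : Measurable y) (mz : Measurable z)
    (cy : ContinuousOn y (closedBall 0 δ)) (cz : ContinuousOn z (closedBall 0 δ))
    (hg1 : ∀ t ∈ closedBall (0 : E) δ, g1 (y t) = t)
    (cg1 : ContinuousOn g1 (y '' closedBall 0 δ))
    (iz : InjOn z (closedBall 0 δ))
    (by' : ∀ t ∈ closedBall (0 : E) δ, ‖y t - e‖ ≤ η)
    (bz : ∀ t ∈ closedBall (0 : E) δ, ‖z t - (-e)‖ ≤ η)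
    (G1 : ∀ t ∈ closedBall (0 : E) δ, Fs s (t - y t) + Fs s (t - z t) + B • t = 0)
    (G2 : ∀ t ∈ closedBall (0 : E) δ, Fs s (z t - t) + Fs s (z t - y t) - g + B • (z t - (-e)) = 0)
    (pP : ∀ t ∈ closedBall (0 : E) δ, 0 ≤ uP πv B t)
    (pt : ∀ t ∈ closedBall (0 : E) δ, 0 ≤ ut s πv v B g e y z t)
    (pt' : ∀ t ∈ closedBall (0 : E) δ, ut s πv v B g e y z t ≤ w)
    (p3 : ∀ t ∈ closedBall (0 : E) δ, 0 ≤ u3 v B g e (z t))
    (p3' : ∀ t ∈ closedBall (0 : E) δ, u3 v B g e (z t) ≤ w)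
    (finν : IsFiniteMeasure ν) (nullν : NullSingletonClass ν) (posν : ν univ ≠ 0)
    (concν : ν (closedBall 0 δ)ᶜ = 0) (Rν : ν.map R = ν) :
    ∃ (U : E → ℝ≥0∞) (lab : E → ℕ), Sys s ν y z R (closedBall 0 δ) U lab := by
  set K0 : Set E := closedBall 0 δ with hK0
  have hη : 0 < η := lt_of_lt_of_le hδ hδη
  have hBpos := hB.pos
  have hκ : 0 < B / 2 - 3 * errL s := by
    have := hB.b3
    linarith
  have h0 : ∀ t ∈ K0, ‖t‖ ≤ η := fun t ht => (mem_closedBall_zero_iff.mp ht).trans hδη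
  have h0' : ∀ t ∈ K0, ‖t - (0 : E)‖ ≤ η := fun t ht => by simpa using h0 t ht
  have hRn : ∀ x, ‖R x‖ = ‖x‖ := fun x => by
    have := Riso x 0
    rwa [R0, sub_zero, sub_zero] at this
  have RK0 : ∀ t ∈ K0, R t ∈ K0 := fun t ht => by
    rw [hK0, mem_closedBall_zero_iff, hRn]
    exact mem_closedBall_zero_iff.mp ht
  have hne : ‖-e‖ = 1 := by rw [norm_neg, he]
  have hnf : ‖-f‖ = 1 := by rw [norm_neg, hf]
  have hs1 : ‖e - f‖ = Real.sqrt 2 := norm_ef_sub he hf hef
  have hs2 : ‖e - -f‖ = Real.sqrt 2 :=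
    norm_ef_sub he hnf (by rw [inner_neg_right, hef, neg_zero])
  have hs3 : ‖-e - f‖ = Real.sqrt 2 := by
    have : -e - f = -(e - -f) := by abel
    rw [this, norm_neg, hs2]
  have hs4 : ‖-e - -f‖ = Real.sqrt 2 := by
    have : -e - -f = -(e - f) := by abel
    rw [this, norm_neg, hs1]
  have hsq : (1 : ℝ) < Real.sqrt 2 := by
    rw [show (1 : ℝ) = Real.sqrt 1 by simp]
    exact Real.sqrt_lt_sqrt (by norm_num) (by norm_num)
  have he2 : ‖e - -e‖ = 2 := by
    rw [sub_neg_eq_add, ← two_smul ℝ e, norm_smul, he]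
    norm_num
  -- separation of the regions
  have Ry : ∀ t ∈ K0, ‖R (y t) - f‖ ≤ η := fun t ht => by
    rw [← Re, Riso]
    exact by' t ht
  have Rz : ∀ t ∈ K0, ‖R (z t) - (-f)‖ ≤ η := fun t ht => by
    rw [← Rne, Riso]
    exact bz t ht
  have s01 : ∀ t ∈ K0, ∀ t' ∈ K0, t ≠ y t' := by
    rintro t ht t' ht' rfl
    exact far hη4 (h0' _ ht) (by' t' ht') (by simp [he]; norm_num)
  have s02 : ∀ t ∈ K0, ∀ t' ∈ K0, t ≠ z t' := by
    rintro t ht t' ht' rfl
    exact far hη4 (h0' _ ht) (bz t' ht') (by simp [he]; norm_num)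
  have s12 : ∀ t ∈ K0, ∀ t' ∈ K0, y t ≠ z t' := by
    intro t ht t' ht' h
    exact far hη4 (by' t ht) (h ▸ bz t' ht') (by rw [he2]; norm_num)
  have s13 : ∀ t ∈ K0, ∀ t' ∈ K0, y t ≠ R (y t') := by
    intro t ht t' ht' h
    exact far hη4 (by' t ht) (h ▸ Ry t' ht') (by rw [hs1]; linarith)
  have s14 : ∀ t ∈ K0, ∀ t' ∈ K0, y t ≠ R (z t') := by
    intro t ht t' ht' h
    exact far hη4 (by' t ht) (h ▸ Rz t' ht') (by rw [hs2]; linarith)
  have s23 : ∀ t ∈ K0, ∀ t' ∈ K0, z t ≠ R (y t') := by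
    intro t ht t' ht' h
    exact far hη4 (bz t ht) (h ▸ Ry t' ht') (by rw [hs3]; linarith)
  have s24 : ∀ t ∈ K0, ∀ t' ∈ K0, z t ≠ R (z t') := by
    intro t ht t' ht' h
    exact far hη4 (bz t ht) (h ▸ Rz t' ht') (by rw [hs4]; linarith)
  set u := uu s πv v B g e y z g1 R K0 with hu
  have nm1 : ∀ {a}, a ∈ K0 → a ∉ y '' K0 := by
    rintro a ha ⟨t', ht', rfl⟩
    exact s01 _ ha _ ht' rfl
  have nm2 : ∀ {a}, a ∈ K0 → a ∉ z '' K0 := by
    rintro a ha ⟨t', ht', rfl⟩
    exact s02 _ ha _ ht' rfl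
  have uu0 : ∀ a ∈ K0, u a = uP πv B a := by
    intro a ha
    simp only [hu, uu, wf]
    rw [indicator_of_mem ha, indicator_of_notMem (nm1 ha), indicator_of_notMem (nm2 ha),
      indicator_of_notMem (nm1 (RK0 a ha)), indicator_of_notMem (nm2 (RK0 a ha))]
    simp
  have uu1 : ∀ t ∈ K0, u (y t) = ut s πv v B g e y z t := by
    intro t ht
    simp only [hu, uu, wf]
    have a1 : y t ∉ K0 := fun h => s01 _ h t ht rfl
    have a2 : y t ∉ z '' K0 := by
      rintro ⟨t', ht', h⟩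
      exact s12 t ht t' ht' h.symm
    have a3 : R (y t) ∉ y '' K0 := by
      rintro ⟨t', ht', h⟩
      exact s13 t' ht' t ht h
    have a4 : R (y t) ∉ z '' K0 := by
      rintro ⟨t', ht', h⟩
      exact s23 t' ht' t ht h
    rw [indicator_of_notMem a1, indicator_of_mem (mem_image_of_mem y ht), indicator_of_notMem a2,
      indicator_of_notMem a3, indicator_of_notMem a4, hg1 t ht]
    simp
  have uu2 : ∀ t ∈ K0, u (z t) = u3 v B g e (z t) := by
    intro t ht
    simp only [hu, uu, wf]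
    have a1 : z t ∉ K0 := fun h => s02 _ h t ht rfl
    have a2 : z t ∉ y '' K0 := by
      rintro ⟨t', ht', h⟩
      exact s12 t' ht' t ht h
    have a3 : R (z t) ∉ y '' K0 := by
      rintro ⟨t', ht', h⟩
      exact s14 t' ht' t ht h
    have a4 : R (z t) ∉ z '' K0 := by
      rintro ⟨t', ht', h⟩
      exact s24 t' ht' t ht h
    rw [indicator_of_notMem a1, indicator_of_notMem a2, indicator_of_mem (mem_image_of_mem z ht),
      indicator_of_notMem a3, indicator_of_notMem a4]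
    simp
  have uuR : ∀ x, u (R x) = u x := by
    intro x
    simp only [hu, uu]
    rw [Rinv]
    have : K0.indicator (uP πv B) (R x) = K0.indicator (uP πv B) x := by
      have hmem : R x ∈ K0 ↔ x ∈ K0 := by
        constructor
        · intro h
          have := RK0 _ h
          rwa [Rinv] at this
        · exact RK0 x
      by_cases hx : x ∈ K0
      · rw [indicator_of_mem hx, indicator_of_mem (hmem.mpr hx)]
        simp only [uP, hRn]
      · rw [indicator_of_notMem hx, indicator_of_notMem (fun h => hx (hmem.mp h))]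
    rw [this]
    ring
  have hnK0 : IsCompact K0 := isCompact_closedBall _ _
  have hcK1 : IsCompact (y '' K0) := hnK0.image_of_continuousOn cy
  have hcK2 : IsCompact (z '' K0) := hnK0.image_of_continuousOn cz
  -- continuity
  have cR1 : ∀ {f1 f2 : E × E × E → E} {S : Set (E × E × E)}, ContinuousOn f1 S → ContinuousOn f2 S →
      (∀ p ∈ S, f1 p ≠ f2 p) → ContinuousOn (fun p => ‖f1 p - f2 p‖ ^ (-s)) S := by
    intro f1 f2 S h1 h2 hne
    refine (h1.sub h2).norm.rpow_const fun p hp => Or.inl ?_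
    exact (norm_pos_iff.mpr (sub_ne_zero.mpr (hne p hp))).ne'
  have cu3 : Continuous (u3 v B g e) := by
    unfold u3
    fun_prop
  have cuP : Continuous (uP πv B : E → ℝ) := by
    unfold uP
    fun_prop
  have cut : ContinuousOn (ut s πv v B g e y z) K0 := by
    unfold ut cR
    have hid : ContinuousOn (fun t : E => t) K0 := continuousOn_id
    have a1 : ContinuousOn (fun t : E => ‖t - y t‖ ^ (-s)) K0 := by
      refine (hid.sub cy).norm.rpow_const fun p hp => Or.inl ?_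
      exact (norm_pos_iff.mpr (sub_ne_zero.mpr (s01 p hp p hp))).ne'
    have a2 : ContinuousOn (fun t : E => ‖t - z t‖ ^ (-s)) K0 := by
      refine (hid.sub cz).norm.rpow_const fun p hp => Or.inl ?_
      exact (norm_pos_iff.mpr (sub_ne_zero.mpr (s02 p hp p hp))).ne'
    have a3 : ContinuousOn (fun t : E => ‖y t - z t‖ ^ (-s)) K0 := by
      refine (cy.sub cz).norm.rpow_const fun p hp => Or.inl ?_
      exact (norm_pos_iff.mpr (sub_ne_zero.mpr (s12 p hp p hp))).ne'
    exact ((a1.add a2).add a3).sub (cuP.continuousOn) |>.sub (cu3.comp_continuousOn cz)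
  have mwf : Measurable (wf s πv v B g e y z g1 K0) := by
    have m1 : Measurable ((y '' K0).indicator (fun a => ut s πv v B g e y z (g1 a))) := by
      have hm : MeasurableSet (y '' K0) := hcK1.isClosed.measurableSet
      have hc : ContinuousOn (fun a => ut s πv v B g e y z (g1 a)) (y '' K0) := by
        refine cut.comp cg1 ?_
        rintro _ ⟨t, ht, rfl⟩
        rw [hg1 t ht]
        exact ht
      classical
      have := hc.measurable_piecewise (g := (0 : E → ℝ)) continuousOn_const hm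
      rwa [piecewise_eq_indicator] at this
    have m2 : Measurable ((z '' K0).indicator (u3 v B g e)) :=
      cu3.measurable.indicator hcK2.isClosed.measurableSet
    exact m1.add m2
  have cRR : Continuous R := (Isometry.of_dist_eq fun a b => by
    rw [dist_eq_norm, dist_eq_norm, Riso]).continuous
  have mu : Measurable u := by
    have m0 : Measurable (K0.indicator (uP πv B)) :=
      cuP.measurable.indicator isClosed_closedBall.measurableSet
    exact (m0.add mwf).add (mwf.comp cRR.measurable)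
  -- the bound of the potential
  have hπ0 : ∀ x, K0.indicator (uP πv B) x ≤ πv := by
    refine fun x => indicator_le_of hπ (fun t _ => ?_) x
    simp only [uP]
    have : 0 ≤ B / 2 * ‖t‖ ^ 2 := by positivity
    linarith
  have hwf : ∀ x, wf s πv v B g e y z g1 K0 x ≤ w + w := by
    intro x
    refine add_le_add (indicator_le_of hw ?_ x) (indicator_le_of hw ?_ x)
    · rintro _ ⟨t, ht, rfl⟩
      show ut s πv v B g e y z (g1 (y t)) ≤ w
      rw [hg1 t ht]
      exact pt' t ht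
    · rintro _ ⟨t, ht, rfl⟩
      exact p3' t ht
  have hcont := contact_main (u := u) (y := y) (z := z) (R := R) (K0 := K0) (κ' := B / 2 - 3 * errL s)
    (πv := πv) (w := w) (η := η) hs hη hη4 hκ he hf hef Riso Rinv R0 Re Rne RK0 h0 by' bz uuR
    (fun t ht => by
      rw [uu0 t ht]
      simp only [uP]
      have : 0 ≤ B / 2 * ‖t‖ ^ 2 := by positivity
      linarith)
    (fun t ht => by rw [uu1 t ht]; exact pt' t ht)
    (fun t ht => by rw [uu2 t ht]; exact p3' t ht)
    (fun t ht => by rw [uu0 t ht]; exact pP t ht)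
    (fun t ht => by rw [uu1 t ht]; exact pt t ht)
    (fun t ht => by rw [uu2 t ht]; exact p3 t ht)
    hπ hw hrep hPa hAr
    (fun t ht a ha t' ht' => by
      rw [uu0 a ha, uu1 t ht, uu2 t' ht']
      have d1 : 1 / 2 ≤ ‖t - y t‖ := by
        have := dist_low (h0' t ht) (by' t ht) (D := 1) (by simp [he])
        linarith
      have d2 : 1 / 2 ≤ ‖t - z t‖ := by
        have := dist_low (h0' t ht) (bz t ht) (D := 1) (by simp [he])
        linarith
      have d3 : 1 / 2 ≤ ‖z t - y t‖ := by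
        have := dist_low (by' t ht) (bz t ht) (D := 2) (by rw [he2])
        rw [norm_sub_rev]
        linarith
      have key := contact_ineq (x := t) (y := y t) (z := z t) (x' := a) (z' := z t') (g := g)
        (z0 := -e) (B := B) (p := πv) (v0 := v) hs d1 d2 d3 (G1 t ht) (G2 t ht)
        (s01 a ha t ht) (s02 a ha t' ht') (s12 t ht t' ht').symm
      simp only [ut, cR, uP, u3]
      linarith)
  refine ⟨fun x => ENNReal.ofReal (u x), fun x =>
    if ‖x‖ ≤ η then 0 else if ‖x - e‖ ≤ η then 1 else if ‖x - (-e)‖ ≤ η then 2 else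
      if ‖x - f‖ ≤ η then 3 else 4, ?_⟩
  have hlab1 : ∀ a, ‖a - e‖ ≤ η → ¬ ‖a‖ ≤ η := fun a h1 h2 =>
    far hη4 (by simpa using h2 : ‖a - 0‖ ≤ η) h1 (by simp [he]; norm_num)
  have hlab2 : ∀ a, ‖a - (-e)‖ ≤ η → ¬ ‖a‖ ≤ η := fun a h1 h2 =>
    far hη4 (by simpa using h2 : ‖a - 0‖ ≤ η) h1 (by simp [he]; norm_num)
  have hlab3 : ∀ a, ‖a - f‖ ≤ η → ¬ ‖a‖ ≤ η := fun a h1 h2 =>
    far hη4 (by simpa using h2 : ‖a - 0‖ ≤ η) h1 (by simp [hf]; norm_num)
  have hlab4 : ∀ a, ‖a - (-f)‖ ≤ η → ¬ ‖a‖ ≤ η := fun a h1 h2 =>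
    far hη4 (by simpa using h2 : ‖a - 0‖ ≤ η) h1 (by simp [hf]; norm_num)
  refine
    { finν := finν
      nullν := nullν
      posν := posν
      mK0 := isClosed_closedBall.measurableSet
      concν := concν
      my := my
      mz := mz
      Rinv := Rinv
      Riso := Riso
      Rν := Rν
      RK0 := RK0
      cy := cy
      cz := cz
      iy := fun a ha b hb h => by rw [← hg1 a ha, h, hg1 b hb]
      iz := iz
      lab0 := fun t ht => by
        show (if ‖t‖ ≤ η then 0 else _) = 0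
        rw [if_pos (h0 t ht)]
      lab1 := fun t ht => by
        show (if ‖y t‖ ≤ η then 0 else if ‖y t - e‖ ≤ η then 1 else _) = 1
        rw [if_neg (hlab1 _ (by' t ht)), if_pos (by' t ht)]
      lab2 := fun t ht => by
        show (if ‖z t‖ ≤ η then 0 else if ‖z t - e‖ ≤ η then 1 else if ‖z t - (-e)‖ ≤ η then 2
          else _) = 2
        rw [if_neg (hlab2 _ (bz t ht)), if_neg (fun h => far hη4 h (bz t ht) (by rw [he2]; norm_num)),
          if_pos (bz t ht)]
      lab3 := fun t ht => by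
        show (if ‖R (y t)‖ ≤ η then 0 else if ‖R (y t) - e‖ ≤ η then 1 else
          if ‖R (y t) - (-e)‖ ≤ η then 2 else if ‖R (y t) - f‖ ≤ η then 3 else 4) = 3
        rw [if_neg (hlab3 _ (Ry t ht)),
          if_neg (fun h => far hη4 h (Ry t ht) (by rw [hs1]; linarith)),
          if_neg (fun h => far hη4 h (Ry t ht) (by rw [hs3]; linarith)),
          if_pos (Ry t ht)]
      lab4 := fun t ht => by
        show (if ‖R (z t)‖ ≤ η then 0 else if ‖R (z t) - e‖ ≤ η then 1 else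
          if ‖R (z t) - (-e)‖ ≤ η then 2 else if ‖R (z t) - f‖ ≤ η then 3 else 4) = 4
        have hff : ‖f - -f‖ = 2 := by
          rw [sub_neg_eq_add, ← two_smul ℝ f, norm_smul, hf]
          norm_num
        rw [if_neg (hlab4 _ (Rz t ht)),
          if_neg (fun h => far hη4 h (Rz t ht) (by rw [hs2]; linarith)),
          if_neg (fun h => far hη4 h (Rz t ht) (by rw [hs4]; linarith)),
          if_neg (fun h => far hη4 h (Rz t ht) (by rw [hff]; norm_num))]
      mU := mu.ennreal_ofReal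
      Ubd := ⟨ENNReal.ofReal (πv + (w + w) + (w + w)), ENNReal.ofReal_ne_top, fun x => by
        apply ENNReal.ofReal_le_ofReal
        have a1 := hπ0 x
        have a2 := hwf x
        have a3 := hwf (R x)
        simp only [hu, uu]
        linarith⟩
      UR := fun x => by
        show ENNReal.ofReal (u (R x)) = ENNReal.ofReal (u x)
        rw [uuR]
      ineq := hcont.1
      eqn := fun t ht => by
        show _ = ENNReal.ofReal (u t) + ENNReal.ofReal (u (y t)) + ENNReal.ofReal (u (z t))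
        rw [uu0 t ht, uu1 t ht, uu2 t ht, tripleCost_eq (s01 t ht t ht) (s02 t ht t ht) (s12 t ht t ht),
          ← ENNReal.ofReal_add (pP t ht) (pt t ht),
          ← ENNReal.ofReal_add (add_nonneg (pP t ht) (pt t ht)) (p3 t ht)]
        congr 1
        simp only [ut, cR]
        ring
      cls := hcont.2
      near := ?_ }
  intro ε hε
  -- reduce to a real error
  obtain ⟨ε', hε'pos, hε'le⟩ : ∃ ε' : ℝ, 0 < ε' ∧ ENNReal.ofReal ε' ≤ ε := by
    by_cases htop : ε = ⊤
    · exact ⟨1, one_pos, by rw [htop]; exact le_top⟩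
    · refine ⟨ε.toReal, ENNReal.toReal_pos hε htop, ?_⟩
      rw [ENNReal.ofReal_toReal htop]
  let h : E × E × E → ℝ := fun p =>
    cR s p.1 (y p.2.1) (z p.2.2) - uP πv B p.1 - ut s πv v B g e y z p.2.1 - u3 v B g e (z p.2.2)
  have hc : ContinuousOn h (K0 ×ˢ K0 ×ˢ K0) := by
    have hp1 : ContinuousOn (fun p : E × E × E => p.1) (K0 ×ˢ K0 ×ˢ K0) := continuousOn_fst
    have hp2 : ContinuousOn (fun p : E × E × E => y p.2.1) (K0 ×ˢ K0 ×ˢ K0) :=
      cy.comp (continuous_fst.comp continuous_snd).continuousOn (fun p hp => hp.2.1)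
    have hp3 : ContinuousOn (fun p : E × E × E => z p.2.2) (K0 ×ˢ K0 ×ˢ K0) :=
      cz.comp (continuous_snd.comp continuous_snd).continuousOn (fun p hp => hp.2.2)
    have t1 := cR1 hp1 hp2 (fun p hp => s01 _ hp.1 _ hp.2.1)
    have t2 := cR1 hp1 hp3 (fun p hp => s02 _ hp.1 _ hp.2.2)
    have t3 := cR1 hp2 hp3 (fun p hp => s12 _ hp.2.1 _ hp.2.2)
    have t4 : ContinuousOn (fun p : E × E × E => ut s πv v B g e y z p.2.1) (K0 ×ˢ K0 ×ˢ K0) :=
      cut.comp (continuous_fst.comp continuous_snd).continuousOn (fun p hp => hp.2.1)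
    have t5 : ContinuousOn (fun p : E × E × E => uP πv B p.1) (K0 ×ˢ K0 ×ˢ K0) :=
      cuP.comp_continuousOn hp1
    have t6 : ContinuousOn (fun p : E × E × E => u3 v B g e (z p.2.2)) (K0 ×ˢ K0 ×ˢ K0) :=
      cu3.comp_continuousOn hp3
    exact ((((t1.add t2).add t3).sub t5).sub t4).sub t6
  have hh0 : ∀ t ∈ K0, h (t, t, t) = 0 := by
    intro t _
    simp only [h, ut]
    ring
  obtain ⟨τ, hτ, hτ2⟩ := near_lemma hnK0 hc hh0 hε'pos
  refine ⟨τ, hτ, fun t ht t' ht' t'' ht'' d1 d2 _ => ?_⟩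
  have hle := hτ2 t ht t' ht' t'' ht'' d1 d2
  simp only [h] at hle
  show _ ≤ ENNReal.ofReal (u t) + ENNReal.ofReal (u (y t')) + ENNReal.ofReal (u (z t'')) + ε
  rw [uu0 t ht, uu1 t' ht', uu2 t'' ht'', tripleCost_eq (s01 t ht t' ht') (s02 t ht t'' ht'')
    (s12 t' ht' t'' ht'')]
  refine le_trans ?_ (add_le_add_right hε'le _)
  rw [← ENNReal.ofReal_add (pP t ht) (pt t' ht'),
    ← ENNReal.ofReal_add (add_nonneg (pP t ht) (pt t' ht')) (p3 t'' ht''),
    ← ENNReal.ofReal_add (add_nonneg (add_nonneg (pP t ht) (pt t' ht')) (p3 t'' ht'')) hε'pos.le]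
  apply ENNReal.ofReal_le_ofReal
  simp only [cR] at hle
  linarith

end Build

end Crest.Agent.MM
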