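import Mathlib
import Crest.Agent.Lib.MM.Potential
import Crest.Agent.Lib.MM.Density
import Crest.Agent.Lib.MM.Approx

/-! Assembly of the example in a general Euclidean space. -/

set_option autoImplicit false
open MeasureTheory Set Metric Filter Topology
open scoped ENNReal ContDiff
open Crest.AnalysisR.OT

namespace Crest.Agent.MM

lemma exists_B {s : ℝ} (hs : 0 < s) : ∃ B, BigB s B := by
  have hk := kap_pos s
  have hL : 0 < s * (s + 3) := by positivity
  have hE : 0 ≤ errL s := by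
    unfold errL
    positivity
  refine ⟨3 * (s * (s + 3)) + 2 * (s * (s + 3)) / kap s + 6 * errL s + 1, ?_, ?_, ?_, ?_⟩
  · positivity
  · have : 0 < 2 * (s * (s + 3)) / kap s := by positivity
    linarith
  · have h1 : kap s * (3 * (s * (s + 3)) + 2 * (s * (s + 3)) / kap s + 6 * errL s + 1) =
        2 * (s * (s + 3)) + kap s * (3 * (s * (s + 3)) + 6 * errL s + 1) := by
      field_simp
      ring
    rw [h1]
    have : 0 < kap s * (3 * (s * (s + 3)) + 6 * errL s + 1) := by positivity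
    linarith
  · have : 0 < 2 * (s * (s + 3)) / kap s := by positivity
    linarith

lemma exists_eta {s : ℝ} (hs : 0 < s) {C X : ℝ} (hX : X < 2 + Real.sqrt 2 ^ (-s)) :
    ∃ η : ℝ, 0 < η ∧ η ≤ 1 / 4 ∧ C < (2 * η) ^ (-s) ∧
      X < 2 * (1 + 2 * η) ^ (-s) + (Real.sqrt 2 + 2 * η) ^ (-s) := by
  have h1 : Tendsto (fun η : ℝ => (2 * η) ^ (-s)) (𝓝[>] 0) atTop := by
    have a := tendsto_rpow_neg_nhdsGT_zero (y := -s) (by linarith)
    refine a.comp ?_
    rw [tendsto_nhdsWithin_iff]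
    constructor
    · have : Tendsto (fun η : ℝ => 2 * η) (𝓝 0) (𝓝 (2 * 0)) := tendsto_const_nhds.mul tendsto_id
      rw [mul_zero] at this
      exact this.mono_left nhdsWithin_le_nhds
    · filter_upwards [self_mem_nhdsWithin] with η hη
      exact mul_pos two_pos (mem_Ioi.mp hη)
  have hsq : 0 < Real.sqrt 2 := Real.sqrt_pos.mpr (by norm_num)
  have h2 : ContinuousAt (fun η : ℝ => 2 * (1 + 2 * η) ^ (-s) + (Real.sqrt 2 + 2 * η) ^ (-s)) 0 := by
    refine ContinuousAt.add (continuousAt_const.mul (ContinuousAt.rpow_const (by fun_prop)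
      (Or.inl (by norm_num)))) (ContinuousAt.rpow_const (by fun_prop) (Or.inl (by simpa using hsq.ne')))
  have h3 : ∀ᶠ η in 𝓝 (0 : ℝ), X < 2 * (1 + 2 * η) ^ (-s) + (Real.sqrt 2 + 2 * η) ^ (-s) := by
    have : X < 2 * (1 + 2 * (0 : ℝ)) ^ (-s) + (Real.sqrt 2 + 2 * 0) ^ (-s) := by
      simpa using hX
    exact h2.tendsto.eventually (lt_mem_nhds this)
  have h4 : ∀ᶠ η in 𝓝[>] (0 : ℝ), C < (2 * η) ^ (-s) := h1.eventually (eventually_gt_atTop C)
  have h5 : ∀ᶠ η in 𝓝[>] (0 : ℝ), η ≤ 1 / 4 := by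
    filter_upwards [Ioc_mem_nhdsGT (by norm_num : (0 : ℝ) < 1 / 4)] with η hη
    exact hη.2
  obtain ⟨η, a1, a2, a3, a4⟩ :=
    ((h3.filter_mono nhdsWithin_le_nhds).and (h4.and (h5.and self_mem_nhdsWithin))).exists
  exact ⟨η, a4, a3, a2, a1⟩

section Trunc

variable {G : Type*} [NormedAddCommGroup G] [NormedSpace ℝ G] [CompleteSpace G]
  [MeasurableSpace G] [BorelSpace G]

lemma exists_trunc {Y : G → G} {a : G} (hf : ∀ᶠ x in 𝓝 a, ContDiffAt ℝ ∞ Y x)
    {L : G ≃L[ℝ] G} (hL : HasFDerivAt Y (L : G →L[ℝ] G) a) :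
    ∃ (U V : Set G) (g y : G → G), IsOpen U ∧ IsOpen V ∧ a ∈ U ∧ Measurable y ∧
      (∀ x ∈ U, y x = Y x) ∧ MapsTo y U V ∧ MapsTo g V U ∧ (∀ x ∈ U, g (y x) = x) ∧
      (∀ v ∈ V, y (g v) = v) ∧ (∀ v ∈ V, ContDiffAt ℝ ∞ g v) ∧ (∀ x ∈ U, ContDiffAt ℝ ∞ y x) := by
  classical
  obtain ⟨U, V, g, hU, hV, haU, -, hUV, hVU, hgf, hfg, hgs, hfs, -⟩ := exists_local_diffeo hf hL
  have hy : ∀ x ∈ U, (U.piecewise Y (0 : G → G)) x = Y x := fun x hx => piecewise_eq_of_mem _ _ _ hx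
  refine ⟨U, V, g, U.piecewise Y (0 : G → G), hU, hV, haU, ?_, hy, ?_, hVU, ?_, ?_, hgs, ?_⟩
  · have hc : ContinuousOn Y U := fun x hx =>
      (hfs x hx).continuousAt.continuousWithinAt
    exact hc.measurable_piecewise continuousOn_const hU.measurableSet
  · intro x hx
    rw [hy x hx]
    exact hUV hx
  · intro x hx
    rw [hy x hx]
    exact hgf x hx
  · intro v hv
    rw [hy _ (hVU hv)]
    exact hfg v hv
  · intro x hx
    refine (hfs x hx).congr_of_eventuallyEq ?_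
    filter_upwards [hU.mem_nhds hx] with w hw
    exact hy w hw

end Trunc

section Generic

variable {E : Type*} [NormedAddCommGroup E] [InnerProductSpace ℝ E] [FiniteDimensional ℝ E]
  [MeasurableSpace E] [BorelSpace E] [Nontrivial E]

local notation "⟪" x ", " y "⟫" => @inner ℝ _ _ x y

theorem generic_main {s : ℝ} (hs : 0 < s) {e f : E} (he : ‖e‖ = 1) (hf : ‖f‖ = 1) (hef : ⟪e, f⟫ = 0)
    (R : E ≃ₗᵢ[ℝ] E) (Rinv : ∀ x, R (R x) = x) (Re : R e = f) :
    ∃ ρ : E → ℝ, (∀ x, 0 ≤ ρ x) ∧ ContDiff ℝ ∞ ρ ∧ HasCompactSupport ρ ∧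
      ContDiff ℝ ∞ (fun x => Real.sqrt (ρ x)) ∧ ∫ x, ρ x = 1 ∧
      ∃ π₀ : Measure (E × E × E),
        IsCoupling₃ (measOfDensity ρ) π₀ ∧ ∫⁻ p, tripleCost s p ∂π₀ < ⊤ ∧
        (∀ π : Measure (E × E × E), IsCoupling₃ (measOfDensity ρ) π →
          ∫⁻ p, tripleCost s p ∂π₀ ≤ ∫⁻ p, tripleCost s p ∂π) ∧
        (∀ T₂ T₃ : E → E, Measurable T₂ → Measurable T₃ →
          (measOfDensity ρ).map T₂ = measOfDensity ρ → (measOfDensity ρ).map T₃ = measOfDensity ρ →
          ∫⁻ p, tripleCost s p ∂π₀ < ∫⁻ x, tripleCost s (x, T₂ x, T₃ x) ∂(measOfDensity ρ)) ∧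
        (∀ ε : ℝ≥0∞, 0 < ε → ∃ T₂ T₃ : E → E, Measurable T₂ ∧ Measurable T₃ ∧
          (measOfDensity ρ).map T₂ = measOfDensity ρ ∧ (measOfDensity ρ).map T₃ = measOfDensity ρ ∧
          ∫⁻ x, tripleCost s (x, T₂ x, T₃ x) ∂(measOfDensity ρ) < ∫⁻ p, tripleCost s p ∂π₀ + ε) := by
  classical
  obtain ⟨B, hB⟩ := exists_B hs
  have hmin : -s < 0 := by linarith
  have hsq : 0 < Real.sqrt 2 := Real.sqrt_pos.mpr (by norm_num)
  have hsq2 : Real.sqrt 2 < 2 := by
    rw [Real.sqrt_lt' (by norm_num)]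
    norm_num
  -- constants
  set v : ℝ := ((5 : ℝ) / 2) ^ (-s) / 4 with hv
  have h52 : 0 < ((5 : ℝ) / 2) ^ (-s) := by positivity
  have hv0 : 0 < v := by positivity
  have hv1 : ((5 : ℝ) / 2) ^ (-s) ≤ 1 :=
    Real.rpow_le_one_of_one_le_of_nonpos (by norm_num) hmin.le
  have h2s : (2 : ℝ) ^ (-s) < Real.sqrt 2 ^ (-s) := Real.rpow_lt_rpow_of_neg hsq hsq2 hmin
  have h2s0 : (0 : ℝ) < 2 ^ (-s) := by positivity
  set ε0 : ℝ := min ((Real.sqrt 2 ^ (-s) - 2 ^ (-s)) / 4) v with hε0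
  have hε00 : 0 < ε0 := lt_min (by linarith) hv0
  have hε01 : ε0 ≤ (Real.sqrt 2 ^ (-s) - 2 ^ (-s)) / 4 := min_le_left _ _
  have hε02 : ε0 ≤ v := min_le_right _ _
  set w : ℝ := v + ε0 with hw
  have hw0 : 0 ≤ w := by positivity
  have hvw : v < w := by linarith
  set c0 : ℝ := 2 + 2 ^ (-s) with hc0
  set πv : ℝ := c0 - 2 * v with hπv
  have hπ0 : 0 < πv := by
    simp only [hπv, hc0, hv]
    linarith
  obtain ⟨η, hη, hη4, hrep, hPa⟩ := exists_eta hs (C := 3 * (πv + w)) (X := πv + 2 * w) (by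
    simp only [hπv, hc0, hw]
    linarith)
  -- the arms
  obtain ⟨W0, Y, Z, hW0, h0W, hY0, hZ0, sY, sZ, G1, G2, ⟨L1, hL1⟩, ⟨L2, hL2⟩⟩ :=
    exists_arms hs he hB
  have evY : ∀ᶠ x in 𝓝 (0 : E), ContDiffAt ℝ ∞ Y x := by
    filter_upwards [hW0.mem_nhds h0W] using sY
  have evZ : ∀ᶠ x in 𝓝 (0 : E), ContDiffAt ℝ ∞ Z x := by
    filter_upwards [hW0.mem_nhds h0W] using sZ
  obtain ⟨U1, V1, g1, y, hU1, hV1, h0U1, my, yY, mapsy, mapsg1, hg1, hyg, sg1, sy⟩ :=
    exists_trunc evY hL1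
  obtain ⟨U2, V2, g2, z, hU2, hV2, h0U2, mz, zZ, mapsz, mapsg2, hg2, hzg, sg2, sz⟩ :=
    exists_trunc evZ hL2
  have hy0 : y 0 = e := (yY 0 h0U1).trans hY0
  have hz0 : z 0 = -e := (zZ 0 h0U2).trans hZ0
  have cy0 : ContinuousAt y 0 := (sy 0 h0U1).continuousAt
  have cz0 : ContinuousAt z 0 := (sz 0 h0U2).continuousAt
  set g : E := Fs s (-e - 0) + Fs s (-e - e) with hg
  have he0 : e ≠ 0 := by
    intro h
    rw [h, norm_zero] at he
    exact zero_ne_one he
  have he2 : ‖e - -e‖ = 2 := by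
    rw [sub_neg_eq_add, ← two_smul ℝ e, norm_smul, he]
    norm_num
  -- values at the base point
  have cu3 : Continuous (u3 v B g e) := by
    unfold u3
    fun_prop
  have cuP : Continuous (uP πv B : E → ℝ) := by
    unfold uP
    fun_prop
  have vP : uP πv B (0 : E) = πv := by simp [uP]
  have v3 : u3 v B g e (z 0) = v := by
    rw [hz0]
    simp [u3]
  have vt : ut s πv v B g e y z 0 = v := by
    unfold ut
    rw [vP, v3, hy0, hz0]
    simp only [cR, zero_sub, norm_neg, neg_neg, he, he2, Real.one_rpow]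
    simp only [hπv, hc0]
    ring
  have cut : ContinuousAt (ut s πv v B g e y z) 0 := by
    unfold ut cR
    have a1 : ContinuousAt (fun t : E => ‖t - y t‖ ^ (-s)) 0 := by
      refine ((continuousAt_id.sub cy0).norm).rpow_const (Or.inl ?_)
      simp [hy0, he]
    have a2 : ContinuousAt (fun t : E => ‖t - z t‖ ^ (-s)) 0 := by
      refine ((continuousAt_id.sub cz0).norm).rpow_const (Or.inl ?_)
      simp [hz0, he]
    have a3 : ContinuousAt (fun t : E => ‖y t - z t‖ ^ (-s)) 0 := by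
      refine ((cy0.sub cz0).norm).rpow_const (Or.inl ?_)
      show ‖y 0 - z 0‖ ≠ 0
      rw [hy0, hz0, he2]
      norm_num
    exact ((((a1.add a2).add a3).sub cuP.continuousAt).sub
      (cu3.continuousAt.comp cz0))
  have cu3z : ContinuousAt (fun t => u3 v B g e (z t)) 0 := cu3.continuousAt.comp cz0
  -- choice of the radius
  have ev : ∀ᶠ t in 𝓝 (0 : E), t ∈ W0 ∧ t ∈ U1 ∧ t ∈ U2 ∧ ‖y t - e‖ ≤ η ∧ ‖z t - (-e)‖ ≤ η ∧
      0 < uP πv B t ∧ ut s πv v B g e y z t ∈ Ioo 0 w ∧ u3 v B g e (z t) ∈ Ioo 0 w := by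
    have e1 : ∀ᶠ t in 𝓝 (0 : E), ‖y t - e‖ ≤ η := by
      have := cy0.tendsto.eventually (closedBall_mem_nhds (y 0) hη)
      filter_upwards [this] with t ht
      rw [hy0] at ht
      have h9 : dist (y t) e ≤ η := ht
      rwa [dist_eq_norm] at h9
    have e2 : ∀ᶠ t in 𝓝 (0 : E), ‖z t - (-e)‖ ≤ η := by
      have := cz0.tendsto.eventually (closedBall_mem_nhds (z 0) hη)
      filter_upwards [this] with t ht
      rw [hz0] at ht
      have h9 : dist (z t) (-e) ≤ η := ht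
      rwa [dist_eq_norm] at h9
    have e3 : ∀ᶠ t in 𝓝 (0 : E), 0 < uP πv B t :=
      cuP.continuousAt.tendsto.eventually (lt_mem_nhds (by rw [vP]; exact hπ0))
    have e4 : ∀ᶠ t in 𝓝 (0 : E), ut s πv v B g e y z t ∈ Ioo 0 w :=
      cut.tendsto.eventually (Ioo_mem_nhds (by rw [vt]; exact hv0) (by rw [vt]; exact hvw))
    have e5 : ∀ᶠ t in 𝓝 (0 : E), u3 v B g e (z t) ∈ Ioo 0 w :=
      cu3z.tendsto.eventually (Ioo_mem_nhds (by rw [v3]; exact hv0) (by rw [v3]; exact hvw))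
    filter_upwards [hW0.mem_nhds h0W, hU1.mem_nhds h0U1, hU2.mem_nhds h0U2, e1, e2, e3, e4, e5]
      with t a1 a2 a3 a4 a5 a6 a7 a8
    exact ⟨a1, a2, a3, a4, a5, a6, a7, a8⟩
  obtain ⟨r, hr, hball⟩ := Metric.eventually_nhds_iff.mp ev
  set δ : ℝ := min (r / 2) η with hδdef
  have hδ : 0 < δ := lt_min (by positivity) hη
  have hδη : δ ≤ η := min_le_right _ _
  have hP : ∀ t ∈ closedBall (0 : E) δ, t ∈ W0 ∧ t ∈ U1 ∧ t ∈ U2 ∧ ‖y t - e‖ ≤ η ∧
      ‖z t - (-e)‖ ≤ η ∧ 0 < uP πv B t ∧ ut s πv v B g e y z t ∈ Ioo 0 w ∧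
      u3 v B g e (z t) ∈ Ioo 0 w := by
    intro t ht
    apply hball
    rw [mem_closedBall_zero_iff] at ht
    rw [dist_zero_right]
    have : δ ≤ r / 2 := min_le_left _ _
    linarith
  -- the measure
  set ψ : E → ℝ := bumpf δ with hψ
  have s0 : ContDiff ℝ ∞ ψ := bumpf_contDiff δ
  have n0 : ∀ x, 0 ≤ ψ x := bumpf_nonneg δ
  have c0' : HasCompactSupport ψ := bumpf_compact hδ
  have hψR : ∀ x, ψ (R x) = ψ x := fun x => by
    simp only [hψ, bumpf, LinearIsometryEquiv.norm_map]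
  have mf0 : Measurable (fun x => ENNReal.ofReal (ψ x ^ 2)) :=
    (s0.continuous.pow 2).measurable.ennreal_ofReal
  set ν : Measure E := volume.withDensity fun x => ENNReal.ofReal (ψ x ^ 2) with hν
  have hRμ : MeasurePreserving (R : E → E) volume volume := R.measurePreserving
  have finν : IsFiniteMeasure ν := by
    apply isFiniteMeasure_withDensity_ofReal
    exact ((s0.continuous.pow 2).integrable_of_hasCompactSupport
      (c0'.mono (by
        intro x hx h0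
        apply hx
        show ψ x ^ 2 = 0
        rw [h0]
        norm_num))).hasFiniteIntegral
  have nullν : NullSingletonClass ν := ⟨fun x =>
    withDensity_absolutelyContinuous _ _ (measure_singleton x)⟩
  have posν : ν univ ≠ 0 := by
    rw [hν, withDensity_apply _ MeasurableSet.univ, setLIntegral_univ, ← pos_iff_ne_zero,
      lintegral_pos_iff_support mf0]
    refine lt_of_lt_of_le (Metric.measure_ball_pos volume (0 : E) hδ) (measure_mono ?_)
    intro x hx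
    have : 0 < ψ x := bumpf_pos hδ hx
    simp only [Function.mem_support, ne_eq, ENNReal.ofReal_eq_zero, not_le]
    positivity
  have concν : ν (closedBall 0 δ)ᶜ = 0 := by
    rw [hν, withDensity_apply_eq_zero mf0]
    convert measure_empty (μ := (volume : Measure E))
    ext x
    simp only [mem_inter_iff, mem_ofPred_eq, mem_compl_iff, mem_empty_iff_false, iff_false, not_and, not_not]
    intro h1
    by_contra h2
    apply h1
    have h3 : ψ x = 0 := bumpf_eq_zero hδ h2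
    rw [h3]
    simp
  have Rν : ν.map R = ν := by
    rw [hν, map_R_withDensity hRμ Rinv mf0]
    congr 1
    funext x
    simp only [Function.comp_apply, hψR]
  have R0 : R 0 = 0 := map_zero R
  have Rne : R (-e) = -f := by rw [map_neg, Re]
  -- the structure
  obtain ⟨U, lab, hSys⟩ := build_sys (ν := ν) (y := y) (z := z) (g1 := g1) (R := R) (g := g) (B := B)
    (η := η) (δ := δ) (πv := πv) (v := v) (w := w) (e := e) (f := f)
    hs hB hδ hδη hη4 he hf hef (fun a b => by rw [← map_sub, LinearIsometryEquiv.norm_map]) Rinv R0 Re Rne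
    hw0 hπ0.le hrep hPa (by
      simp only [hw, hv] at hε02 ⊢
      linarith)
    my mz
    (fun t ht => (sy t (hP t ht).2.1).continuousAt.continuousWithinAt)
    (fun t ht => (sz t (hP t ht).2.2.1).continuousAt.continuousWithinAt)
    (fun t ht => hg1 t (hP t ht).2.1)
    (by
      rintro _ ⟨t, ht, rfl⟩
      exact (sg1 _ (mapsy (hP t ht).2.1)).continuousAt.continuousWithinAt)
    (fun a ha b hb h => by rw [← hg2 a (hP a ha).2.2.1, h, hg2 b (hP b hb).2.2.1])
    (fun t ht => (hP t ht).2.2.2.1)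
    (fun t ht => (hP t ht).2.2.2.2.1)
    (fun t ht => by
      rw [yY t (hP t ht).2.1, zZ t (hP t ht).2.2.1]
      exact G1 t (hP t ht).1)
    (fun t ht => by
      rw [yY t (hP t ht).2.1, zZ t (hP t ht).2.2.1]
      exact G2 t (hP t ht).1)
    (fun t ht => (hP t ht).2.2.2.2.2.1.le)
    (fun t ht => (hP t ht).2.2.2.2.2.2.1.1.le)
    (fun t ht => (hP t ht).2.2.2.2.2.2.1.2.le)
    (fun t ht => (hP t ht).2.2.2.2.2.2.2.1.le)
    (fun t ht => (hP t ht).2.2.2.2.2.2.2.2.le)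
    finν nullν posν concν Rν
  -- the densities of the arms
  have htsupp : tsupport ψ ⊆ closedBall (0 : E) δ := bumpf_tsupport hδ
  obtain ⟨ψy, s1, n1, c1, supp1, hψy⟩ := pushforward_density (μ := (volume : Measure E)) hU1 hV1 my mapsy
    mapsg1 hg1 hyg sg1 sy s0 n0 c0' (htsupp.trans fun t ht => (hP t ht).2.1)
  obtain ⟨ψz, s2, n2, c2, supp2, hψz⟩ := pushforward_density (μ := (volume : Measure E)) hU2 hV2 mz mapsz
    mapsg2 hg2 hzg sg2 sz s0 n0 c0' (htsupp.trans fun t ht => (hP t ht).2.2.1)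
  -- disjointness through the labels
  have lab0 : ∀ x, ψ x ≠ 0 → lab x = 0 := by
    intro x hx
    apply hSys.lab0
    by_contra h
    exact hx (bumpf_eq_zero hδ h)
  have lab1 : ∀ x, ψy x ≠ 0 → lab x = 1 := by
    intro x hx
    obtain ⟨t, ht, rfl⟩ := supp1 x hx
    exact hSys.lab1 t (htsupp ht)
  have lab2 : ∀ x, ψz x ≠ 0 → lab x = 2 := by
    intro x hx
    obtain ⟨t, ht, rfl⟩ := supp2 x hx
    exact hSys.lab2 t (htsupp ht)
  have lab3 : ∀ x, ψy (R x) ≠ 0 → lab x = 3 := by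
    intro x hx
    obtain ⟨t, ht, h⟩ := supp1 _ hx
    have : x = R (y t) := by rw [h, Rinv]
    rw [this]
    exact hSys.lab3 t (htsupp ht)
  have lab4 : ∀ x, ψz (R x) ≠ 0 → lab x = 4 := by
    intro x hx
    obtain ⟨t, ht, h⟩ := supp2 _ hx
    have : x = R (z t) := by rw [h, Rinv]
    rw [this]
    exact hSys.lab4 t (htsupp ht)
  have prod : ∀ {f1 f2 : E → ℝ} {i j : ℕ}, i ≠ j → (∀ x, f1 x ≠ 0 → lab x = i) →
      (∀ x, f2 x ≠ 0 → lab x = j) → ∀ x, f1 x * f2 x = 0 := by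
    intro f1 f2 i j hij h1 h2 x
    by_contra h
    have a1 := h1 x (left_ne_zero_of_mul h)
    have a2 := h2 x (right_ne_zero_of_mul h)
    exact hij (a1.symm.trans a2)
  -- the constant
  have hne6 : 6 * ν univ ≠ 0 := mul_ne_zero (by norm_num) posν
  have htop6 : 6 * ν univ ≠ ⊤ := ENNReal.mul_ne_top (by norm_num) (measure_ne_top _ _)
  set c : ℝ := ((6 * ν univ)⁻¹).toReal with hc
  have hcpos : 0 < c := ENNReal.toReal_pos (ENNReal.inv_ne_zero.mpr htop6) (ENNReal.inv_ne_top.mpr hne6)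
  have hcν : ENNReal.ofReal c = (6 * ν univ)⁻¹ := ENNReal.ofReal_toReal (ENNReal.inv_ne_top.mpr hne6)
  have hRcd : ContDiff ℝ ∞ (R : E → E) := R.contDiff
  have hRemb : Topology.IsClosedEmbedding (R : E → E) := R.toHomeomorph.isClosedEmbedding
  obtain ⟨ρ, hρ0, hρs, hρc, hρr, hρμ⟩ := density_main (μ := (volume : Measure E)) (ν := ν) (y := y)
    (z := z) (R := R) hRcd hRemb hRμ Rinv my mz s0 s1 s2 n0 n1 n2 c0' c1 c2 hν hψy hψz
    (prod (by norm_num) lab0 lab1) (prod (by norm_num) lab0 lab2)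
    (prod (by norm_num) lab0 lab3) (prod (by norm_num) lab0 lab4)
    (prod (by norm_num) lab1 lab2) (prod (by norm_num) lab1 lab3)
    (prod (by norm_num) lab1 lab4) (prod (by norm_num) lab2 lab3)
    (prod (by norm_num) lab2 lab4) (prod (by norm_num) lab3 lab4)
    hcpos hcν
  have hmeas : measOfDensity ρ = muOf ν y z R := hρμ
  refine ⟨ρ, hρ0, hρs, hρc, hρr, ?_, ?_⟩
  · rw [integral_eq_lintegral_of_nonneg_ae (ae_of_all _ hρ0) hρs.continuous.aestronglyMeasurable]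
    have h1 : (∫⁻ x, ENNReal.ofReal (ρ x)) = muOf ν y z R univ := by
      rw [← hρμ, withDensity_apply _ MeasurableSet.univ, setLIntegral_univ]
    rw [h1, hSys.mu_univ]
    simp
  · rw [hmeas]
    exact hSys.main

end Generic

end Crest.Agent.MM
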